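import Vale.Agent.P043.Defs

namespace Vale.Agent.P043

variable {G G' : Type} [AddCommGroup G] [AddCommGroup G']

def Per (A : Set G) : Prop :=
  ∃ H : AddSubgroup G, H.FiniteIndex ∧ ∀ h ∈ H, ∀ a ∈ A, a + h ∈ A

lemma per_of_periodic {A : Set G} (h : IsPeriodic A) : Per A := by
  obtain ⟨H, hH, h⟩ := h
  refine ⟨H, hH, fun x hx a ha => ?_⟩
  rw [← h x hx]
  exact ⟨a, ha, rfl⟩

/-- an aperiodic system of tiling equations -/
def Sys (G : Type) [AddCommGroup G] (L : List (Finset G)) : Prop :=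
  (∃ A : Set G, ∀ F ∈ L, IsTiling A F) ∧ ∀ A : Set G, (∀ F ∈ L, IsTiling A F) → ¬ Per A

lemma IsTiling.ex {A : Set G} {F : Finset G} (h : IsTiling A F) (g : G) :
    ∃ a ∈ A, ∃ f ∈ F, a + f = g := by
  obtain ⟨p, ⟨h1, h2, h3⟩, -⟩ := h g
  exact ⟨p.1, h1, p.2, h2, h3⟩

lemma IsTiling.uniq {A : Set G} {F : Finset G} (h : IsTiling A F) {a a' f f' : G}
    (ha : a ∈ A) (ha' : a' ∈ A) (hf : f ∈ F) (hf' : f' ∈ F) (e : a + f = a' + f') :
    a = a' ∧ f = f' := by
  have := (h (a + f)).unique (y₁ := (a, f)) (y₂ := (a', f')) ⟨ha, hf, rfl⟩ ⟨ha', hf', e.symm⟩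
  exact ⟨congrArg Prod.fst this, congrArg Prod.snd this⟩

lemma isTiling_of {A : Set G} {F : Finset G} (h1 : ∀ g, ∃ a ∈ A, ∃ f ∈ F, a + f = g)
    (h2 : ∀ a ∈ A, ∀ a' ∈ A, ∀ f ∈ F, ∀ f' ∈ F, a + f = a' + f' → f = f') : IsTiling A F := by
  intro g
  obtain ⟨a, ha, f, hf, e⟩ := h1 g
  refine ⟨(a, f), ⟨ha, hf, e⟩, ?_⟩
  rintro ⟨a', f'⟩ ⟨ha', hf', e'⟩
  have := h2 a' ha' a ha f' hf' f hf (e'.trans e.symm)
  subst this
  have : a' = a := add_right_cancel (e'.trans e.symm)
  rw [this]

lemma IsTiling.nonempty {A : Set G} {F : Finset G} (h : IsTiling A F) : F.Nonempty := by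
  obtain ⟨_, _, f, hf, _⟩ := h.ex 0
  exact ⟨f, hf⟩

/-- lifting a system through a surjection with finitely generated kernel -/
lemma sys_lift (π : G →+ G') (hπ : Function.Surjective π) (S : Finset G)
    (hS : AddSubgroup.closure (S : Set G) = π.ker) (L : List (Finset G')) (hL : Sys G' L) :
    ∃ L' : List (Finset G), Sys G L' := by
  classical
  obtain ⟨⟨A0, hA0⟩, hap⟩ := hL
  obtain ⟨F0, hF0⟩ : ∃ F0, F0 ∈ L := by
    by_contra hc
    refine hap Set.univ (fun F hF => absurd ⟨F, hF⟩ hc) ⟨⊤, inferInstance, fun _ _ _ _ => trivial⟩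
  obtain ⟨f0, hf0⟩ := (hA0 F0 hF0).nonempty
  choose σ hσ using hπ
  let τ : G → G' → G := fun s f => if f = f0 then σ f + s else σ f
  have hτ : ∀ s ∈ π.ker, ∀ f, π (τ s f) = f := by
    intro s hs f
    simp only [τ]
    split_ifs
    · rw [map_add, hσ, (AddMonoidHom.mem_ker).1 hs, add_zero]
    · exact hσ f
  have hSk : ∀ s ∈ S, s ∈ π.ker := fun s hs => hS ▸ AddSubgroup.subset_closure hs
  have pull : ∀ (F : Finset G') (ρ : G' → G), (∀ f, π (ρ f) = f) → IsTiling A0 F →
      IsTiling (π ⁻¹' A0) (F.image ρ) := by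
    intro F ρ hρ hF
    apply isTiling_of
    · intro g
      obtain ⟨a, ha, f, hf, e⟩ := hF.ex (π g)
      refine ⟨g - ρ f, ?_, ρ f, Finset.mem_image_of_mem _ hf, by abel⟩
      show π (g - ρ f) ∈ A0
      rw [map_sub, hρ, ← e]; simpa using ha
    · intro a ha a' ha' f hf f' hf' e
      obtain ⟨u, hu, rfl⟩ := Finset.mem_image.1 hf
      obtain ⟨u', hu', rfl⟩ := Finset.mem_image.1 hf'
      have e2 := congrArg π e
      rw [map_add, map_add, hρ, hρ] at e2
      rw [(hF.uniq ha ha' hu hu' e2).2]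
  refine ⟨L.map (fun F => F.image σ) ++
    (S ∪ S.image Neg.neg).toList.map (fun s => F0.image (τ s)), ⟨π ⁻¹' A0, ?_⟩, ?_⟩
  · intro F hF
    rcases List.mem_append.1 hF with h | h
    · obtain ⟨F1, h1, rfl⟩ := List.mem_map.1 h
      exact pull F1 σ hσ (hA0 F1 h1)
    · obtain ⟨s, hs, rfl⟩ := List.mem_map.1 h
      refine pull F0 _ (hτ s ?_) (hA0 F0 hF0)
      rcases Finset.mem_union.1 (Finset.mem_toList.1 hs) with h | h
      · exact hSk s h
      · obtain ⟨s', hs', rfl⟩ := Finset.mem_image.1 h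
        exact neg_mem (hSk s' hs')
  · intro A hA hper
    have hσinj : Function.Injective σ := fun x y e => by rw [← hσ x, ← hσ y, e]
    have t0 : ∀ F ∈ L, IsTiling A (F.image σ) := fun F hF =>
      hA _ (List.mem_append_left _ (List.mem_map_of_mem hF))
    have step : ∀ s ∈ S ∪ S.image Neg.neg, ∀ a ∈ A, a + s ∈ A := by
      intro s hs a ha
      have t1 : IsTiling A (F0.image (τ s)) :=
        hA _ (List.mem_append_right _ (List.mem_map_of_mem (Finset.mem_toList.2 hs)))
      obtain ⟨a', ha', f, hf, e⟩ := (t0 F0 hF0).ex (a + (σ f0 + s))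
      obtain ⟨u, hu, rfl⟩ := Finset.mem_image.1 hf
      by_cases hu0 : u = f0
      · subst hu0
        have : a' = a + s := by
          have : a' + σ u = a + s + σ u := by rw [e]; abel
          exact add_right_cancel this
        exact this ▸ ha'
      · have m1 : σ u ∈ F0.image (τ s) := Finset.mem_image.2 ⟨u, hu, by simp [τ, hu0]⟩
        have m2 : σ f0 + s ∈ F0.image (τ s) := Finset.mem_image.2 ⟨f0, hf0, by simp [τ]⟩
        have e3 := congrArg π (t1.uniq ha' ha m1 m2 e).2
        have hsk : π s = 0 := by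
          rcases Finset.mem_union.1 hs with h | h
          · exact hSk s h
          · obtain ⟨s', hs', rfl⟩ := Finset.mem_image.1 h
            exact neg_mem (hSk s' hs')
        rw [map_add, hσ, hσ, hsk, add_zero] at e3
        exact absurd e3 hu0
    have inv : ∀ k ∈ π.ker, ∀ a ∈ A, a + k ∈ A := by
      intro k hk
      rw [← hS] at hk
      have : (∀ a ∈ A, a + k ∈ A) ∧ (∀ a ∈ A, a + -k ∈ A) := by
        induction hk using AddSubgroup.closure_induction with
        | mem x hx =>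
          exact ⟨step x (Finset.mem_union_left _ hx),
            step _ (Finset.mem_union_right _ (Finset.mem_image_of_mem _ hx))⟩
        | zero => simp
        | add x y _ _ hx hy =>
          refine ⟨fun a ha => ?_, fun a ha => ?_⟩
          · rw [← add_assoc]; exact hy.1 _ (hx.1 a ha)
          · rw [neg_add, ← add_assoc]; exact hy.2 _ (hx.2 a ha)
        | neg x _ hx => exact ⟨hx.2, by simpa using hx.1⟩
      exact this.1
    refine hap (π '' A) (fun F hF => ?_) ?_
    · apply isTiling_of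
      · intro g
        obtain ⟨a, ha, f, hf, e⟩ := (t0 F hF).ex (σ g)
        obtain ⟨u, hu, rfl⟩ := Finset.mem_image.1 hf
        refine ⟨π a, ⟨a, ha, rfl⟩, u, hu, ?_⟩
        have := congrArg π e
        rwa [map_add, hσ, hσ] at this
      · rintro _ ⟨a, ha, rfl⟩ _ ⟨a', ha', rfl⟩ f hf f' hf' e
        have hk : a + σ f - σ f' - a' ∈ π.ker := by
          rw [AddMonoidHom.mem_ker, map_sub, map_sub, map_add, hσ, hσ, e]; abel
        have h3 := inv _ hk a' ha'
        have := ((t0 F hF).uniq ha h3 (Finset.mem_image_of_mem σ hf)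
          (Finset.mem_image_of_mem σ hf') (by abel)).2
        exact hσinj this
    · obtain ⟨H, hH, h⟩ := hper
      refine ⟨H.map π, ⟨?_⟩, ?_⟩
      · have hd := H.index_map_dvd (f := π) (fun y => ⟨σ y, hσ y⟩)
        intro h0
        rw [h0] at hd
        exact hH.index_ne_zero (Nat.eq_zero_of_zero_dvd hd)
      · rintro _ ⟨x, hx, rfl⟩ _ ⟨a, ha, rfl⟩
        exact ⟨a + x, h x hx a ha, map_add _ _ _⟩

lemma fi_comap (f : G →+ G') (H : AddSubgroup G') [H.FiniteIndex] : (H.comap f).FiniteIndex := by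
  refine ⟨?_⟩
  rw [AddSubgroup.index_comap]
  exact (AddSubgroup.instFiniteIndex_addSubgroupOf H f.range).index_ne_zero

/-- transfer of a single aperiodic tile along `G → G × K ≃ G'` -/
lemma sys_ext {K : Type} [AddCommGroup K] (e : G × K ≃+ G') (F : Finset G) (hF : Sys G [F]) :
    ∃ F' : Finset G', Sys G' [F'] := by
  classical
  obtain ⟨⟨A0, hA0⟩, hap⟩ := hF
  have h0 := hA0 F (by simp)
  refine ⟨F.image (fun f => e (f, 0)), ⟨{x | (e.symm x).1 ∈ A0}, ?_⟩, ?_⟩
  · intro F' hF'
    rw [List.mem_singleton.1 hF']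
    apply isTiling_of
    · intro g
      obtain ⟨a, ha, f, hf, h⟩ := h0.ex (e.symm g).1
      refine ⟨e (a, (e.symm g).2), by simpa using ha, _, Finset.mem_image_of_mem _ hf, ?_⟩
      rw [← map_add, Prod.mk_add_mk, h, add_zero, Prod.mk.eta, e.apply_symm_apply]
    · intro a ha a' ha' f hf f' hf' h
      obtain ⟨u, hu, rfl⟩ := Finset.mem_image.1 hf
      obtain ⟨u', hu', rfl⟩ := Finset.mem_image.1 hf'
      have h2 := congrArg (fun x => (e.symm x).1) h
      simp only [map_add, AddEquiv.symm_apply_apply, Prod.fst_add] at h2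
      rw [(h0.uniq ha ha' hu hu' h2).2]
  · intro A hA hper
    have h1 := hA _ (List.mem_singleton_self _)
    refine hap {a | e (a, 0) ∈ A} (fun F' hF' => ?_) ?_
    · rw [List.mem_singleton.1 hF']
      apply isTiling_of
      · intro g
        obtain ⟨a, ha, f, hf, h⟩ := h1.ex (e (g, 0))
        obtain ⟨u, hu, rfl⟩ := Finset.mem_image.1 hf
        have h2 : a = e (g - u, 0) := by
          rw [eq_sub_of_add_eq h, ← map_sub]; simp
        exact ⟨g - u, by show e (g - u, 0) ∈ A; rw [← h2]; exact ha, u, hu, by abel⟩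
      · intro a ha a' ha' f hf f' hf' h
        have h2 : e (a, 0) + e (f, 0) = e (a', 0) + e (f', 0) := by
          rw [← map_add, ← map_add, Prod.mk_add_mk, Prod.mk_add_mk, h]
        have := (h1.uniq ha ha' (Finset.mem_image_of_mem _ hf) (Finset.mem_image_of_mem _ hf') h2).2
        exact congrArg Prod.fst (e.injective this)
    · obtain ⟨H, hH, h⟩ := hper
      refine ⟨H.comap (e.toAddMonoidHom.comp (AddMonoidHom.inl G K)), fi_comap _ _, ?_⟩
      intro x hx a ha
      have := h _ hx _ ha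
      show e (a + x, 0) ∈ A
      have e2 : e (a + x, 0) = e (a, 0) + e (x, 0) := by rw [← map_add]; simp
      rw [e2]; exact this

end Vale.Agent.P043
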