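import Mathlib

namespace Vale.Agent.P043.T3

variable {q : ℕ} [hq : Fact q.Prime]

instance : NeZero (q ^ 2) := ⟨pow_ne_zero _ hq.out.ne_zero⟩

def tau (q : ℕ) : ZMod (q ^ 2) →+* ZMod q := ZMod.castHom (dvd_pow_self q two_ne_zero) (ZMod q)

def lift (t : ZMod q) : ZMod (q ^ 2) := (t.val : ZMod (q ^ 2))

@[simp] lemma tau_int (x : ℤ) : tau q (x : ZMod (q ^ 2)) = (x : ZMod q) := map_intCast _ _
@[simp] lemma tau_nat (x : ℕ) : tau q (x : ZMod (q ^ 2)) = (x : ZMod q) := map_natCast _ _
@[simp] lemma tau_lift (t : ZMod q) : tau q (lift t) = t := by simp [lift]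
@[simp] lemma lift_zero : lift (0 : ZMod q) = 0 := by simp [lift]

lemma mulq {z z' : ZMod (q ^ 2)} : (q : ZMod (q ^ 2)) * z = (q : ZMod (q ^ 2)) * z' ↔ tau q z = tau q z' := by
  obtain ⟨x, rfl⟩ := ZMod.intCast_surjective z
  obtain ⟨y, rfl⟩ := ZMod.intCast_surjective z'
  rw [tau_int, tau_int, ZMod.intCast_eq_intCast_iff_dvd_sub]
  have : ((q : ZMod (q ^ 2)) * (x : ZMod (q ^ 2)) = q * (y : ZMod (q ^ 2))) ↔
      (((q * x : ℤ) : ZMod (q ^ 2)) = ((q * y : ℤ) : ZMod (q ^ 2))) := by
    push_cast; rfl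
  rw [this, ZMod.intCast_eq_intCast_iff_dvd_sub, ← mul_sub]
  push_cast
  rw [sq]
  exact Int.mul_dvd_mul_iff_left (by exact_mod_cast hq.out.ne_zero)

def mulp : ZMod q →+ ZMod (q ^ 2) := AddMonoidHom.mk' (fun e => q * lift e) (by
  intro a b
  rw [← mul_add, mulq]; simp)

lemma mulp_apply (e : ZMod q) : mulp e = q * lift e := rfl

@[simp] lemma tau_mulp (e : ZMod q) : tau q (mulp e) = 0 := by
  simp [mulp_apply]

lemma mulp_nat (n : ℕ) : mulp (n : ZMod q) = (q : ZMod (q ^ 2)) * n := by
  rw [mulp_apply, mulq]; simp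

lemma mulp_inj {e e' : ZMod q} (h : mulp e = mulp e') : e = e' := by
  rw [mulp_apply, mulp_apply, mulq] at h; simpa using h

lemma exists_mulp {z : ZMod (q ^ 2)} (h : tau q z = 0) : ∃ e, z = mulp e := by
  obtain ⟨x, rfl⟩ := ZMod.intCast_surjective z
  rw [tau_int] at h
  obtain ⟨y, rfl⟩ := (ZMod.intCast_zmod_eq_zero_iff_dvd x q).1 h
  refine ⟨(y : ZMod q), ?_⟩
  rw [mulp_apply]; push_cast
  rw [mulq, tau_int, tau_lift]

def top (v : ZMod (q ^ 2)) : ℕ := v.val / q

lemma top_lt (v : ZMod (q ^ 2)) : top v < q := by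
  have := v.val_lt
  unfold top
  exact Nat.div_lt_of_lt_mul (by rwa [← sq])

lemma top_ext {v v' : ZMod (q ^ 2)} (h : tau q v = tau q v') (h' : top v = top v') : v = v' := by
  rw [← ZMod.natCast_zmod_val v, ← ZMod.natCast_zmod_val v', tau_nat, tau_nat,
    ZMod.natCast_eq_natCast_iff'] at h
  apply ZMod.val_injective
  unfold top at h'
  rw [← Nat.div_add_mod v.val q, ← Nat.div_add_mod v'.val q, h, h']

/-- clock coordinates: first base coordinate, second base coordinate, fibre -/
abbrev Ck (q : ℕ) := (ZMod (q ^ 2) × ZMod q) × ZMod (q ^ 2)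

def W (i : ZMod q) : Ck q →+ ZMod (q ^ 2) :=
  AddMonoidHom.mk' (fun x => q * x.1.1 + mulp (i * x.1.2) + x.2) (by
    intro a b
    simp only [Prod.fst_add, Prod.snd_add, mul_add, map_add]; ring)

lemma W_apply (i : ZMod q) (x : Ck q) : W i x = q * x.1.1 + mulp (i * x.1.2) + x.2 := rfl

lemma tau_W (i : ZMod q) (x : Ck q) : tau q (W i x) = tau q x.2 := by
  simp [W_apply]

def bc (t : ZMod q) : ZMod (q ^ 2) × ZMod q := (lift t, if t = 0 then 1 else 0)

def ac (t u : ZMod q) : Ck q := (bc t, lift t - lift (t - u))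

lemma W_ac (i t : ZMod q) : W i (ac t i) = lift i +
    mulp (((if t.val = 0 then i.val - 1 else if t.val < i.val then t.val - 1 else t.val : ℕ)) : ZMod q) := by
  have hi := i.val_lt
  have ht := t.val_lt
  rw [mulp_nat, W_apply]
  simp only [ac, bc, lift]
  by_cases h : t.val < i.val
  · have e : (t - i).val + i.val = t.val + q := by
      have h1 := ZMod.val_add (t - i) i
      rw [sub_add_cancel] at h1
      have h2 := (t - i).val_lt
      rcases Nat.lt_or_ge ((t - i).val + i.val) q with h3 | h3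
      · rw [Nat.mod_eq_of_lt h3] at h1; omega
      · rw [Nat.mod_eq_sub_mod h3, Nat.mod_eq_of_lt (by omega)] at h1; omega
    have e2 : (((t - i).val : ℕ) : ZMod (q ^ 2)) = t.val + q - i.val := by
      have := congrArg (fun n : ℕ => (n : ZMod (q ^ 2))) e
      push_cast at this; linear_combination this
    rw [e2]
    by_cases h0 : t.val = 0
    · have : t = 0 := (ZMod.val_eq_zero t).1 h0
      rw [if_pos this, if_pos h0, h0, mul_one, mulp_apply, lift, Nat.cast_sub (by omega)]
      push_cast; ring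
    · have : t ≠ 0 := fun e => h0 (by simp [e])
      rw [if_neg this, if_neg h0, if_pos h, mul_zero, map_zero, Nat.cast_sub (by omega)]
      push_cast; ring
  · have e : (t - i).val + i.val = t.val := by
      rw [ZMod.val_sub (by omega)]; omega
    have e2 : (((t - i).val : ℕ) : ZMod (q ^ 2)) = t.val - i.val := by
      have := congrArg (fun n : ℕ => (n : ZMod (q ^ 2))) e
      push_cast at this; linear_combination this
    rw [e2]
    by_cases h0 : t.val = 0
    · have : t = 0 := (ZMod.val_eq_zero t).1 h0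
      have i0 : i.val = 0 := by omega
      rw [if_pos this, if_pos h0, h0, mul_one, mulp_apply, lift, i0]
      simp
    · have : t ≠ 0 := fun e => h0 (by simp [e])
      rw [if_neg this, if_neg h0, if_neg h, mul_zero, map_zero]
      ring

lemma W_inj (i : ZMod q) {t t' : ZMod q} (h : W i (ac t i) = W i (ac t' i)) : t = t' := by
  rw [W_ac, W_ac] at h
  have h2 := mulp_inj (add_left_cancel h)
  have hi := i.val_lt
  have ht := t.val_lt
  have ht' := t'.val_lt
  rw [ZMod.natCast_eq_natCast_iff', Nat.mod_eq_of_lt (by split_ifs <;> omega),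
    Nat.mod_eq_of_lt (by split_ifs <;> omega)] at h2
  apply ZMod.val_injective
  split_ifs at h2 <;> omega

lemma fib_sum (f : ZMod q → ZMod (q ^ 2)) (hf : Function.Injective f) (β : ZMod q)
    (h1 : ∀ t, tau q (f t) = β) : ∑ t, f t = q * lift β + ∑ e : ZMod q, mulp e := by
  have : ∀ t, ∃ e, f t = lift β + mulp e := by
    intro t
    obtain ⟨e, he⟩ := exists_mulp (z := f t - lift β) (by simp [h1])
    exact ⟨e, by rw [← he]; ring⟩
  choose e he using this
  have hi : Function.Injective e := fun t t' q => hf (by rw [he, he, q])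
  have hb : Function.Bijective e := (Finite.injective_iff_bijective).1 hi
  rw [Finset.sum_congr rfl fun t _ => he t, hb.sum_comp (fun e => lift β + mulp e),
    Finset.sum_add_distrib]
  simp

end Vale.Agent.P043.T3
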