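import Vale.Agent.P043.Sudoku

namespace Vale.Agent.P043

abbrev Zq := ZMod 169
abbrev Ck := Zq × Zq × Z13

def tau : Zq →+* Z13 := ZMod.castHom (by norm_num) Z13

def lift (t : Z13) : Zq := (t.val : Zq)

lemma tau_int (x : ℤ) : tau (x : Zq) = (x : Z13) := map_intCast _ _
lemma tau_nat (x : ℕ) : tau (x : Zq) = (x : Z13) := map_natCast _ _
@[simp] lemma tau_lift (t : Z13) : tau (lift t) = t := by simp [lift]

lemma mul13 {z z' : Zq} : 13 * z = 13 * z' ↔ tau z = tau z' := by
  obtain ⟨x, rfl⟩ := ZMod.intCast_surjective z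
  obtain ⟨y, rfl⟩ := ZMod.intCast_surjective z'
  rw [tau_int, tau_int, ZMod.intCast_eq_intCast_iff_dvd_sub]
  have : (13 * (x : Zq) = 13 * (y : Zq)) ↔ (((13 * x : ℤ) : Zq) = ((13 * y : ℤ) : Zq)) := by
    push_cast; rfl
  rw [this, ZMod.intCast_eq_intCast_iff_dvd_sub]
  omega

def mulp : Z13 →+ Zq := AddMonoidHom.mk' (fun e => 13 * lift e) (by
  intro a b
  rw [← mul_add, mul13]; simp)

lemma mulp_apply (e : Z13) : mulp e = 13 * lift e := rfl

lemma tau13 : tau 13 = 0 := by
  have := tau_nat 13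
  simp only [Nat.cast_ofNat] at this
  rw [this]; decide

@[simp] lemma tau_mulp (e : Z13) : tau (mulp e) = 0 := by
  rw [mulp_apply, map_mul, tau13, zero_mul]

lemma exists_mulp {z : Zq} (h : tau z = 0) : ∃ e, z = mulp e := by
  obtain ⟨x, rfl⟩ := ZMod.intCast_surjective z
  rw [tau_int] at h
  obtain ⟨y, rfl⟩ := (ZMod.intCast_zmod_eq_zero_iff_dvd x 13).1 h
  refine ⟨(y : Z13), ?_⟩
  rw [mulp_apply]; push_cast
  rw [mul13, tau_int, tau_lift]

def top (v : Zq) : ℕ := v.val / 13

lemma top_lt (v : Zq) : top v < 13 := by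
  have := v.val_lt
  unfold top; omega

lemma top_ext {v v' : Zq} (h : tau v = tau v') (h' : top v = top v') : v = v' := by
  rw [← ZMod.natCast_zmod_val v, ← ZMod.natCast_zmod_val v', tau_nat, tau_nat,
    ZMod.natCast_eq_natCast_iff'] at h
  apply ZMod.val_injective
  unfold top at h'
  omega

def V (c : Z13) : Ck →+ Zq := AddMonoidHom.mk' (fun x => x.2.1 - 14 * x.1 - mulp (c * x.2.2)) (by
  intro a b
  simp only [Prod.fst_add, Prod.snd_add, mul_add, map_add]; ring)

lemma V_apply (c : Z13) (x : Ck) : V c x = x.2.1 - 14 * x.1 - mulp (c * x.2.2) := rfl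

lemma tau_V (c : Z13) (x : Ck) : tau (V c x) = tau x.2.1 - tau x.1 := by
  have : (14 : Zq) = 13 + 1 := by norm_num
  rw [V_apply, this]
  simp [tau13]

def g0 : Ck := (1, 14, 0)

lemma V_g0 (c : Z13) : V c g0 = 0 := by simp [V_apply, g0]

/-- the intended clock -/
def ac (j : ℤ) (t : Z13) : Ck := (lift t, lift (t - j) + j, if t = 0 then 1 else 0)

lemma V_ac (c : Z13) (j : ℤ) (hj : (j : Z13) = c) {t t' : Z13} (h : V c (ac j t) = V c (ac j t')) :
    t = t' := by
  have e : lift (t - c) - 14 * lift t - mulp (c * if t = 0 then 1 else 0) =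
      lift (t' - c) - 14 * lift t' - mulp (c * if t' = 0 then 1 else 0) := by
    simp only [V_apply, ac, hj] at h
    linear_combination h
  simp only [mulp_apply] at e
  clear h hj
  revert c t t'
  decide +kernel

lemma fib_sum (f g : Z13 → Zq) (hf : Function.Injective f) (hg : Function.Injective g) (β : Z13)
    (h1 : ∀ t, tau (f t) = β) (h2 : ∀ t, tau (g t) = β) : ∑ t, f t = ∑ t, g t := by
  have key : ∀ f : Z13 → Zq, Function.Injective f → (∀ t, tau (f t) = β) →
      ∑ t, f t = ∑ e, (lift β + mulp e) := by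
    intro f hf h1
    have : ∀ t, ∃ e, f t = lift β + mulp e := by
      intro t
      obtain ⟨e, he⟩ := exists_mulp (z := f t - lift β) (by simp [h1])
      exact ⟨e, by rw [← he]; ring⟩
    choose e he using this
    have hi : Function.Injective e := fun t t' q => hf (by rw [he, he, q])
    have hb : Function.Bijective e := (Finite.injective_iff_bijective).1 hi
    rw [← hb.sum_comp (fun e => lift β + mulp e)]
    exact Finset.sum_congr rfl fun t _ => he t
  rw [key f hf h1, key g hg h2]

end Vale.Agent.P043
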