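import Vale.Agent.P043.PT2

namespace Vale.Agent.P043.T3

variable {P : Par} {c0 : ℝ} {A : Set (G P)}

lemma c13 : ((13 : ℤ) : ZMod (P.q none)) = 0 :=
  (ZMod.intCast_zmod_eq_zero_iff_dvd _ _).2 (by rw [P.h13]; rfl)

lemma b0_inr (x : ℤ × ℤ) (u : U P) (c : Z13) :
    b0 (hid P x u) (.inr c) = true ↔ (((u none).val : ℕ) : Z13) = c := by
  have h1 : (((hid P x u).1 : ℤ) : ZMod (P.q none)) = (((u none).val : ℤ) : ZMod (P.q none)) := by
    simp [hid]
  rw [ZMod.intCast_eq_intCast_iff_dvd_sub] at h1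
  have h2 := (ZMod.intCast_eq_intCast_iff_dvd_sub _ _ 13).2
    (Dvd.dvd.trans (by rw [P.h13]) h1)
  simp only [b0, decide_eq_true_eq, h2, Int.cast_natCast]

lemma hid_sh (x : ℤ × ℤ) (u u' : U P) (k : Kx) (m : ℤ) (hu : u' none = u none + m)
    (hk : (∃ q, k = .inl q) ∨ 13 ∣ m) :
    b0 (hid P (x + (169 * m) • dv k) u') k = b0 (hid P x u) k := by
  cases k with
  | inl q =>
    have e1 : (x + (169 * m) • dv (.inl q)).1 / 169 = x.1 / 169 + m := by
      simp only [dv, Prod.fst_add, Prod.smul_mk, smul_eq_mul, mul_one]; omega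
    have e2 : (x + (169 * m) • dv (.inl q)).2 / 169 = x.2 / 169 - m * (q.1 : ℕ) := by
      simp only [dv, Prod.snd_add, Prod.smul_mk, smul_eq_mul]
      rw [mul_assoc, mul_neg]; omega
    simp only [b0, hid, e1, e2, hu]
    congr 3
    push_cast
    rw [add_sub_add_right_eq_sub]; ring
  | inr c =>
    obtain ⟨t, rfl⟩ := hk.resolve_left (by simp)
    rw [Bool.eq_iff_iff, b0_inr, b0_inr, hu, Int.cast_mul, c13]; simp

open Classical in
noncomputable def val (k : Kx) (x : ℤ × ℤ) (u : U P) : Zr P (.inr k) :=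
  if sg P (.inr k) x u then ((x.1 : ℤ) : Zr P (.inr k)) else 0

lemma vv_val {a : G P} (ha : a ∈ A0 P) (k : Kx) : vv P (.inr k) a = val k a.1 (uu P a) :=
  vv_A0 ha _

lemma val_congr {k : Kx} {x x' : ℤ × ℤ} {u u' : U P} (h1 : b0 (hid P x u) k = b0 (hid P x' u') k)
    (h2 : u (some (k, b0 (hid P x' u') k)) = u' (some (k, b0 (hid P x' u') k)))
    (h3 : ((x.1 : ℤ) : Zr P (.inr k)) = (x'.1 : ℤ)) : val k x u = val k x' u' := by
  have : sg P (.inr k) x u ↔ sg P (.inr k) x' u' := by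
    show u (some (k, b0 (hid P x u) k)) = 0 ↔ u' (some (k, b0 (hid P x' u') k)) = 0
    rw [h1, h2]
  unfold val
  rw [propext this, h3]

lemma val_D (k : Kx) (x : ℤ × ℤ) (u : U P) (m : ℤ) (h : (P.q none : ℤ) ^ 3 ∣ m)
    (h' : (m : Zr P (.inr k)) = 0) : val k (x + m • dv k) u = val k x u := by
  rw [P.h13] at h
  obtain ⟨t, rfl⟩ := h
  have := hid_sh x u u k (13 * t) (by rw [Int.cast_mul, c13]; simp) (Or.inr ⟨t, rfl⟩)
  rw [show (169 : ℤ) * (13 * t) = ((13 : ℕ) : ℤ) ^ 3 * t by push_cast; ring] at this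
  refine val_congr this rfl ?_
  simp only [Prod.fst_add, Prod.smul_fst, dv_fst, smul_eq_mul, mul_one, Int.cast_add, h', add_zero]

lemma val_N (q : Fin 169 × Z13) (x : ℤ × ℤ) (u : U P) :
    val (.inl q) (x + NN P • dv (.inl q)) (u + Pi.single none 1) = val (.inl q) x u := by
  obtain ⟨t, ht⟩ := NN_13 (P := P)
  have := hid_sh x u (u + Pi.single none 1) (.inl q) (13 * t + 1)
    (by rw [Int.cast_add, Int.cast_mul, c13]; simp) (Or.inl ⟨q, rfl⟩)
  rw [← ht] at this
  exact val_congr this (by simp) (by simp)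

lemma val_u (k : Kx) (x : ℤ × ℤ) {u u' : U P} (h : u none = u' none)
    (h' : u (some (k, b0 (hid P x u) k)) = u' (some (k, b0 (hid P x u) k))) :
    val k x u = val k x u' := by
  have : hid P x u' = hid P x u := by simp only [hid, h]
  exact (val_congr (by rw [this]) h'.symm rfl).symm

lemma base_eq {b b' : G P} (hb : b ∈ A0 P) (hb' : b' ∈ A0 P) {y y' : Y P} {h h' : ℤ × ℤ}
    (h0 : redB P h = 0) (h0' : redB P h' = 0)
    (e : b.1 + secB P y.1.1 + h = b'.1 + secB P y'.1.1 + h') : b.1 + h = b'.1 + h' := by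
  have e1 := congrArg (redB P) e
  simp only [map_add, h0, h0', add_zero, redB_secB] at e1
  rw [base_rig hb.1 hb'.1 e1] at e
  linear_combination (exp := 1) e

lemma inv (hA : Solv P c0 A) (k : Kx) (h : ℤ × ℤ) (d : U P) (h0 : redB P h = 0)
    (hh : ‖h‖ ≤ 10 * c0) (Hs : ∀ x u, val k (x + h) (u + d) = val k x u) {a a' : G P} (ha : a ∈ A)
    (ha' : a' ∈ A) (e : a'.1 = a.1 + h) (eu : uu P a' = uu P a + d) :
    vv P (.inr k) a' = vv P (.inr k) a := by
  classical
  have b0 := hA.bd.pos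
  by_contra hc
  obtain ⟨e1, he⟩ : ∃ e1, e1 = vv P (.inr k) a' - vv P (.inr k) a := ⟨_, rfl⟩
  have n1 : e1 ≠ 0 := by rwa [he, sub_ne_zero]
  have := forb hA ((AddMonoidHom.fst _ _).prod ((uu P).prod (vv P (.inr k))))
    (fun y => y.1.2.2 (.inr k)) (fun s => if s = e1 then mk h d 0 else 0)
    (fun s => by split_ifs; exacts [hh, by simpa using b0]) ?_ ha ha'
    (by rw [e, add_sub_cancel_left]; exact hh) (yv (Pi.single (.inr k) e1)) 0 ?_
  · exact n1 (by simpa using this)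
  · intro b hb b' hb' y y' q
    have t : ∀ s : Zr P (.inr k), ∃ θ : G P, θ = (if s = e1 then mk h d 0 else 0) ∧
        redB P θ.1 = 0 ∧ vv P (.inr k) θ = 0 ∧ ∀ x u, val k (x + θ.1) (u + uu P θ) = val k x u := by
      intro s
      refine ⟨_, rfl, ?_⟩
      split_ifs
      · exact ⟨h0, rfl, by simpa using Hs⟩
      · simp
    obtain ⟨θ, e1, t1, t2, t3⟩ := t (y.1.2.2 (.inr k))
    obtain ⟨θ', e1', t1', t2', t3'⟩ := t (y'.1.2.2 (.inr k))
    rw [← e1, ← e1'] at q
    simp only [AddMonoidHom.prod_apply, map_add, uu_sec, vv_sec, Prod.mk_add_mk, Prod.mk.injEq,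
      add_zero, AddMonoidHom.coe_fst, sec_fst, t2, t2'] at q
    obtain ⟨q1, q2, q3⟩ := q
    rw [vv_val hb, vv_val hb', ← t3 b.1, ← t3' b'.1, base_eq hb hb' t1 t1' q1, q2] at q3
    exact add_left_cancel q3
  · simp [n1.symm, e, eu]
    rw [he]; ring

lemma cond (hA : Solv P c0 A) (j : Px P.q) (k : Kx) (l : Bool)
    (Hj : ∀ x u, sP P j u → (sg P (.inr k) x u ↔ l = true)) (h : ℤ × ℤ) (h0 : redB P h = 0)
    (hh : ‖h‖ ≤ 5 * c0) {a a' : G P} (ha : a ∈ A) (ha' : a' ∈ A) (e : a'.1 = a.1 + h)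
    (eu : agr j (uu P a) (uu P a')) (hs : st A j (uu P a)) :
    vv P (.inr k) a' = vv P (.inr k) a + if l then ((h.1 : ℤ) : Zr P (.inr k)) else 0 := by
  classical
  have b0 := hA.bd.pos
  by_contra hc
  obtain ⟨lm, hl⟩ : ∃ lm : Zr P (.inr k), lm = if l then 1 else 0 := ⟨_, rfl⟩
  obtain ⟨e1, he⟩ : ∃ e1, e1 = vv P (.inr k) a' - vv P (.inr k) a - lm * (h.1 : ℤ) := ⟨_, rfl⟩
  have n1 : e1 ≠ 0 := by
    intro q; apply hc
    rw [he, hl] at q
    split_ifs at q ⊢ <;> linear_combination q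
  let col : Zr P (.inl j) × Zr P (.inr k) → Zr P (.inl j) := fun s =>
    if s.2 = e1 then Equiv.swap 0 1 s.1 else s.1
  let hs1 : Zr P (.inl j) → ℤ × ℤ := fun n => if n = 1 then h else 0
  let ξ : Zr P (.inl j) × Zr P (.inr k) → ∀ i, Zr P i := fun s =>
    Pi.single (.inl j) (s.1 - col s - ((hs1 s.1).1 : ℤ))
  have x1 : ∀ s, ξ s (.inr k) = 0 := fun s => by simp [ξ]
  have x2 : ∀ s, ξ s (.inl j) = s.1 - col s - ((hs1 s.1).1 : ℤ) := fun s => by simp [ξ]
  have r1 : ∀ n, redB P (hs1 n) = 0 := by intro n; simp only [hs1]; split_ifs <;> simp [h0]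
  have r2 : ∀ s, redB P (hs1 s.1 + D P (ξ s) • dv k) = 0 := by
    intro s; rw [map_add, r1, redB_D, add_zero]
  obtain ⟨m, hm⟩ : ∃ m, m = D P (ξ (1, e1)) - D P (ξ (0, 0)) := ⟨_, rfl⟩
  have m0 : redB P (m • dv k) = 0 := by rw [hm, sub_smul, map_sub, redB_D, redB_D, sub_zero]
  have m1 : ‖m • dv k‖ ≤ 2 * c0 := by
    rw [hm, sub_smul]
    have := hA.bd.d (ξ (1, e1)) k
    have := hA.bd.d (ξ (0, 0)) k
    exact (norm_sub_le _ _).trans (by linarith)
  obtain ⟨a2, ha2, ea, ua⟩ := pt hA ha' (m • dv k) m0 (by linarith) (uu P a')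
  have v1 := inv hA k (m • dv k) 0 m0 (by linarith) (fun x u => by
    rw [add_zero]
    exact val_D k x u m (hm ▸ dvd_sub (D_q _ _) (D_q _ _)) (by simp [hm, x1])) ha' ha2 ea
    (by rw [ua, add_zero])
  have w1 := hs a ha a2 ha2 (agr_refl _ _) (ua ▸ eu.symm)
  have := forb hA ((AddMonoidHom.fst _ _).prod ((uu P).prod ((vv P (.inl j)).prod (vv P (.inr k)))))
    (fun y => (y.1.2.2 (.inl j), y.1.2.2 (.inr k)))
    (fun s => mk (hs1 s.1 + D P (ξ s) • dv k) (if s.1 = 1 then uu P a' - uu P a else 0)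
      (Pi.single (.inr k) (lm * ((hs1 s.1).1 : ℤ))))
    (fun s => ?_) ?_ ha ha2 ?_ (yv (Pi.single (.inl j) 1 + Pi.single (.inr k) e1)) 0 ?_
  · simp at this
  · have := hA.bd.d (ξ s) k
    have : ‖hs1 s.1‖ ≤ 5 * c0 := by
      simp only [hs1]; split_ifs; exacts [hh, by simpa using b0]
    exact (norm_add_le _ _).trans (by linarith)
  · intro b hb b' hb' y y' q
    obtain ⟨s, hs⟩ : ∃ s, s = (y.1.2.2 (.inl j), y.1.2.2 (.inr k)) := ⟨_, rfl⟩
    obtain ⟨s', hs'⟩ : ∃ s, s = (y'.1.2.2 (.inl j), y'.1.2.2 (.inr k)) := ⟨_, rfl⟩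
    rw [← hs, ← hs'] at q ⊢
    have y1 : y.1.2.2 (.inl j) = s.1 := by rw [hs]
    have y2 : y.1.2.2 (.inr k) = s.2 := by rw [hs]
    have y3 : y'.1.2.2 (.inl j) = s'.1 := by rw [hs']
    have y4 : y'.1.2.2 (.inr k) = s'.2 := by rw [hs']
    simp only [AddMonoidHom.prod_apply, map_add, uu_sec, vv_sec, Prod.mk_add_mk, Prod.mk.injEq,
      add_zero, AddMonoidHom.coe_fst, sec_fst, mk_fst, uu_mk, vv_mk, Pi.single_eq_same, y1, y2, y3,
      y4, ne_eq, reduceCtorEq, not_false_eq_true, Pi.single_eq_of_ne] at q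
    obtain ⟨q1, q2, q3, q4⟩ := q
    have q5 := base_eq hb hb' (r2 _) (r2 _) q1
    have hz : ∀ s : Zr P (.inl j), agr j (if s = 1 then uu P a' - uu P a else 0) 0 := by
      intro s c hc; split_ifs
      · simp [eu c hc]
      · rfl
    have hs := sP_agr (agr_of_shift q2 (hz _) (hz _))
    by_cases s1 : sP P j (uu P b)
    · have f1 := vv_true hb (j := .inl j) s1
      have f2 := vv_true hb' (j := .inl j) (hs.1 s1)
      have g : ∀ b ∈ A0 P, sP P j (uu P b) → vv P (.inr k) b = lm * (b.1.1 : ℤ) := by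
        intro b hb s1
        rw [vv_A0 hb, hl]
        simp only [Hj _ _ s1]
        split_ifs <;> simp
      rw [g b hb s1, g b' hb' (hs.1 s1)] at q4
      have f3 := congrArg (fun x : ℤ × ℤ => ((x.1 : ℤ) : Zr P (.inl j))) q5
      have f4 := congrArg (fun x : ℤ × ℤ => ((x.1 : ℤ) : Zr P (.inr k))) q5
      simp only [Prod.fst_add, Prod.smul_fst, dv_fst, smul_eq_mul, mul_one, Int.cast_add, D_r,
        x1, x2] at f3 f4
      simp only [ww_apply, vv_apply] at f1 f2 q3
      have g1 : s.2 = s'.2 := by linear_combination q4 - lm * f4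
      have g2 : col s = col s' := by linear_combination q3 - f3 - f1 + f2
      refine Prod.ext ?_ g1
      simp only [col, g1] at g2
      split_ifs at g2
      · exact (Equiv.swap 0 1).injective g2
      · exact g2
    · rw [vv_false hb (j := .inl j) s1, vv_false hb' (j := .inl j) (fun h => s1 (hs.2 h))] at q3
      have g1 : s.1 = s'.1 := add_left_cancel q3
      rw [g1] at q2 q4 q5
      have g2 : b.1 + D P (ξ s) • dv k = b'.1 + D P (ξ s') • dv k := by
        linear_combination (exp := 1) q5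
      rw [vv_val hb, vv_val hb', ← val_D k b.1 _ _ (D_q (ξ s) _) (by simp [x1]),
        ← val_D k b'.1 _ _ (D_q (ξ s') _) (by simp [x1]), g2, add_right_cancel q2] at q4
      exact Prod.ext g1 (add_left_cancel (add_right_cancel q4))
  · rw [ea, e, add_assoc, add_sub_cancel_left]
    exact (norm_add_le _ _).trans (by linarith)
  · have c1 : ((m : ℤ) : Zr P (.inl j)) = 1 - (h.1 : ℤ) := by
      simp [hm, x2, col, hs1, n1.symm]
    simp only [ww_apply, ea, e, Prod.fst_add, Prod.smul_fst, dv_fst, smul_eq_mul, mul_one,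
      Int.cast_add, c1] at w1
    simp only [AddMonoidHom.prod_apply, map_add, uu_sec, vv_sec, Prod.mk_add_mk, Prod.mk.injEq,
      add_zero, AddMonoidHom.coe_fst, sec_fst, mk_fst, uu_mk, vv_mk, Pi.single_eq_same, yv_1, yv_2,
      ne_eq, reduceCtorEq, not_false_eq_true, Pi.single_eq_of_ne, Pi.add_apply, zero_add,
      ZeroMemClass.coe_zero, Prod.fst_zero, Prod.snd_zero, Pi.zero_apply, secB_zero, hs1, if_true,
      zero_ne_one, if_false, v1, ua, ea, e, hm, sub_smul]
    refine ⟨by abel, by abel, by simp only [vv_apply]; linear_combination w1, ?_⟩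
    rw [he]; push_cast; ring

def phX : G P →+ (ℤ × ℤ) × U P × ∀ k : Kx, Zr P (.inr k) :=
  AddMonoidHom.mk' (fun g => (g.1, uu P g, fun k => vv P (.inr k) g)) (by
    intro a b; ext <;> simp)

lemma phX_eq {g g' : G P} : phX g = phX g' ↔ g.1 = g'.1 ∧ uu P g = uu P g' ∧
    ∀ k, vv P (.inr k) g = vv P (.inr k) g' := by
  simp only [phX, AddMonoidHom.mk'_apply, Prod.mk.injEq, funext_iff]

def exR (f : ∀ k : Kx, Zr P (.inr k)) : ∀ j, Zr P j
  | .inl _ => 0
  | .inr k => f k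

lemma clauseX (hA : Solv P c0 A) (b : Kx → Bool) {a a' : G P} (ha : a ∈ A) (ha' : a' ∈ A)
    (e : a.1 = a'.1) (h1 : uu P a none = uu P a' none)
    (h2 : ∀ k, uu P a (some (k, !b k)) = uu P a' (some (k, !b k)))
    (h3 : ∀ k, vv P (.inr k) a ≠ vv P (.inr k) a') : ∃ x, ∀ k, b k = b0 x k := by
  classical
  by_contra hc
  push Not at hc
  have b0' := hA.bd.pos
  obtain ⟨nx, hnx⟩ := exists_nx Kx
  obtain ⟨d, hd⟩ : ∃ d : ∀ k, Zr P (.inr k), d = fun k => vv P (.inr k) a' - vv P (.inr k) a :=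
    ⟨_, rfl⟩
  have d0 : ∀ k, d k ≠ 0 := fun k => by rw [hd]; exact sub_ne_zero.2 (h3 k).symm
  let β : (∀ k, Zr P (.inr k)) → U P := fun s c => match c with
    | none => 0
    | some (k, l) => if s (nx k) = d (nx k) then (uu P a' - uu P a) (some (k, l)) else 0
  have := forb hA phX (fun y k => y.1.2.2 (.inr k)) (fun s => mk 0 (β s) 0)
    (fun s => by simpa using b0') ?_ ha ha' (by simpa [e] using b0') (yv (exR d)) 0 ?_
  · exact d0 (.inr 0) (congrFun this (.inr 0))
  · intro p hp p' hp' y y' q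
    obtain ⟨s, hs⟩ : ∃ s : ∀ k, Zr P (.inr k), s = fun k => y.1.2.2 (.inr k) := ⟨_, rfl⟩
    obtain ⟨s', hs'⟩ : ∃ s : ∀ k, Zr P (.inr k), s = fun k => y'.1.2.2 (.inr k) := ⟨_, rfl⟩
    rw [← hs, ← hs'] at q ⊢
    have y1 : ∀ k, y.1.2.2 (.inr k) = s k := fun j => by rw [hs]
    have y2 : ∀ k, y'.1.2.2 (.inr k) = s' k := fun j => by rw [hs']
    rw [phX_eq] at q
    simp only [map_add, uu_sec, vv_sec, uu_mk, vv_mk, add_zero, Prod.fst_add, sec_fst, mk_fst,
      Pi.zero_apply, y1, y2] at q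
    obtain ⟨q1, q2, q3⟩ := q
    have q4 : p.1 = p'.1 := by
      simpa using base_eq hp hp' (h := 0) (h' := 0) (by simp) (by simp) (by simpa using q1)
    have q5 : uu P p none = uu P p' none := by simpa [β] using congrFun q2 none
    have key : ∀ k, β s (some (k, b0 (hid P p.1 (uu P p)) k)) =
        β s' (some (k, b0 (hid P p.1 (uu P p)) k)) → s k = s' k := by
      intro k h
      have h4 := congrFun q2 (some (k, b0 (hid P p.1 (uu P p)) k))
      simp only [Pi.add_apply, h] at h4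
      have h5 := q3 k
      rw [vv_val hp, vv_val hp', ← q4, val_u k p.1 q5 (add_right_cancel h4)] at h5
      exact add_left_cancel h5
    obtain ⟨k0, hk0⟩ := hc (hid P p.1 (uu P p))
    have all : ∀ m k, nx^[m] k = k0 → s k = s' k := by
      intro m
      induction m with
      | zero =>
        intro k h
        rw [show k = k0 from h]
        apply key
        have : b0 (hid P p.1 (uu P p)) k0 = !b k0 := by
          revert hk0; cases b k0 <;> cases b0 (hid P p.1 (uu P p)) k0 <;> simp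
        rw [this]
        simp [β, h2]
      | succ m ih => intro k h; apply key; simp only [β, ih (nx k) h]
    funext k
    obtain ⟨m, hm⟩ := hnx k k0
    exact all m k hm
  · rw [phX_eq]
    simp only [map_add, uu_sec, vv_sec, uu_mk, vv_mk, add_zero, Prod.fst_add, sec_fst, mk_fst,
      Pi.zero_apply, yv_1, yv_2, ZeroMemClass.coe_zero, Prod.fst_zero, Prod.snd_zero, e, true_and]
    refine ⟨funext fun c => ?_, fun k => by simp [exR, hd]⟩
    rcases c with _ | ⟨k, l⟩
    · simp [β, h1]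
    · simp [β, exR, (d0 _).symm]

end Vale.Agent.P043.T3
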