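import Vale.Agent.P043.Clock
import Vale.Agent.P043.Basic

namespace Vale.Agent.P043

abbrev Kx := (Fin 169 × Z13) ⊕ Z13

variable (r : Kx → ℕ) [hp : ∀ k, Fact (r k).Prime]

abbrev Om := Ck × ∀ k, ZMod (r k) × ZMod (r k)
abbrev G0 := (ℤ × ℤ) × Om r
abbrev Sx := Z13 × ∀ k, ZMod (r k)

def prj : Om r →+ Sx r :=
  AddMonoidHom.mk' (fun w => (tau w.1.1, fun k => (w.2 k).1 + (w.2 k).2)) (by
    intro a b
    ext
    · simp
    · simp only [Prod.snd_add, Pi.add_apply, Prod.fst_add]; ring)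

abbrev Yx := (prj r).ker

open Classical in
noncomputable def b0 (x : ℤ × ℤ) : Kx → Bool
  | Sum.inl q => decide (dig (x.1 * (q.1 : ℕ) + x.2) = q.2)
  | Sum.inr c => decide ((x.1 : Z13) = c)

def vv : Kx → ℤ × ℤ
  | Sum.inl q => (1, -((q.1 : ℕ) : ℤ))
  | Sum.inr _ => 0

lemma b0_vv (x : ℤ × ℤ) (k : Kx) : b0 (x + vv k) k = b0 x k := by
  cases k with
  | inl q =>
    simp only [b0, vv, Prod.fst_add, Prod.snd_add]
    congr 3; ring
  | inr c => simp [vv]

def A0 : Set (G0 r) :=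
  {g | (∃ t, g.2.1 = ac g.1.1 t) ∧ ∀ k, if b0 g.1 k then (g.2.2 k).2 = 0 else (g.2.2 k).1 = 0}

noncomputable def al (x : ℤ × ℤ) (s : Sx r) : Om r :=
  (ac x.1 s.1, fun k => if b0 x k then (s.2 k, 0) else (0, s.2 k))

variable {r}

lemma prj_apply (w : Om r) : prj r w = (tau w.1.1, fun k => (w.2 k).1 + (w.2 k).2) := rfl

lemma prj_al (x : ℤ × ℤ) (s : Sx r) : prj r (al r x s) = s := by
  rw [prj_apply]
  ext
  · simp [al, ac]
  · simp only [al]; split_ifs <;> simp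

lemma al_mem (x : ℤ × ℤ) (s : Sx r) : (x, al r x s) ∈ A0 r := by
  refine ⟨⟨s.1, rfl⟩, fun k => ?_⟩
  simp only [al]; split_ifs <;> simp

lemma eq_al {a : G0 r} (ha : a ∈ A0 r) : a.2 = al r a.1 (prj r a.2) := by
  obtain ⟨⟨t, ht⟩, h⟩ := ha
  refine Prod.ext ?_ (funext fun k => ?_)
  · simp only [al, prj_apply]; rw [ht]; simp [ac]
  · have := h k
    simp only [al, prj_apply]
    split_ifs at this ⊢ <;> ext <;> simp [this]

lemma mem_Y {w : Om r} : w ∈ Yx r ↔ tau w.1.1 = 0 ∧ ∀ k, (w.2 k).2 = -(w.2 k).1 := by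
  rw [AddMonoidHom.mem_ker, prj_apply, Prod.ext_iff, funext_iff]
  refine and_congr Iff.rfl (forall_congr' fun k => ?_)
  simp only [Prod.snd_zero, Pi.zero_apply]
  exact ⟨fun h => by linear_combination h, fun h => by linear_combination h⟩

lemma Y1 (y : Yx r) : tau y.1.1.1 = 0 := (mem_Y.1 y.2).1
lemma Y2 (y : Yx r) (k : Kx) : (y.1.2 k).2 = -(y.1.2 k).1 := (mem_Y.1 y.2).2 k

def Inj (A : Set (G0 r)) (θ : Yx r → G0 r) : Prop :=
  ∀ a ∈ A, ∀ a' ∈ A, ∀ y y', a + θ y = a' + θ y' → y = y'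

noncomputable def tl (θ : Yx r → G0 r) : Finset (G0 r) := (Set.finite_range θ).toFinset

lemma mem_tl {θ : Yx r → G0 r} {f : G0 r} : f ∈ tl θ ↔ ∃ y, θ y = f := by simp [tl]

lemma tile_of_inj {θ : Yx r → G0 r} (h : Inj (A0 r) θ) : IsTiling (A0 r) (tl θ) := by
  apply isTiling_of
  · rintro ⟨X, w⟩
    let Φ : Sx r × Yx r → Om r := fun q => al r (X - (θ q.2).1) q.1 + (θ q.2).2
    have hi : Function.Injective Φ := by
      rintro ⟨s, y⟩ ⟨s', y'⟩ e
      have := h _ (al_mem (X - (θ y).1) s) _ (al_mem (X - (θ y').1) s') y y'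
        (Prod.ext (by simp) e)
      subst this
      have e2 : al r (X - (θ y).1) s = al r (X - (θ y).1) s' := add_right_cancel e
      rw [← prj_al (X - (θ y).1) s, e2, prj_al]
    have hc : Nat.card (Om r) ≤ Nat.card (Sx r × Yx r) := by
      rw [← (prj r).ker.card_mul_index, AddSubgroup.index_ker, Nat.card_prod (Sx r), mul_comm]
      exact Nat.mul_le_mul_right _ (Nat.card_le_card_of_injective _ Subtype.val_injective)
    obtain ⟨⟨s, y⟩, e⟩ := (hi.bijective_of_nat_card_le hc).2 w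
    exact ⟨_, al_mem (X - (θ y).1) s, θ y, mem_tl.2 ⟨y, rfl⟩,
      Prod.ext (by simp) e⟩
  · intro a ha a' ha' f hf f' hf' e
    obtain ⟨y, rfl⟩ := mem_tl.1 hf
    obtain ⟨y', rfl⟩ := mem_tl.1 hf'
    rw [h a ha a' ha' y y' e]

lemma tri {Λ : Type} (κ : Yx r → Λ) (h : Λ → ℤ × ℤ) (δ : Λ → Om r)
    (H : ∀ a ∈ A0 r, ∀ a' ∈ A0 r, ∀ y y' : Yx r, a.1 + h (κ y) = a'.1 + h (κ y') →
      a.2 + (y.1 + δ (κ y)) = a'.2 + (y'.1 + δ (κ y')) → κ y = κ y') :
    Inj (A0 r) fun y => (h (κ y), y.1 + δ (κ y)) := by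
  intro a ha a' ha' y y' e
  have e1 := congrArg Prod.fst e
  have e2 := congrArg Prod.snd e
  simp only [Prod.fst_add, Prod.snd_add] at e1 e2
  have e3 := H a ha a' ha' y y' e1 e2
  rw [← e3] at e1 e2
  have e4 : a.1 = a'.1 := add_right_cancel e1
  have e5 : a.2 + y.1 = a'.2 + y'.1 := by
    rw [← add_assoc, ← add_assoc] at e2; exact add_right_cancel e2
  have e6 := congrArg (prj r) e5
  rw [map_add, map_add, (AddMonoidHom.mem_ker).1 y.2, (AddMonoidHom.mem_ker).1 y'.2, add_zero,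
    add_zero] at e6
  have e7 : a.2 = a'.2 := by rw [eq_al ha, eq_al ha', e4, e6]
  rw [e7] at e5
  exact Subtype.ext (add_left_cancel e5)

def Wd : Set (ℤ × ℤ) := insert 0 (insert (1, 0) (Set.range vv))

lemma W0 : (0 : ℤ × ℤ) ∈ Wd := Or.inl rfl

structure Solv (A : Set (G0 r)) : Prop where
  inj : ∀ θ : Yx r → G0 r, (∀ y, (θ y).1 ∈ Wd) → Inj (A0 r) θ → Inj A θ
  cov : ∀ x s, ∃ a ∈ A, a.1 = x ∧ prj r a.2 = s

lemma solv_of {A : Set (G0 r)}
    (hA : ∀ F : Finset (G0 r), (∀ f ∈ F, f.1 ∈ Wd) → IsTiling (A0 r) F → IsTiling A F) :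
    Solv A := by
  have key : ∀ θ : Yx r → G0 r, (∀ y, (θ y).1 ∈ Wd) → Inj (A0 r) θ →
      IsTiling A (tl θ) := by
    intro θ hW hθ
    refine hA _ (fun f hf => ?_) (tile_of_inj hθ)
    obtain ⟨y, rfl⟩ := mem_tl.1 hf
    exact hW y
  refine ⟨fun θ hW hθ a ha a' ha' y y' e => ?_, fun x s => ?_⟩
  · have := ((key θ hW hθ).uniq ha ha' (mem_tl.2 ⟨y, rfl⟩) (mem_tl.2 ⟨y', rfl⟩) e).2
    exact hθ _ (al_mem 0 0) _ (al_mem 0 0) y y' (by rw [this])
  · have := key _ (fun y => W0) (tri (fun _ => ()) (fun _ => 0) (fun _ => 0)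
      (fun _ _ _ _ _ _ _ _ => rfl))
    obtain ⟨a, ha, f, hf, e⟩ := this.ex (x, al r x s)
    obtain ⟨y, rfl⟩ := mem_tl.1 hf
    have e1 := congrArg Prod.fst e
    have e2 := congrArg (fun g => prj r g.2) e
    simp only [Prod.fst_add, Prod.snd_add, add_zero, map_add, prj_al] at e1 e2
    rw [(AddMonoidHom.mem_ker).1 y.2, add_zero] at e2
    exact ⟨a, ha, e1, e2⟩

lemma forb {A : Set (G0 r)} (hA : Solv A) {Λ : Type} (κ : Yx r → Λ) (h : Λ → ℤ × ℤ) (δ : Λ → Om r)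
    (hW : ∀ l, h l ∈ Wd)
    (H : ∀ a ∈ A0 r, ∀ a' ∈ A0 r, ∀ y y' : Yx r, a.1 + h (κ y) = a'.1 + h (κ y') →
      a.2 + (y.1 + δ (κ y)) = a'.2 + (y'.1 + δ (κ y')) → κ y = κ y')
    (h0 : h (κ 0) = 0) (d0 : δ (κ 0) = 0) (y1 : Yx r) {a a' : G0 r} (ha : a ∈ A) (ha' : a' ∈ A)
    (e1 : a.1 + h (κ y1) = a'.1) (e2 : y1.1 + δ (κ y1) = a'.2 - a.2) : y1 = 0 := by
  refine hA.inj _ (fun y => hW _) (tri κ h δ H) a ha a' ha' y1 0 (Prod.ext ?_ ?_)
  · simp [h0, e1]
  · simp [d0, e2]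

variable {A : Set (G0 r)}

/-- differences in a Boolean gadget lie on the axes -/
lemma axes (hA : Solv A) (k : Kx) (h : ℤ × ℤ) (hh : h = 0 ∨ h = vv k) {a a' : G0 r} (ha : a ∈ A)
    (ha' : a' ∈ A) (e : a.1 + h = a'.1) :
    (a.2.2 k).1 = (a'.2.2 k).1 ∨ (a.2.2 k).2 = (a'.2.2 k).2 := by
  classical
  by_contra hc
  push Not at hc
  obtain ⟨d, hd⟩ : ∃ d, d = a'.2 - a.2 := ⟨_, rfl⟩
  have d1 : (d.2 k).1 ≠ 0 := by simpa [hd, sub_eq_zero] using hc.1.symm
  have d2 : (d.2 k).2 ≠ 0 := by simpa [hd, sub_eq_zero] using hc.2.symm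
  have hb : ∀ x, b0 (x + h) k = b0 x k := by
    rcases hh with rfl | rfl
    · simp
    · exact fun x => b0_vv x k
  have := forb hA (fun y => (y.1.2 k).1) (fun s => if s = 1 then h else 0)
    (fun s => (if s = 1 then d.1 else 0,
      Function.update (if s = 1 then d.2 else 0) k (s • d.2 k - (s, -s)))) ?_ ?_ (by simp) ?_
    ⟨(0, Pi.single k (1, -1)), mem_Y.2 ⟨by simp, fun k' => by
      by_cases q : k' = k
      · subst q; simp
      · simp [q]⟩⟩ ha ha' (by simpa using e) ?_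
  · have h2 := congrArg (fun y : Yx r => (y.1.2 k).1) this
    simp at h2
  · intro s
    split_ifs
    · rcases hh with rfl | rfl
      · exact W0
      · exact Or.inr (Or.inr ⟨k, rfl⟩)
    · exact W0
  · intro a ha a' ha' y y' e1 e2
    have e3 := congrArg (fun w : Om r => w.2 k) e2
    simp only [Prod.snd_add, Pi.add_apply, Function.update_self] at e3
    have f1 := congrArg Prod.fst e3
    have f2 := congrArg Prod.snd e3
    simp only [Prod.fst_add, Prod.snd_add, Prod.fst_sub, Prod.snd_sub, Prod.smul_fst, Prod.smul_snd,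
      smul_eq_mul, Y2] at f1 f2
    have hs : b0 a.1 k = b0 a'.1 k := by
      have : ∀ (x : ℤ × ℤ) (s : ZMod (r k)), b0 (x + if s = 1 then h else 0) k = b0 x k := by
        intro x s; split_ifs
        · exact hb x
        · simp
      rw [← this a.1, e1, this]
    have g1 := ha.2 k
    have g2 := ha'.2 k
    rw [← hs] at g2
    split_ifs at g1 g2
    · exact mul_right_cancel₀ d2 (by linear_combination f2 - g1 + g2)
    · exact mul_right_cancel₀ d1 (by linear_combination f1 - g1 + g2)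
  · simp
  · rw [← hd]
    refine Prod.ext (by simp) (funext fun k' => ?_)
    by_cases q : k' = k
    · subst q; simp
    · simp [q]

lemma mem_W1 {h : ℤ} (hh : h = 0 ∨ h = 1) : ((h, 0) : ℤ × ℤ) ∈ Wd := by
  rcases hh with rfl | rfl
  · exact W0
  · exact Or.inr (Or.inl rfl)

lemma clock1 (hA : Solv A) {h : ℤ} (hh : h = 0 ∨ h = 1) {a a' : G0 r} (ha : a ∈ A)
    (ha' : a' ∈ A) (e : a.1 + (h, 0) = a'.1) :
    tau a.2.1.2.1 - tau a.2.1.1 = tau a'.2.1.2.1 - tau a'.2.1.1 := by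
  classical
  by_contra hc
  obtain ⟨d, hd⟩ : ∃ d, d = a'.2 - a.2 := ⟨_, rfl⟩
  have d1 : tau (d.1.2.1 - d.1.1) ≠ 0 := by
    intro q; apply hc
    simp only [hd, Prod.fst_sub, Prod.snd_sub, map_sub] at q
    linear_combination -q
  have := forb hA (fun y => tau y.1.1.2.1)
    (fun s => if s = tau (d.1.2.1 - d.1.1) then (h, 0) else 0)
    (fun s => if s = tau (d.1.2.1 - d.1.1) then d - ((0, d.1.2.1 - d.1.1, 0), 0) else 0) ?_ ?_
    (by simp only [ZeroMemClass.coe_zero, Prod.fst_zero, Prod.snd_zero, map_zero, if_neg d1.symm])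
    (by simp only [ZeroMemClass.coe_zero, Prod.fst_zero, Prod.snd_zero, map_zero, if_neg d1.symm])
    ⟨((0, d.1.2.1 - d.1.1, 0), 0), mem_Y.2 ⟨by simp, fun k' => by simp⟩⟩ ha ha'
    (by simpa using e) (by rw [← hd]; simp only [if_true]; abel)
  · have h2 := congrArg (fun y : Yx r => tau y.1.1.2.1) this
    exact d1 (by simpa using h2)
  · intro s
    split_ifs
    · exact mem_W1 hh
    · exact W0
  · intro a ha a' ha' y y' e1 e2
    have e3 := congrArg (fun w : Om r => tau w.1.2.1 - tau w.1.1) e2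
    obtain ⟨t, ht⟩ := ha.1
    obtain ⟨t', ht'⟩ := ha'.1
    have z : ∀ s : Z13, tau (if s = tau (d.1.2.1 - d.1.1) then d - ((0, d.1.2.1 - d.1.1, 0), 0)
        else 0).1.2.1 = tau (if s = tau (d.1.2.1 - d.1.1) then d - ((0, d.1.2.1 - d.1.1, 0), 0)
        else 0).1.1 := by
      intro s; split_ifs <;> simp
    simp only [Prod.fst_add, Prod.snd_add, map_add, z, ht, ht', ac, tau_lift, tau_int, Y1] at e3
    linear_combination e3

lemma clock2 (hA : Solv A) {h : ℤ} (hh : h = 0 ∨ h = 1) {a a' : G0 r} (ha : a ∈ A)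
    (ha' : a' ∈ A) (e : a.1 + (h, 0) = a'.1) (et : tau a.2.1.1 = tau a'.2.1.1) :
    a.2.1.1 = a'.2.1.1 ∧ a.2.1.2.2 = a'.2.1.2.2 := by
  classical
  by_contra hc
  obtain ⟨d, hd⟩ : ∃ d, d = a'.2 - a.2 := ⟨_, rfl⟩
  have d1 : (d.1.1, d.1.2.2) ≠ (0, 0) := by
    intro q; apply hc
    simp only [hd, Prod.fst_sub, Prod.snd_sub, Prod.mk.injEq, sub_eq_zero] at q
    exact ⟨q.1.symm, q.2.symm⟩
  have d2 : tau d.1.1 = 0 := by simp [hd, et]
  have := forb hA (fun y => (y.1.1.1, y.1.1.2.2))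
    (fun s => if s = (d.1.1, d.1.2.2) then (h, 0) else 0)
    (fun s => if s = (d.1.1, d.1.2.2) then d - ((d.1.1, 0, d.1.2.2), 0) else 0) ?_ ?_
    (by simp only [ZeroMemClass.coe_zero, Prod.fst_zero, Prod.snd_zero, if_neg d1.symm])
    (by simp only [ZeroMemClass.coe_zero, Prod.fst_zero, Prod.snd_zero, if_neg d1.symm])
    ⟨((d.1.1, 0, d.1.2.2), 0), mem_Y.2 ⟨d2, fun k' => by simp⟩⟩ ha ha'
    (by simpa using e) (by rw [← hd]; simp only [if_true]; abel)
  · have h2 := congrArg (fun y : Yx r => (y.1.1.1, y.1.1.2.2)) this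
    exact d1 (by simpa using h2)
  · intro s
    split_ifs
    · exact mem_W1 hh
    · exact W0
  · intro a ha a' ha' y y' e1 e2
    have e3 := congrArg (fun w : Om r => w.1.1) e2
    have e4 := congrArg (fun w : Om r => w.1.2.2) e2
    obtain ⟨t, ht⟩ := ha.1
    obtain ⟨t', ht'⟩ := ha'.1
    have z1 : ∀ s : Zq × Z13, (if s = (d.1.1, d.1.2.2) then d - ((d.1.1, 0, d.1.2.2), 0)
        else 0).1.1 = 0 := by
      intro s; split_ifs <;> simp
    have z2 : ∀ s : Zq × Z13, (if s = (d.1.1, d.1.2.2) then d - ((d.1.1, 0, d.1.2.2), 0)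
        else 0).1.2.2 = 0 := by
      intro s; split_ifs <;> simp
    simp only [Prod.fst_add, Prod.snd_add, z1, z2, ht, ht', ac, add_zero] at e3 e4
    have e5 := congrArg tau e3
    simp only [map_add, tau_lift, Y1, add_zero] at e5
    subst e5
    exact Prod.ext (add_left_cancel e3) (add_left_cancel e4)

lemma clock3 (hA : Solv A) {h : ℤ} (hh : h = 0 ∨ h = 1) {a a' : G0 r} (ha : a ∈ A)
    (ha' : a' ∈ A) (e : a.1 + (h, 0) = a'.1) (et : tau a.2.1.2.1 + h = tau a'.2.1.2.1) :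
    a.2.1.2.1 + h = a'.2.1.2.1 := by
  classical
  by_contra hc
  obtain ⟨d, hd⟩ : ∃ d, d = a'.2 - a.2 := ⟨_, rfl⟩
  obtain ⟨E, hE⟩ : ∃ E, E = d.1.2.1 - h := ⟨_, rfl⟩
  have d1 : E ≠ 0 := by
    intro q; apply hc
    simp only [hE, hd, Prod.fst_sub, Prod.snd_sub] at q
    linear_combination -q
  have d2 : tau E = 0 := by
    simp only [hE, hd, Prod.fst_sub, Prod.snd_sub, map_sub, tau_int]
    linear_combination -et
  have := forb hA (fun y => (y.1.1.1, y.1.1.2.1))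
    (fun s => if s.1 = E then (h, 0) else 0)
    (fun s => ((s.2 - s.1, s.1 - s.2, 0), 0) + if s.1 = E then d - ((0, E, 0), 0) else 0) ?_ ?_
    (by simp only [ZeroMemClass.coe_zero, Prod.fst_zero, if_neg d1.symm])
    (by simp only [ZeroMemClass.coe_zero, Prod.fst_zero, Prod.snd_zero, if_neg d1.symm]; simp)
    ⟨((E, 0, 0), 0), mem_Y.2 ⟨d2, fun k' => by simp⟩⟩ ha ha'
    (by simpa using e) (by rw [← hd]; simp only [if_true]; ext <;> simp)
  · have h2 := congrArg (fun y : Yx r => y.1.1.1) this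
    exact d1 (by simpa using h2)
  · intro s
    split_ifs
    · exact mem_W1 hh
    · exact W0
  · intro a ha a' ha' y y' e1 e2
    have e0 := congrArg (fun w : ℤ × ℤ => w.1) e1
    have e3 := congrArg (fun w : Om r => w.1.1) e2
    have e4 := congrArg (fun w : Om r => w.1.2.1) e2
    obtain ⟨t, ht⟩ := ha.1
    obtain ⟨t', ht'⟩ := ha'.1
    have z1 : ∀ s : Zq, (if s = E then d - ((0, E, 0), 0) else 0).1.2.1 =
        (((if s = E then ((h, 0) : ℤ × ℤ) else 0).1 : ℤ) : Zq) := by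
      intro s; split_ifs <;> simp [hE]
    simp only [Prod.fst_add, Prod.snd_add, z1, ht, ht', ac] at e0 e3 e4
    have e5 := congrArg (fun x : ℤ => (x : Zq)) e0
    simp only [Int.cast_add] at e5
    have e6 : lift (t - a.1.1) + y.1.1.1 = lift (t' - a'.1.1) + y'.1.1.1 := by
      linear_combination e4 - e5
    have e7 := congrArg tau e6
    simp only [map_add, tau_lift, Y1, add_zero] at e7
    rw [e7] at e6
    have e8 := add_left_cancel e6
    rw [e8] at e0 e3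
    have e9 : a.1.1 = a'.1.1 := add_right_cancel e0
    rw [e9] at e7
    have e10 : t = t' := by linear_combination e7
    rw [e10] at e3
    exact Prod.ext e8 (by linear_combination e3)

end Vale.Agent.P043
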