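import Vale.Agent.P043.Enc

namespace Vale.Agent.P043

variable {r : Kx → ℕ} [hp : ∀ k, Fact (r k).Prime] {A : Set (G0 r)}

lemma val_cast_lt {n u : ℕ} [NeZero n] (hn : 13 ≤ n) (hu : u < 13) : ((u : ZMod n)).val = u :=
  ZMod.val_cast_of_lt (by omega)

/-- the block tile linking a Boolean gadget with the clock -/
lemma block (hA : Solv A) (hr : ∀ k, 13 ≤ r k) (c : Z13) {a a' : G0 r} (ha : a ∈ A) (ha' : a' ∈ A)
    (e : a.1 = a'.1) (hV : V c a.2.1 = V c a'.2.1)
    (hB : a'.2.2 - a.2.2 = Pi.single (Sum.inr c)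
      (((tau a'.2.1.1 - tau a.2.1.1).val : ZMod (r (Sum.inr c))), 0)) :
    tau a.2.1.1 = tau a'.2.1.1 := by
  classical
  obtain ⟨d, hd⟩ : ∃ d, d = a'.2 - a.2 := ⟨_, rfl⟩
  obtain ⟨u, hu⟩ : ∃ u, u = (tau a'.2.1.1 - tau a.2.1.1).val := ⟨_, rfl⟩
  have u13 : u < 13 := hu ▸ ZMod.val_lt _
  have hk := hr (Sum.inr c)
  have dV : V c d.1 = 0 := by rw [hd, Prod.fst_sub, map_sub, hV, sub_self]
  have d2 : d.2 = Pi.single (Sum.inr c) ((u : ZMod (r (Sum.inr c))), 0) := by rw [hd, hu]; exact hB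
  have dt : tau d.1.1 = u := by rw [hu, hd]; simp
  have tg : ∀ n : ℕ, tau (n • g0).1 = n := by intro n; simp [g0]
  have := forb hA (fun y => ((y.1.2 (Sum.inr c)).1, y.1.1)) (fun _ => 0)
    (fun s => (if s.1.val < 13 then s.1.val • g0 else 0, Pi.single (Sum.inr c)
      (0, s.1 + if s.1.val < 13 then (top (V c s.2) : ZMod (r (Sum.inr c))) else s.1)))
    (fun _ => W0) ?_ rfl (by simp [top])
    ⟨(d.1 - u • g0, Pi.single (Sum.inr c) ((u : ZMod (r (Sum.inr c))), -u)), mem_Y.2 ⟨by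
      rw [Prod.fst_sub, map_sub, dt, tg, sub_self], fun k' => by
      by_cases q : k' = Sum.inr c
      · subst q; simp
      · simp [q]⟩⟩ ha ha' (by simpa using e) ?_
  · have h2 := congrArg (fun y : Yx r => (y.1.2 (Sum.inr c)).1.val) this
    simp only [Pi.single_eq_same, val_cast_lt hk u13, ZeroMemClass.coe_zero, Prod.snd_zero,
      Pi.zero_apply, Prod.fst_zero, ZMod.val_zero] at h2
    rw [h2, eq_comm, ZMod.val_eq_zero, sub_eq_zero] at hu
    exact hu.symm
  · intro a ha a' ha' y y' e1 e2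
    have e0 : a.1 = a'.1 := add_right_cancel e1
    have e3 := congrArg (fun w : Om r => w.2 (Sum.inr c)) e2
    have e4 := congrArg (fun w : Om r => w.1) e2
    simp only [Prod.snd_add, Pi.add_apply, Pi.single_eq_same, Prod.fst_add] at e3 e4
    have f1 := congrArg Prod.fst e3
    have f2 := congrArg Prod.snd e3
    simp only [Prod.fst_add, Prod.snd_add, Y2, add_zero, neg_add_cancel_left] at f1 f2
    obtain ⟨t, ht⟩ := ha.1
    obtain ⟨t', ht'⟩ := ha'.1
    rw [← e0] at ht'
    rw [ht, ht'] at e4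
    have fin : (y.1.2 (Sum.inr c)).1 = (y'.1.2 (Sum.inr c)).1 →
        ((y.1.2 (Sum.inr c)).1, y.1.1) = ((y'.1.2 (Sum.inr c)).1, y'.1.1) := by
      intro q
      rw [q, ← add_assoc, ← add_assoc] at e4
      have e5 := add_right_cancel e4
      have e6 := congrArg (fun w : Ck => tau w.1) e5
      simp only [Prod.fst_add, map_add, ac, tau_lift, Y1, add_zero] at e6
      rw [e6] at e5
      rw [q, add_left_cancel e5]
    have g1 := ha.2 (Sum.inr c)
    have g2 := ha'.2 (Sum.inr c)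
    rw [← e0] at g2
    apply fin
    by_cases hb : b0 a.1 (Sum.inr c) = true
    · rw [if_pos hb] at g1 g2
      rw [g1, g2, zero_add, zero_add] at f2
      have f3 := congrArg ZMod.val f2
      by_cases s1 : (y.1.2 (Sum.inr c)).1.val < 13 <;> by_cases s2 : (y'.1.2 (Sum.inr c)).1.val < 13
      · simp only [if_pos s1, if_pos s2, val_cast_lt hk (top_lt _)] at f3 e4
        have e5 := congrArg (V c) e4
        simp only [map_add, map_nsmul, V_g0, smul_zero, add_zero] at e5
        have e6 := congrArg tau e5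
        simp only [map_add, tau_V, ac, tau_lift, tau_int, Y1] at e6
        have e7 : V c y.1.1 = V c y'.1.1 := top_ext (by
          simp only [tau_V, Y1]; linear_combination e6) f3
        rw [e7] at e5
        have e8 := V_ac c a.1.1 (by simpa [b0] using hb) (add_right_cancel e5)
        rw [e8] at e4
        have e9 := congrArg (fun w : Ck => tau w.1) (add_left_cancel e4)
        simp only [Prod.fst_add, map_add, Y1, tg, zero_add] at e9
        have e10 := congrArg ZMod.val e9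
        rw [val_cast_lt le_rfl s1, val_cast_lt le_rfl s2] at e10
        exact ZMod.val_injective _ e10
      · simp only [if_pos s1, if_neg s2, val_cast_lt hk (top_lt _)] at f3
        have := top_lt (V c y.1.1); omega
      · simp only [if_neg s1, if_pos s2, val_cast_lt hk (top_lt _)] at f3
        have := top_lt (V c y'.1.1); omega
      · simpa only [if_neg s1, if_neg s2] using f2
    · rw [if_neg hb] at g1 g2
      rwa [g1, g2, zero_add, zero_add] at f1
  · rw [← hd]
    simp only [Pi.single_eq_same, val_cast_lt hk u13, if_pos u13, map_sub, dV, map_nsmul, V_g0]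
    refine Prod.ext (by simp) ?_
    rw [d2, Prod.snd_add, ← Pi.single_add]
    simp [top]

lemma exists_nx (K : Type) [Finite K] [Nonempty K] :
    ∃ nx : K → K, ∀ k k0, ∃ m : ℕ, nx^[m] k = k0 := by
  haveI : NeZero (Nat.card K) := ⟨Nat.card_pos.ne'⟩
  obtain ⟨e⟩ : Nonempty (K ≃ ZMod (Nat.card K)) := Finite.card_eq.1 (by simp)
  refine ⟨fun k => e.symm (e k + 1), fun k k0 => ⟨(e k0 - e k).val, ?_⟩⟩
  have : ∀ m : ℕ, (fun k => e.symm (e k + 1))^[m] k = e.symm (e k + m) := by
    intro m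
    induction m with
    | zero => simp
    | succ m ih => rw [Function.iterate_succ_apply', ih]; simp [add_assoc]
  rw [this]; simp

/-- the clause tile -/
lemma clause (hA : Solv A) (b : Kx → Bool) {a a' : G0 r} (ha : a ∈ A) (ha' : a' ∈ A)
    (e : a.1 = a'.1) (hC : a.2.1 = a'.2.1)
    (hB : ∀ k, a'.2.2 k - a.2.2 k = if b k then (1, 0) else (0, 1)) :
    ∃ x, ∀ k, b k = b0 x k := by
  classical
  by_contra hc
  push Not at hc
  obtain ⟨nx, hnx⟩ := exists_nx Kx
  let om : (∀ k, ZMod (r k)) → ∀ k, ZMod (r k) := fun s k =>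
    if s (nx k) = 1 then Equiv.swap 0 1 (s k) else s k
  have := forb hA (fun y k => (y.1.2 k).1) (fun _ => 0)
    (fun s => (0, fun k => (if b k then (s k, om s k) else (om s k, s k)) - (s k, -s k)))
    (fun _ => W0) ?_ rfl ?_
    ⟨(0, fun _ => (1, -1)), mem_Y.2 ⟨by simp, fun k' => by simp⟩⟩ ha ha' (by simpa using e) ?_
  · have h2 := congrArg (fun y : Yx r => (y.1.2 (Sum.inr 0)).1) this
    simp at h2
  · intro a ha a' ha' y y' e1 e2
    have e0 : a.1 = a'.1 := add_right_cancel e1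
    obtain ⟨s, hs⟩ : ∃ s : ∀ k, ZMod (r k), s = fun k => (y.1.2 k).1 := ⟨_, rfl⟩
    obtain ⟨s', hs'⟩ : ∃ s : ∀ k, ZMod (r k), s = fun k => (y'.1.2 k).1 := ⟨_, rfl⟩
    rw [← hs, ← hs'] at e2 ⊢
    have vis : ∀ k, (b k ≠ b0 a.1 k → s k = s' k) ∧ (s k = s' k ∨ om s k = om s' k) := by
      intro k
      have e3 := congrArg (fun w : Om r => w.2 k) e2
      simp only [Prod.snd_add, Pi.add_apply] at e3
      have f1 := congrArg Prod.fst e3
      have f2 := congrArg Prod.snd e3
      have y1 : (y.1.2 k).1 = s k := by rw [hs]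
      have y2 : (y'.1.2 k).1 = s' k := by rw [hs']
      simp only [Prod.fst_add, Prod.snd_add, Prod.fst_sub, Prod.snd_sub, Y2, y1, y2] at f1 f2
      have g1 := ha.2 k
      have g2 := ha'.2 k
      rw [← e0] at g2
      cases hb : b k <;> cases hb0 : b0 a.1 k <;>
        simp only [hb, hb0, if_true, Bool.false_eq_true, if_false] at f1 f2 g1 g2 ⊢
      · exact ⟨fun h => absurd rfl h, Or.inr (by linear_combination f1 - g1 + g2)⟩
      · have : s k = s' k := by linear_combination f2 - g1 + g2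
        exact ⟨fun _ => this, Or.inl this⟩
      · have : s k = s' k := by linear_combination f1 - g1 + g2
        exact ⟨fun _ => this, Or.inl this⟩
      · exact ⟨fun h => absurd rfl h, Or.inr (by linear_combination f2 - g1 + g2)⟩
    obtain ⟨k0, hk0⟩ := hc a.1
    have step : ∀ k, s (nx k) = s' (nx k) → s k = s' k := by
      intro k h
      rcases (vis k).2 with q | q
      · exact q
      · simp only [om, h] at q
        split_ifs at q
        · exact (Equiv.swap 0 1).injective q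
        · exact q
    have all : ∀ m k, nx^[m] k = k0 → s k = s' k := by
      intro m
      induction m with
      | zero => intro k h; rw [show k = k0 from h]; exact (vis k0).1 hk0
      | succ m ih => intro k h; exact step k (ih (nx k) h)
    funext k
    obtain ⟨m, hm⟩ := hnx k k0
    exact all m k hm
  · refine Prod.ext rfl (funext fun k => ?_)
    simp [om]
  · refine Prod.ext (by simp [hC]) (funext fun k => ?_)
    simp only [Prod.snd_add, Pi.add_apply, Prod.snd_sub, Pi.sub_apply, hB, om, if_true,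
      Equiv.swap_apply_right]
    abel

def st (A : Set (G0 r)) (x : ℤ × ℤ) (k : Kx) : Prop :=
  ∀ a ∈ A, ∀ a' ∈ A, a.1 = x → a'.1 = x → (a.2.2 k).2 = (a'.2.2 k).2

lemma st_neg (hA : Solv A) {x : ℤ × ℤ} {k : Kx} (h : ¬ st A x k) {a a' : G0 r} (ha : a ∈ A)
    (ha' : a' ∈ A) (e : a.1 = x) (e' : a'.1 = x) : (a.2.2 k).1 = (a'.2.2 k).1 := by
  unfold st at h
  push Not at h
  obtain ⟨p, hp, q, hq, e1, e2, hne⟩ := h
  have ax : ∀ {a a' : G0 r}, a ∈ A → a' ∈ A → a.1 = x → a'.1 = x →
      (a.2.2 k).1 = (a'.2.2 k).1 ∨ (a.2.2 k).2 = (a'.2.2 k).2 :=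
    fun ha ha' e e' => axes hA k 0 (Or.inl rfl) ha ha' (by simp [e, e'])
  have hpq := (ax hp hq e1 e2).resolve_right hne
  have key : ∀ {a : G0 r}, a ∈ A → a.1 = x → (a.2.2 k).1 = (p.2.2 k).1 := by
    intro a ha e
    rcases ax ha hp e e1 with h1 | h1
    · exact h1
    rcases ax ha hq e e2 with h2 | h2
    · rw [h2, hpq]
    · exact absurd (h1.symm.trans h2) hne
  rw [key ha e, key ha' e']

open Classical in
lemma diffB (hA : Solv A) {a a' : G0 r} (ha : a ∈ A) (ha' : a' ∈ A) (e : a.1 = a'.1) (k : Kx) :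
    a'.2.2 k - a.2.2 k = if st A a.1 k then ((prj r a'.2).2 k - (prj r a.2).2 k, 0)
      else (0, (prj r a'.2).2 k - (prj r a.2).2 k) := by
  simp only [prj_apply]
  split_ifs with h
  · have := h a ha a' ha' rfl e.symm
    ext <;> simp [this]
  · have := st_neg hA h ha ha' rfl e.symm
    ext <;> simp [this]

lemma clock_eq (hA : Solv A) {a a' : G0 r} (ha : a ∈ A) (ha' : a' ∈ A) (e : a.1 = a'.1)
    (et : tau a.2.1.1 = tau a'.2.1.1) : a.2.1 = a'.2.1 := by
  have e' : a.1 + (0, 0) = a'.1 := by rw [← e]; exact add_zero _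
  have h1 := clock1 hA (Or.inl rfl) ha ha' e'
  have h2 := clock2 hA (Or.inl rfl) ha ha' e' et
  have h3 := clock3 hA (Or.inl rfl) ha ha' e' (by push_cast; linear_combination h1 + et)
  exact Prod.ext h2.1 (Prod.ext (by simpa using h3) h2.2)

lemma st_per (hA : Solv A) (x : ℤ × ℤ) (k : Kx) : st A (x + vv k) k ↔ st A x k := by
  classical
  obtain ⟨a0, h0, e0, p0⟩ := hA.cov x 0
  obtain ⟨a1, h1, e1, p1⟩ := hA.cov (x + vv k) 0
  have mv : ∀ (y : ℤ × ℤ) (a : G0 r), a ∈ A → a.1 = y → prj r a.2 = 0 → ∀ t : ZMod (r k),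
      ∃ a' ∈ A, a'.1 = y ∧ a'.2.2 k - a.2.2 k = if st A y k then (t, 0) else (0, t) := by
    intro y a ha e p t
    obtain ⟨a', ha', e', p'⟩ := hA.cov y (0, Pi.single k t)
    refine ⟨a', ha', e', ?_⟩
    rw [diffB hA ha ha' (e.trans e'.symm), p, p', e]
    simp
  by_contra hc
  have one : (1 : ZMod (r k)) ≠ 0 := one_ne_zero
  by_cases s0 : st A x k <;> by_cases s1 : st A (x + vv k) k
  · exact hc (iff_of_true s1 s0)
  · obtain ⟨a, ha, e, q⟩ := mv x a0 h0 e0 p0 ((a1.2.2 k).1 - (a0.2.2 k).1 + 1)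
    obtain ⟨a', ha', e', q'⟩ := mv _ a1 h1 e1 p1 ((a0.2.2 k).2 - (a1.2.2 k).2 + 1)
    rw [if_pos s0] at q
    rw [if_neg s1] at q'
    simp only [Prod.ext_iff, Prod.fst_sub, Prod.snd_sub] at q q'
    rcases axes hA k _ (Or.inr rfl) ha ha' (by rw [e, e']) with h | h
    · exact one (by linear_combination h - q.1 + q'.1)
    · exact one (by linear_combination -h + q.2 - q'.2)
  · obtain ⟨a, ha, e, q⟩ := mv x a0 h0 e0 p0 ((a1.2.2 k).2 - (a0.2.2 k).2 + 1)
    obtain ⟨a', ha', e', q'⟩ := mv _ a1 h1 e1 p1 ((a0.2.2 k).1 - (a1.2.2 k).1 + 1)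
    rw [if_neg s0] at q
    rw [if_pos s1] at q'
    simp only [Prod.ext_iff, Prod.fst_sub, Prod.snd_sub] at q q'
    rcases axes hA k _ (Or.inr rfl) ha ha' (by rw [e, e']) with h | h
    · exact one (by linear_combination -h + q.1 - q'.1)
    · exact one (by linear_combination h - q.2 + q'.2)
  · exact hc (iff_of_false s1 s0)

lemma allowed (hA : Solv A) (x : ℤ × ℤ) : ∃ x0, ∀ k, st A x k ↔ b0 x0 k = true := by
  classical
  obtain ⟨a, ha, e, p⟩ := hA.cov x 0
  obtain ⟨a', ha', e', p'⟩ := hA.cov x (0, fun _ => 1)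
  obtain ⟨x0, h⟩ := clause hA (fun k => decide (st A x k)) ha ha' (e.trans e'.symm)
    (clock_eq hA ha ha' (e.trans e'.symm) (by
      have h1 := congrArg Prod.fst p
      have h2 := congrArg Prod.fst p'
      simp only [prj_apply] at h1 h2
      rw [h1, h2]; rfl)) (fun k => by
      rw [diffB hA ha ha' (e.trans e'.symm), p, p', e]
      simp)
  exact ⟨x0, fun k => by rw [← h k]; simp⟩

lemma clock_sum (hA : Solv A) (hr : ∀ k, 13 ≤ r k) (c : Z13) (x : ℤ × ℤ) (j : ℕ)
    (h0 : st A x (Sum.inr c)) (h1 : st A (x + ((j : ℤ), 0)) (Sum.inr c)) : (j : Z13) = 0 := by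
  classical
  choose pt hpt hx hp using fun x (t : Z13) => hA.cov x (t, 0)
  have ht : ∀ x t, tau (pt x t).2.1.1 = t := fun x t => congrArg Prod.fst (hp x t)
  have inj : ∀ x, st A x (Sum.inr c) → Function.Injective fun t => V c (pt x t).2.1 := by
    intro x hs t t' e
    obtain ⟨a', ha', e', p'⟩ := hA.cov x (t', Pi.single (Sum.inr c) ((t' - t).val : ZMod _))
    have q1 : tau a'.2.1.1 = t' := congrArg Prod.fst p'
    have q2 := clock_eq hA (hpt x t') ha' (by rw [hx, e']) (by rw [ht, q1])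
    have := block hA hr c (hpt x t) ha' (by rw [hx, e']) (by rw [← q2]; exact e) (by
      funext k
      rw [Pi.sub_apply, diffB hA (hpt x t) ha' (by rw [hx, e']), p', hp, hx, q1, ht]
      by_cases q : k = Sum.inr c
      · subst q; simp [hs]
      · simp [q])
    rwa [ht, q1] at this
  have stp : ∀ (x : ℤ × ℤ) t t', (pt x t).1 + (1, 0) = (pt (x + (1, 0)) t').1 := by
    intro x t t'; rw [hx, hx]
  have c1 := fun x t t' => clock1 hA (Or.inr rfl) (hpt x t) (hpt (x + (1, 0)) t') (stp x t t')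
  have c2 := fun x t => clock2 hA (Or.inr rfl) (hpt x t) (hpt (x + (1, 0)) t) (stp x t t)
    (by rw [ht, ht])
  have c3 := fun x t => clock3 hA (Or.inr rfl) (hpt x t) (hpt (x + (1, 0)) (t + 1)) (stp x t _)
    (by have := c1 x t (t + 1); rw [ht, ht] at this; push_cast; linear_combination this)
  have sV : ∀ x, ∑ t, V c (pt (x + (1, 0)) t).2.1 = ∑ t, V c (pt x t).2.1 + 13 := by
    intro x
    simp only [V_apply, Finset.sum_sub_distrib, ← (c2 x _).1, ← (c2 x _).2]
    have : ∑ t, (pt (x + (1, 0)) t).2.1.2.1 = ∑ t, (pt x t).2.1.2.1 + 13 := by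
      rw [← Equiv.sum_comp (Equiv.addRight (1 : Z13))]
      simp only [Equiv.coe_addRight, ← c3, Finset.sum_add_distrib]
      simp
    rw [this]; ring
  have tV : ∀ x t t', tau (V c (pt (x + (1, 0)) t').2.1) = tau (V c (pt x t).2.1) := by
    intro x t t'; rw [tau_V, tau_V, c1 x t t']
  have ind : ∀ j : ℕ, ∑ t, V c (pt (x + ((j : ℤ), 0)) t).2.1 = ∑ t, V c (pt x t).2.1 + 13 * j ∧
      ∀ t, tau (V c (pt (x + ((j : ℤ), 0)) t).2.1) = tau (V c (pt x 0).2.1) := by
    intro j
    induction j with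
    | zero =>
      have : x + (((0 : ℕ) : ℤ), 0) = x := by ext <;> simp
      rw [this]
      exact ⟨by simp, fun t => by rw [← tV x t 0, tV x 0 0]⟩
    | succ j ih =>
      have : x + (((j + 1 : ℕ) : ℤ), 0) = x + ((j : ℤ), 0) + (1, 0) := by ext <;> simp [add_assoc]
      rw [this]
      exact ⟨by rw [sV, ih.1]; push_cast; ring, fun t => by rw [tV _ 0 t, ih.2]⟩
  have := fib_sum _ _ (inj _ h1) (inj _ h0) _ (ind j).2 (fun t => by rw [← tV x t 0, tV x 0 0])
  rw [(ind j).1] at this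
  have h2 : (13 : Zq) * j = 13 * 0 := by linear_combination this
  rw [mul13, tau_nat, map_zero] at h2
  exact h2

end Vale.Agent.P043
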