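import Vale.Agent.P043.Set3

namespace Vale.Agent.P043.T3

variable (P : Par)

def dv : Kx → ℤ × ℤ
  | Sum.inl q => (1, -((q.1 : ℕ) : ℤ))
  | Sum.inr _ => (1, 0)

@[simp] lemma dv_fst (k : Kx) : (dv k).1 = 1 := by cases k <;> rfl

structure Bd (c0 : ℝ) : Prop where
  s : ∀ m, ‖secB P m‖ ≤ c0
  d : ∀ ξ k, ‖D P ξ • dv k‖ ≤ c0
  n : ∀ k, ‖NN P • dv k‖ ≤ c0
  n2 : ‖NN P • ((0, 1) : ℤ × ℤ)‖ ≤ c0
  q : ∀ c (n : ℕ), n < P.q c → ‖((n, 0) : ℤ × ℤ)‖ ≤ c0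

lemma ex_bd : ∃ c0, Bd P c0 := by
  obtain ⟨b1, h1⟩ := (Set.finite_range fun m => ‖secB P m‖).bddAbove
  obtain ⟨b2, h2⟩ := (Set.finite_range fun s : (∀ j, Zr P j) × Kx => ‖D P s.1 • dv s.2‖).bddAbove
  obtain ⟨b3, h3⟩ := (Set.finite_range fun k => ‖NN P • dv k‖).bddAbove
  obtain ⟨b4, h4⟩ := (Set.finite_range fun s : Σ c, Fin (P.q c) =>
    ‖(((s.2 : ℕ), 0) : ℤ × ℤ)‖).bddAbove
  refine ⟨max (max b1 b2) (max b3 (max b4 ‖NN P • ((0, 1) : ℤ × ℤ)‖)), fun m => ?_, fun ξ k => ?_,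
    fun k => ?_, by simp only [le_max_iff, le_refl, or_true], fun c n hn => ?_⟩
  · have := h1 ⟨m, rfl⟩; simp only [le_max_iff]; tauto
  · have := h2 ⟨(ξ, k), rfl⟩; simp only [le_max_iff]; tauto
  · have := h3 ⟨k, rfl⟩; simp only [le_max_iff]; tauto
  · have := h4 ⟨⟨c, ⟨n, hn⟩⟩, rfl⟩; simp only [le_max_iff]; tauto

structure Solv (c0 : ℝ) (A : Set (G P)) : Prop where
  bd : Bd P c0
  inj : ∀ θ : Y P → G P, (∀ y, ‖(θ y).1‖ ≤ 100 * c0) → Inj (A0 P) θ → Inj A θ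
  cov : ∀ X u, ∃ a ∈ A, ∃ y : Y P, a.1 + secB P y.1.1 = X ∧ uu P a = u

variable {P} {c0 : ℝ} {A : Set (G P)}

lemma Bd.pos (h : Bd P c0) : 0 ≤ c0 := (norm_nonneg _).trans h.n2

lemma solv_of (hb : Bd P c0)
    (hA : ∀ F : Finset (G P), (∀ f ∈ F, ‖f.1‖ ≤ 100 * c0) → IsTiling (A0 P) F → IsTiling A F) :
    Solv P c0 A := by
  have key : ∀ θ : Y P → G P, (∀ y, ‖(θ y).1‖ ≤ 100 * c0) → Inj (A0 P) θ →
      IsTiling A (tl θ) := by
    intro θ hW hθ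
    refine hA _ (fun f hf => ?_) (tile_of_inj hθ)
    obtain ⟨y, rfl⟩ := mem_tl.1 hf
    exact hW y
  refine ⟨hb, fun θ hW hθ a ha a' ha' y y' e => ?_, fun x u => ?_⟩
  · have := ((key θ hW hθ).uniq ha ha' (mem_tl.2 ⟨y, rfl⟩) (mem_tl.2 ⟨y', rfl⟩) e).2
    obtain ⟨b, hb, -⟩ := (tile_of_inj hθ).ex 0
    exact hθ b hb b hb y y' (by rw [this])
  · have := key (sec P) (fun y => by have := hb.s y.1.1; have := hb.pos; rw [sec_fst]; linarith)
      (fun a ha a' ha' y y' e => basic ha ha' e)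
    obtain ⟨a, ha, f, hf, e⟩ := this.ex (al P x u)
    obtain ⟨y, rfl⟩ := mem_tl.1 hf
    have e2 := congrArg (uu P) e
    simp only [map_add, uu_sec, add_zero, uu_al] at e2
    exact ⟨a, ha, y, congrArg Prod.fst e, e2⟩

lemma forb (hA : Solv P c0 A) {Φ Λ : Type} [AddCommGroup Φ] (φ : G P →+ Φ) (κ : Y P → Λ)
    (Θ : Λ → G P) (hW : ∀ l, ‖(Θ l).1‖ ≤ 10 * c0)
    (H : ∀ a ∈ A0 P, ∀ a' ∈ A0 P, ∀ y y' : Y P,
      φ (a + sec P y + Θ (κ y)) = φ (a' + sec P y' + Θ (κ y')) → κ y = κ y')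
    {a a' : G P} (ha : a ∈ A) (ha' : a' ∈ A) (hd : ‖a'.1 - a.1‖ ≤ 10 * c0) (y1 y0 : Y P)
    (e : φ (a + sec P y1 + Θ (κ y1)) = φ (a' + sec P y0 + Θ (κ y0))) : κ y1 = κ y0 := by
  classical
  by_contra hc
  let Θ' : Λ → G P := fun l => if l = κ y1 then a' + sec P y0 + Θ (κ y0) - a - sec P y1 else Θ l
  have h1 : ∀ l, φ (Θ' l) = φ (Θ l) := by
    intro l; simp only [Θ']; split_ifs with q
    · rw [map_sub, map_sub, ← e, q]; simp only [map_add]; abel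
    · rfl
  have := hA.inj (fun y => sec P y + Θ' (κ y)) ?_ ?_ a ha a' ha' y1 y0 ?_
  · exact hc (by rw [this])
  · intro y
    have b0 := hA.bd.pos
    have b1 := hA.bd.s y.1.1
    have b2 := hA.bd.s y0.1.1
    have b3 := hA.bd.s y1.1.1
    have b4 := hW (κ y)
    have b5 := hW (κ y0)
    simp only [Θ']
    split_ifs with q
    · have : (sec P y + (a' + sec P y0 + Θ (κ y0) - a - sec P y1)).1 =
          secB P y.1.1 + (a'.1 - a.1) + secB P y0.1.1 + (Θ (κ y0)).1 - secB P y1.1.1 := by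
        simp only [Prod.fst_add, Prod.fst_sub, sec_fst]; abel
      rw [this]
      have c1 := norm_sub_le (secB P y.1.1 + (a'.1 - a.1) + secB P y0.1.1 + (Θ (κ y0)).1)
        (secB P y1.1.1)
      have c2 := norm_add_le (secB P y.1.1 + (a'.1 - a.1) + secB P y0.1.1) (Θ (κ y0)).1
      have c3 := norm_add_le (secB P y.1.1 + (a'.1 - a.1)) (secB P y0.1.1)
      have c4 := norm_add_le (secB P y.1.1) (a'.1 - a.1)
      linarith
    · have c4 := norm_add_le (secB P y.1.1) (Θ (κ y)).1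
      rw [Prod.fst_add, sec_fst]
      linarith
  · intro b hb b' hb' y y' q
    have q2 := H b hb b' hb' y y' (by
      have := congrArg φ q
      simp only [map_add, h1] at this ⊢
      rw [add_assoc, add_assoc, this])
    simp only [q2, ← add_assoc] at q
    exact basic hb hb' (add_right_cancel q)
  · simp only [Θ', if_true, if_neg (Ne.symm hc)]; abel

/-- an element of the kernel with trivial clock part -/
def yv (v : ∀ j, Zr P j) : Y P := ⟨(0, 0, v), mem_Y (by simp) (by simp)⟩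

@[simp] lemma yv_1 (v : ∀ j, Zr P j) : (yv v).1.1 = 0 := rfl
@[simp] lemma yv_2 (v : ∀ j, Zr P j) : (yv v).1.2.2 = v := rfl
@[simp] lemma yv_3 (v : ∀ j, Zr P j) : (yv v).1.2.1 = 0 := rfl

/-- a group element given by base shift, location shift and values -/
def mk (h : ℤ × ℤ) (u : U P) (v : ∀ j, Zr P j) : G P := (h, fun c => lift (u c), v)

@[simp] lemma mk_fst (h : ℤ × ℤ) (u : U P) (v : ∀ j, Zr P j) : (mk h u v).1 = h := rfl
@[simp] lemma uu_mk (h : ℤ × ℤ) (u : U P) (v : ∀ j, Zr P j) : uu P (mk h u v) = u := by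
  funext c; simp [uu_apply, mk]
@[simp] lemma vv_mk (h : ℤ × ℤ) (u : U P) (v : ∀ j, Zr P j) (j : Gx P.q) :
    vv P j (mk h u v) = v j := rfl
@[simp] lemma ww_mk (h : ℤ × ℤ) (u : U P) (v : ∀ j, Zr P j) (j : Gx P.q) :
    ww P j (mk h u v) = v j - (h.1 : ℤ) := rfl

lemma pt (hA : Solv P c0 A) {a : G P} (ha : a ∈ A) (h : ℤ × ℤ) (h0 : redB P h = 0)
    (hh : ‖h‖ ≤ 5 * c0) (u : U P) : ∃ a' ∈ A, a'.1 = a.1 + h ∧ uu P a' = u := by
  obtain ⟨a', ha', y, e, hu⟩ := hA.cov (a.1 + h) u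
  have b0 := hA.bd.pos
  have := forb hA ((redB P).comp (AddMonoidHom.fst _ _)) (fun y => y.1.1) (fun _ => 0)
    (fun _ => by simpa using b0) ?_ ha' ha ?_ y 0 ?_
  · refine ⟨a', ha', ?_, hu⟩
    simp only [ZeroMemClass.coe_zero, Prod.fst_zero] at this
    rwa [this, secB_zero, add_zero] at e
  · intro b hb b' hb' y y' q
    exact base_rig hb.1 hb'.1 (by simpa using q)
  · have : a.1 - a'.1 = secB P y.1.1 - h := by linear_combination (exp := 1) -e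
    rw [this]
    have := norm_sub_le (secB P y.1.1) h
    have := hA.bd.s y.1.1
    linarith
  · have := congrArg (redB P) e
    simpa [h0] using this

end Vale.Agent.P043.T3
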