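import Vale.Agent.P043.Basic

namespace Vale.Agent.P043

/-- two rigid pieces forming a complete residue system mod 9 -/
def pc (i : Bool) : Finset ℤ := if i then {0, 1, 4, 6} else {3, 5, 7, 8, 11}

lemma pc_res {i i' : Bool} {e e' z z' : ℤ} (h : e ∈ pc i) (h' : e' ∈ pc i')
    (q : 9 * z + e = 9 * z' + e') : i = i' ∧ e = e' ∧ z = z' := by
  cases i <;> cases i' <;> simp [pc] at h h' ⊢ <;> omega

lemma pc_cov (z : ℤ) : ∃ i e w, e ∈ pc i ∧ z = 9 * w + e := by
  have h : z % 9 = 0 ∨ z % 9 = 1 ∨ z % 9 = 2 ∨ z % 9 = 3 ∨ z % 9 = 4 ∨ z % 9 = 5 ∨ z % 9 = 6 ∨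
    z % 9 = 7 ∨ z % 9 = 8 := by omega
  rcases h with h | h | h | h | h | h | h | h | h
  · exact ⟨true, 0, z / 9, by simp [pc], by omega⟩
  · exact ⟨true, 1, z / 9, by simp [pc], by omega⟩
  · exact ⟨false, 11, z / 9 - 1, by simp [pc], by omega⟩
  · exact ⟨false, 3, z / 9, by simp [pc], by omega⟩
  · exact ⟨true, 4, z / 9, by simp [pc], by omega⟩
  · exact ⟨false, 5, z / 9, by simp [pc], by omega⟩
  · exact ⟨true, 6, z / 9, by simp [pc], by omega⟩
  · exact ⟨false, 7, z / 9, by simp [pc], by omega⟩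
  · exact ⟨false, 8, z / 9, by simp [pc], by omega⟩

lemma rigid (Q : Bool → ℤ → Prop) (cov : ∀ z, ∃ i t, Q i t ∧ z - t ∈ pc i)
    (dis : ∀ i t i' t' z, Q i t → Q i' t' → z - t ∈ pc i → z - t' ∈ pc i' → i = i' ∧ t = t') :
    ∃ c, 0 ≤ c ∧ c < 9 ∧ (∀ i w, Q i (9 * w + c)) ∧ ∀ i t, Q i t → t % 9 = c := by
  have force : ∀ i j t s p, p - s ∈ pc j → p ∉ pc i →
      (∀ j' ∈ ({true, false} : Finset Bool), ∀ e ∈ pc j', (j' = j ∧ p - e = s) ∨
        ∃ x ∈ pc j', p - e + x ∈ pc i) → Q i t → Q j (t + s) := by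
    intro i j t s p _ hp h hq
    obtain ⟨j', t', hq', he⟩ := cov (t + p)
    rcases h j' (by cases j' <;> simp) _ he with ⟨h1, h2⟩ | ⟨x, hx, hx'⟩
    · have : t' = t + s := by omega
      rw [← this, ← h1]; exact hq'
    · obtain ⟨h1, h2⟩ := dis i t j' t' (t' + x) hq hq' (by convert hx' using 1; ring)
        (by simpa using hx)
      subst h1 h2
      exact absurd (by simpa using he) hp
  have f1 : ∀ t, Q true t → Q false (t + 0) := fun t => force _ _ t 0 3 (by decide) (by decide) (by decide)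
  have f2 : ∀ t, Q false t → Q true (t + 0) := fun t => force _ _ t 0 6 (by decide) (by decide) (by decide)
  have f3 : ∀ t, Q false t → Q true (t + 9) := fun t => force _ _ t 9 9 (by decide) (by decide) (by decide)
  have f4 : ∀ t, Q true t → Q false (t + -9) := fun t => force _ _ t (-9) 2 (by decide) (by decide) (by decide)
  simp only [add_zero] at f1 f2
  obtain ⟨t0, ht0⟩ : ∃ t0, Q true t0 := by
    obtain ⟨i, t, hq, -⟩ := cov 0
    cases i
    · exact ⟨t, f2 t hq⟩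
    · exact ⟨t, hq⟩
  have all : ∀ w : ℤ, Q true (t0 + 9 * w) := by
    intro w
    induction w using Int.induction_on with
    | zero => simpa using ht0
    | succ n ih => have := f3 _ (f1 _ ih); convert this using 1; ring
    | pred n ih => have := f2 _ (f4 _ ih); convert this using 1; ring
  have all' : ∀ i w, Q i (9 * w + t0 % 9) := by
    intro i w
    have := all (w - t0 / 9)
    have e : t0 + 9 * (w - t0 / 9) = 9 * w + t0 % 9 := by omega
    rw [e] at this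
    cases i
    · exact f1 _ this
    · exact this
  refine ⟨t0 % 9, by omega, by omega, all', fun i t hq => ?_⟩
  obtain ⟨e, he⟩ : ∃ e, e ∈ pc i := by cases i; exact ⟨3, by decide⟩; exact ⟨0, by decide⟩
  obtain ⟨i', e', w, he', hz⟩ := pc_cov (t + e - t0 % 9)
  have := (dis i t i' _ (t + e) hq (all' i' w) (by simpa using he)
    (by convert he' using 1; omega)).2
  omega

variable {K : Type} [AddCommGroup K]

open Classical in
noncomputable def merge (F : Bool → Finset (K × ℤ)) : Finset (K × ℤ) :=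
  (Finset.univ : Finset Bool).biUnion fun i =>
    (F i ×ˢ pc i).image fun q => (q.1.1, 9 * q.1.2 + q.2)

lemma mem_merge {F : Bool → Finset (K × ℤ)} {g : K × ℤ} :
    g ∈ merge F ↔ ∃ i, ∃ f ∈ F i, ∃ e ∈ pc i, g = (f.1, 9 * f.2 + e) := by
  simp only [merge, Finset.mem_biUnion, Finset.mem_univ, true_and, Finset.mem_image,
    Finset.mem_product]
  constructor
  · rintro ⟨i, ⟨f, e⟩, ⟨h1, h2⟩, rfl⟩; exact ⟨i, f, h1, e, h2, rfl⟩
  · rintro ⟨i, f, h1, e, h2, rfl⟩; exact ⟨i, (f, e), ⟨h1, h2⟩, rfl⟩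

def up (A : Set (K × ℤ)) : Set (K × ℤ) := {b | ∃ a ∈ A, b = (a.1, 9 * a.2)}
def dn (B : Set (K × ℤ)) : Set (K × ℤ) := {a | ∃ b ∈ B, a = (b.1, b.2 / 9)}

lemma merge_up {A : Set (K × ℤ)} {F : Bool → Finset (K × ℤ)} (h : ∀ i, IsTiling A (F i)) :
    IsTiling (up A) (merge F) := by
  apply isTiling_of
  · rintro ⟨x, z⟩
    obtain ⟨i, e, w, he, rfl⟩ := pc_cov z
    obtain ⟨a, ha, f, hf, q⟩ := (h i).ex (x, w)
    refine ⟨_, ⟨a, ha, rfl⟩, _, mem_merge.2 ⟨i, f, hf, e, he, rfl⟩, ?_⟩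
    have q1 := congrArg Prod.fst q
    have q2 := congrArg Prod.snd q
    simp only [Prod.fst_add, Prod.snd_add] at q1 q2
    ext
    · simpa using q1
    · simp only [Prod.snd_add]; omega
  · rintro _ ⟨a, ha, rfl⟩ _ ⟨a', ha', rfl⟩ g hg g' hg' q
    obtain ⟨i, f, hf, e, he, rfl⟩ := mem_merge.1 hg
    obtain ⟨i', f', hf', e', he', rfl⟩ := mem_merge.1 hg'
    have q1 := congrArg Prod.fst q
    have q2 := congrArg Prod.snd q
    simp only [Prod.fst_add, Prod.snd_add] at q1 q2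
    obtain ⟨rfl, rfl, h3⟩ := pc_res (z := a.2 + f.2) (z' := a'.2 + f'.2) he he' (by omega)
    have := ((h i).uniq ha ha' hf hf' (Prod.ext q1 h3)).2
    rw [this]

lemma merge_dn {B : Set (K × ℤ)} {F : Bool → Finset (K × ℤ)} (h : IsTiling B (merge F)) (i : Bool) :
    IsTiling (dn B) (F i) := by
  let Q : K → Bool → ℤ → Prop := fun x i t => ∃ b ∈ B, ∃ f ∈ F i, b.1 + f.1 = x ∧ b.2 + 9 * f.2 = t
  have key : ∀ {i i' b b' f f' e e'}, b ∈ B → b' ∈ B → f ∈ F i → f' ∈ F i' → e ∈ pc i → e' ∈ pc i' →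
      b.1 + f.1 = b'.1 + f'.1 → b.2 + 9 * f.2 + e = b'.2 + 9 * f'.2 + e' →
      i = i' ∧ b = b' ∧ f = f' ∧ e = e' := by
    intro i i' b b' f f' e e' hb hb' hf hf' he he' q1 q2
    obtain ⟨h1, h2⟩ := h.uniq hb hb' (mem_merge.2 ⟨i, f, hf, e, he, rfl⟩)
      (mem_merge.2 ⟨i', f', hf', e', he', rfl⟩) (Prod.ext q1 (by simp only [Prod.snd_add]; omega))
    obtain ⟨h3, h4, h5⟩ := pc_res he he' (congrArg Prod.snd h2)
    exact ⟨h3, h1, Prod.ext (Prod.mk.inj h2).1 h5, h4⟩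
  have rg : ∀ x, ∃ c, 0 ≤ c ∧ c < 9 ∧ (∀ i w, Q x i (9 * w + c)) ∧ ∀ i t, Q x i t → t % 9 = c := by
    intro x
    apply rigid
    · intro z
      obtain ⟨b, hb, g, hg, q⟩ := h.ex (x, z)
      obtain ⟨i, f, hf, e, he, rfl⟩ := mem_merge.1 hg
      have q1 := congrArg Prod.fst q
      have q2 := congrArg Prod.snd q
      simp only [Prod.fst_add, Prod.snd_add] at q1 q2
      exact ⟨i, _, ⟨b, hb, f, hf, q1, rfl⟩, by convert he using 1; omega⟩
    · rintro i t i' t' z ⟨b, hb, f, hf, q1, rfl⟩ ⟨b', hb', f', hf', q1', rfl⟩ he he'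
      obtain ⟨h1, rfl, rfl, -⟩ := key hb hb' hf hf' he he' (q1.trans q1'.symm) (by ring)
      exact ⟨h1, rfl⟩
  apply isTiling_of
  · rintro ⟨x, z⟩
    obtain ⟨c, c0, c9, h1, -⟩ := rg x
    obtain ⟨b, hb, f, hf, q1, q2⟩ := h1 i z
    refine ⟨_, ⟨b, hb, rfl⟩, f, hf, Prod.ext q1 ?_⟩
    simp only [Prod.snd_add]; omega
  · rintro _ ⟨b, hb, rfl⟩ _ ⟨b', hb', rfl⟩ f hf f' hf' q
    have q1 := congrArg Prod.fst q
    have q2 := congrArg Prod.snd q
    simp only [Prod.fst_add, Prod.snd_add] at q1 q2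
    obtain ⟨c, c0, c9, -, h2⟩ := rg (b.1 + f.1)
    have r1 := h2 i _ ⟨b, hb, f, hf, rfl, rfl⟩
    have r2 := h2 i _ ⟨b', hb', f', hf', q1.symm, rfl⟩
    obtain ⟨e, he⟩ : ∃ e, e ∈ pc i := by cases i; exact ⟨3, by decide⟩; exact ⟨0, by decide⟩
    exact (key hb hb' hf hf' he he q1 (by omega)).2.2.1

lemma per_dn {B : Set (K × ℤ)} (h : Per B) : Per (dn B) := by
  obtain ⟨H, hH, h⟩ := h
  refine ⟨H.comap ((AddMonoidHom.id K).prodMap (AddMonoidHom.mulLeft 9)), fi_comap _ _, ?_⟩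
  rintro x hx _ ⟨b, hb, rfl⟩
  refine ⟨_, h _ hx b hb, Prod.ext (by simp) ?_⟩
  simp only [Prod.snd_add, AddMonoidHom.coe_prodMap, Prod.map_snd, AddMonoidHom.coe_mulLeft]
  omega

lemma sys_single (n : ℕ) : ∀ L : List (Finset (K × ℤ)), L.length = n + 1 → Sys (K × ℤ) L →
    ∃ F, Sys (K × ℤ) [F] := by
  induction n with
  | zero =>
    intro L hL h
    obtain ⟨F, rfl⟩ := List.length_eq_one_iff.1 hL
    exact ⟨F, h⟩
  | succ n ih =>
    intro L hL h
    match L, hL, h with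
    | F0 :: F1 :: L, hL, ⟨⟨A0, hA0⟩, hap⟩ =>
      refine ih (merge (fun i => if i then F0 else F1) :: L.map fun F => merge fun _ => F)
        (by simpa using hL) ⟨⟨up A0, ?_⟩, ?_⟩
      · intro F hF
        rcases List.mem_cons.1 hF with rfl | hF
        · refine merge_up fun i => ?_
          cases i
          · exact hA0 _ (by simp)
          · exact hA0 _ (by simp)
        · obtain ⟨F', h', rfl⟩ := List.mem_map.1 hF
          exact merge_up fun _ => hA0 _ (by simp [h'])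
      · intro B hB hper
        refine hap (dn B) (fun F hF => ?_) (per_dn hper)
        have h0 := hB _ List.mem_cons_self
        rcases List.mem_cons.1 hF with rfl | hF
        · exact merge_dn h0 true
        rcases List.mem_cons.1 hF with rfl | hF
        · exact merge_dn h0 false
        · exact merge_dn (hB _ (List.mem_cons_of_mem _ (List.mem_map_of_mem hF))) true

lemma sys_one (L : List (Finset (K × ℤ))) (h : Sys (K × ℤ) L) : ∃ F, Sys (K × ℤ) [F] := by
  cases L with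
  | nil =>
    exact absurd ⟨⊤, inferInstance, fun _ _ _ _ => trivial⟩ (h.2 Set.univ (by simp))
  | cons F L => exact sys_single L.length _ rfl h

end Vale.Agent.P043
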