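import Vale.Agent.P043.Forb

namespace Vale.Agent.P043.T3

variable {P : Par} {c0 : ℝ} {A : Set (G P)}

def zt (c : Cx) : G P →+ ZMod (P.q c ^ 2) :=
  AddMonoidHom.mk' (fun g => (ck P c g).1.1 - (ck P c g).2) (by
    intro a b; simp only [map_add, Prod.fst_add, Prod.snd_add]; ring)

lemma zt_apply (c : Cx) (g : G P) : zt c g = (ck P c g).1.1 - (ck P c g).2 := rfl

lemma zeta_near (hA : Solv P c0 A) (c : Cx) {a a' : G P} (ha : a ∈ A) (ha' : a' ∈ A)
    (hd : ‖a'.1 - a.1‖ ≤ 10 * c0) (e : tau _ (zt c a) = tau _ (zt c a')) : zt c a = zt c a' := by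
  classical
  have b0 := hA.bd.pos
  have := forb hA (zt c) (fun y => zt c (sec P y)) (fun _ => 0)
    (fun _ => by simpa using b0) ?_ ha ha' hd
    ⟨(0, Pi.single c (zt c a - zt c a'), 0), mem_Y (by simp) (fun c' => by
      by_cases q : c' = c
      · subst q; simp [e]
      · simp [q])⟩ 0 ?_
  · simp only [zt_apply c (sec P _), ck_sec, Pi.single_eq_same] at this
    simp at this
    linear_combination -this
  · intro b hb b' hb' y y' q
    simp only [add_zero, map_add] at q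
    have h1 : ∀ b ∈ A0 P, zt c b = lift (tau _ (zt c b)) := by
      intro b hb
      simp [zt_apply, ck_A0 hb, ac, bc]
    have h2 : ∀ y : Y P, tau _ (zt c (sec P y)) = 0 := by
      intro y; simp [zt_apply, Y1, Y2]
    have h3 := congrArg (tau _) q
    simp only [map_add, h2, add_zero] at h3
    rw [h1 b hb, h1 b' hb', h3] at q
    exact add_left_cancel q
  · simp only [add_zero, map_add, zt_apply c (sec P _), ck_sec, Pi.single_eq_same]
    simp

lemma ck_near (hA : Solv P c0 A) {a a' : G P} (ha : a ∈ A) (ha' : a' ∈ A) {h : ℤ × ℤ}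
    (e : a'.1 = a.1 + h) (h0 : redB P h = 0) (hh : ‖h‖ ≤ 10 * c0) (c : Cx)
    (hu : uu P a' c = uu P a c) : ck P c a' = ck P c a := by
  have e1 : (ck P c a').1 = (ck P c a).1 := by simp [ck_apply, e, h0]
  have e2 := zeta_near hA c ha ha' (by rw [e]; simpa using hh) (by
    simp only [zt_apply, map_sub, e1]
    exact congrArg _ hu.symm)
  rw [zt_apply, zt_apply, e1] at e2
  exact Prod.ext e1 (by linear_combination e2)

def agr (j : Px P.q) (u u' : U P) : Prop := ∀ c ∈ dep P j, u c = u' c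

lemma agr_refl (j : Px P.q) (u : U P) : agr j u u := fun _ _ => rfl
lemma agr.symm {j : Px P.q} {u u' : U P} (h : agr j u u') : agr j u' u :=
  fun c hc => (h c hc).symm
lemma agr.trans {j : Px P.q} {u u' u'' : U P} (h : agr j u u') (h' : agr j u' u'') :
    agr j u u'' := fun c hc => (h c hc).trans (h' c hc)

lemma sP_agr {j : Px P.q} {u u' : U P} (h : agr j u u') : sP P j u ↔ sP P j u' := by
  rcases j with ⟨c, i⟩ | ⟨k, l⟩ | ⟨c, l⟩
  · simp only [sP]; rw [h c rfl]
  · simp only [sP]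
    refine forall_congr' fun e => ?_
    rw [h (some (k, e)) (by cases e <;> simp [dep])]
  · simp only [sP]
    rw [h none (by simp [dep]), h (some (Sum.inr c, false)) (by simp [dep])]

lemma agr_of_shift {j : Px P.q} {u u' d d' : U P} (e : u + d = u' + d') (h : agr j d 0)
    (h' : agr j d' 0) : agr j u u' := by
  intro c hc
  have := congrFun e c
  simpa [h c hc, h' c hc] using this

lemma axes_near (hA : Solv P c0 A) (j : Px P.q) {a a' : G P} (ha : a ∈ A) (ha' : a' ∈ A)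
    (hd : ‖a'.1 - a.1‖ ≤ 10 * c0) (hu : agr j (uu P a) (uu P a')) :
    vv P (.inl j) a = vv P (.inl j) a' ∨ ww P (.inl j) a = ww P (.inl j) a' := by
  classical
  by_contra hc
  push Not at hc
  obtain ⟨d1, h1⟩ : ∃ d, d = vv P (.inl j) a' - vv P (.inl j) a := ⟨_, rfl⟩
  obtain ⟨d2, h2⟩ : ∃ d, d = ww P (.inl j) a' - ww P (.inl j) a := ⟨_, rfl⟩
  have n1 : d1 ≠ 0 := by rw [h1, sub_ne_zero]; exact hc.1.symm
  have n2 : d2 ≠ 0 := by rw [h2, sub_ne_zero]; exact hc.2.symm
  have b0 := hA.bd.pos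
  have := forb hA ((uu P).prod ((vv P (.inl j)).prod (ww P (.inl j)))) (fun y => y.1.2.2 (.inl j))
    (fun s => mk (D P (Pi.single (.inl j) (s * (d1 - d2))) • dv (.inr 0))
      (if s = 1 then uu P a' - uu P a else 0) (Pi.single (.inl j) (s * d1 - s)))
    (fun s => by have := hA.bd.d (Pi.single (.inl j) (s * (d1 - d2))) (.inr 0); rw [mk_fst]; linarith)
    ?_ ha ha' hd (yv (Pi.single (.inl j) 1)) 0 ?_
  · simp at this
  · intro b hb b' hb' y y' q
    simp only [AddMonoidHom.prod_apply, map_add, uu_sec, vv_sec, ww_sec, uu_mk, vv_mk, ww_mk,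
      Prod.mk_add_mk, Prod.mk.injEq, add_zero, Pi.single_eq_same, Prod.smul_fst, dv_fst, smul_eq_mul, mul_one,
      D_r] at q
    obtain ⟨q1, q2, q3⟩ := q
    have hz : ∀ s : Zr P (.inl j), agr j (if s = 1 then uu P a' - uu P a else 0) 0 := by
      intro s c hc; split_ifs
      · simp [hu c hc]
      · rfl
    have hs := sP_agr (agr_of_shift q1 (hz _) (hz _))
    by_cases s1 : sP P j (uu P b)
    · rw [vv_true hb (j := .inl j) s1, vv_true hb' (j := .inl j) (hs.1 s1)] at q3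
      exact mul_right_cancel₀ n2 (by linear_combination q3)
    · rw [vv_false hb (j := .inl j) s1, vv_false hb' (j := .inl j) (fun h => s1 (hs.2 h))] at q2
      exact mul_right_cancel₀ n1 (by linear_combination q2)
  · simp only [AddMonoidHom.prod_apply, map_add, uu_sec, vv_sec, ww_sec, uu_mk, vv_mk, ww_mk,
      Prod.mk_add_mk, Prod.mk.injEq, add_zero, Pi.single_eq_same, Prod.smul_fst, dv_fst, smul_eq_mul, mul_one,
      D_r, yv_2, ZeroMemClass.coe_zero, Prod.snd_zero, Pi.zero_apply, if_true, zero_ne_one, if_false]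
    refine ⟨by abel, by linear_combination h1, by linear_combination h2⟩

/-- equality of all periodic coordinates -/
def PE (a a' : G P) : Prop := (∀ c, ck P c a = ck P c a') ∧
  ∀ j : Px P.q, vv P (.inl j) a = vv P (.inl j) a' ∧ ww P (.inl j) a = ww P (.inl j) a'

lemma PE.uu {a a' : G P} (h : PE a a') : uu P a = uu P a' :=
  funext fun c => congrArg (fun x : Ck (P.q c) => tau _ x.2) (h.1 c)

lemma step (hA : Solv P c0 A) {a : G P} (ha : a ∈ A) (x : ℤ × ℤ) (hx : ‖NN P • x‖ ≤ c0) :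
    ∃ a' ∈ A, a'.1 = a.1 + NN P • x ∧ PE a' a := by
  have b0 := hA.bd.pos
  obtain ⟨a', ha', e, hu⟩ := pt hA ha (NN P • x) (redB_NN _) (by linarith) (uu P a)
  refine ⟨a', ha', e, fun c => ck_near hA ha ha' e (redB_NN _) (by linarith) c (by rw [hu]), fun j => ?_⟩
  have h1 : ww P (.inl j) a' - ww P (.inl j) a = vv P (.inl j) a' - vv P (.inl j) a := by
    simp [ww_apply, vv_apply, e]
  rcases axes_near hA j ha ha' (by rw [e]; simp only [add_sub_cancel_left]; linarith)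
    (by rw [hu]; exact agr_refl _ _) with h | h
  · exact ⟨h.symm, by linear_combination h1 - h⟩
  · exact ⟨by linear_combination -h1 - h, h.symm⟩

lemma chain (hA : Solv P c0 A) (R : G P → Prop) (x : ℤ × ℤ) (hx : ‖NN P • x‖ ≤ c0)
    (hR : ∀ a ∈ A, R a → ∀ y, ‖NN P • y‖ ≤ c0 → (y = x ∨ y = -x) →
      ∃ a' ∈ A, a'.1 = a.1 + NN P • y ∧ R a')
    {a : G P} (ha : a ∈ A) (h : R a) (n : ℤ) : ∃ a' ∈ A, a'.1 = a.1 + NN P • (n • x) ∧ R a' := by
  induction n using Int.induction_on with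
  | zero => exact ⟨a, ha, by simp, h⟩
  | succ n ih =>
    obtain ⟨b, hb, e, r⟩ := ih
    obtain ⟨b', hb', e', r'⟩ := hR b hb r x hx (Or.inl rfl)
    exact ⟨b', hb', by rw [e', e, add_smul, one_smul, smul_add, add_assoc], r'⟩
  | pred n ih =>
    obtain ⟨b, hb, e, r⟩ := ih
    obtain ⟨b', hb', e', r'⟩ := hR b hb r (-x) (by rwa [smul_neg, norm_neg]) (Or.inr rfl)
    exact ⟨b', hb', by rw [e', e, sub_smul, one_smul, smul_sub, smul_neg]; abel, r'⟩

lemma PE.trans {a b c : G P} (h : PE a b) (h' : PE b c) : PE a c :=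
  ⟨fun x => (h.1 x).trans (h'.1 x), fun j => ⟨(h.2 j).1.trans (h'.2 j).1, (h.2 j).2.trans (h'.2 j).2⟩⟩

lemma near (hA : Solv P c0 A) {a a' : G P} (ha' : a' ∈ A) :
    ∃ b ∈ A, PE b a' ∧ ‖b.1 - a.1‖ ≤ c0 := by
  have hR : ∀ x, ∀ b ∈ A, PE b a' → ∀ y, ‖NN P • y‖ ≤ c0 → (y = x ∨ y = -x) →
      ∃ b' ∈ A, b'.1 = b.1 + NN P • y ∧ PE b' a' := by
    intro x b hb r y hy _
    obtain ⟨b', hb', e, r'⟩ := step hA hb y hy
    exact ⟨b', hb', e, r'.trans r⟩
  obtain ⟨b, hb, e, r⟩ := chain hA (fun b => PE b a') _ (hA.bd.n (.inr 0)) (hR _) ha'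
    ⟨fun _ => rfl, fun _ => ⟨rfl, rfl⟩⟩ (-((a'.1.1 - a.1.1) / NN P))
  obtain ⟨b', hb', e', r'⟩ := chain hA (fun b => PE b a') _ hA.bd.n2 (hR _) hb r
    (-((a'.1.2 - a.1.2) / NN P))
  refine ⟨b', hb', r', le_trans ?_ hA.bd.n2⟩
  have n0 : NN P ≠ 0 := by obtain ⟨t, ht⟩ := NN_13 (P := P); omega
  have : b'.1 - a.1 = ((a'.1.1 - a.1.1) % NN P, (a'.1.2 - a.1.2) % NN P) := by
    rw [e', e]
    ext <;> simp [dv, Int.emod_def] <;> ring
  rw [this]
  have h1 := fun x => Int.emod_nonneg x n0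
  have h2 := fun x => Int.emod_lt_abs x n0
  have h3 : ∀ x : ℤ, ‖x % NN P‖ ≤ ‖NN P‖ := by
    intro x
    rw [Int.norm_eq_abs, Int.norm_eq_abs, ← Int.cast_abs, ← Int.cast_abs, Int.cast_le,
      abs_of_nonneg (h1 x)]
    exact (h2 x).le
  simp only [Prod.norm_def, Prod.smul_mk, smul_eq_mul, mul_zero, mul_one, norm_zero]
  exact max_le ((h3 _).trans (le_max_right _ _)) ((h3 _).trans (le_max_right _ _))

lemma zeta (hA : Solv P c0 A) (c : Cx) {a a' : G P} (ha : a ∈ A) (ha' : a' ∈ A)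
    (e : tau _ (zt c a) = tau _ (zt c a')) : zt c a = zt c a' := by
  obtain ⟨b, hb, r, hd⟩ := near hA (a := a) ha'
  have b0 := hA.bd.pos
  have : zt c b = zt c a' := by rw [zt_apply, zt_apply, r.1]
  rw [← this] at e ⊢
  exact zeta_near hA c ha hb (by linarith) e

lemma axes (hA : Solv P c0 A) (j : Px P.q) {a a' : G P} (ha : a ∈ A) (ha' : a' ∈ A)
    (hu : agr j (uu P a) (uu P a')) :
    vv P (.inl j) a = vv P (.inl j) a' ∨ ww P (.inl j) a = ww P (.inl j) a' := by
  obtain ⟨b, hb, r, hd⟩ := near hA (a := a) ha'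
  have b0 := hA.bd.pos
  rw [← (r.2 j).1, ← (r.2 j).2]
  exact axes_near hA j ha hb (by linarith) (by rwa [r.uu])

def st (A : Set (G P)) (j : Px P.q) (u : U P) : Prop :=
  ∀ a ∈ A, ∀ a' ∈ A, agr j (uu P a) u → agr j (uu P a') u → ww P (.inl j) a = ww P (.inl j) a'

lemma st_agr {j : Px P.q} {u u' : U P} (h : agr j u u') (s : st A j u) : st A j u' :=
  fun a ha a' ha' e e' => s a ha a' ha' (e.trans h.symm) (e'.trans h.symm)

lemma st_neg (hA : Solv P c0 A) {j : Px P.q} {u : U P} (h : ¬ st A j u) {a a' : G P} (ha : a ∈ A)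
    (ha' : a' ∈ A) (e : agr j (uu P a) u) (e' : agr j (uu P a') u) :
    vv P (.inl j) a = vv P (.inl j) a' := by
  unfold st at h
  push Not at h
  obtain ⟨p, hp, q, hq, e1, e2, hne⟩ := h
  have ax : ∀ {a a' : G P}, a ∈ A → a' ∈ A → agr j (uu P a) u → agr j (uu P a') u → _ :=
    fun ha ha' e e' => axes hA j ha ha' (e.trans e'.symm)
  have hpq := (ax hp hq e1 e2).resolve_right hne
  have key : ∀ {a : G P}, a ∈ A → agr j (uu P a) u → vv P (.inl j) a = vv P (.inl j) p := by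
    intro a ha e
    rcases ax ha hp e e1 with h1 | h1
    · exact h1
    rcases ax ha hq e e2 with h2 | h2
    · rw [h2, hpq]
    · exact absurd (h1.symm.trans h2) hne
  rw [key ha e, key ha' e']

end Vale.Agent.P043.T3
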