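import Vale.Agent.P043.PT1

namespace Vale.Agent.P043.T3

variable {P : Par} {c0 : ℝ} {A : Set (G P)}

def phP : G P →+ U P × ∀ j : Px P.q, Zr P (.inl j) × Zr P (.inl j) :=
  AddMonoidHom.mk' (fun g => (uu P g, fun j => (vv P (.inl j) g, ww P (.inl j) g))) (by
    intro a b; ext <;> simp)

lemma phP_eq {g g' : G P} : phP g = phP g' ↔ uu P g = uu P g' ∧
    ∀ j : Px P.q, vv P (.inl j) g = vv P (.inl j) g' ∧ ww P (.inl j) g = ww P (.inl j) g' := by
  simp only [phP, AddMonoidHom.mk'_apply, Prod.mk.injEq, funext_iff]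

def exL (f : ∀ j : Px P.q, Zr P (.inl j)) : ∀ j, Zr P j
  | .inl j => f j
  | .inr _ => 0

@[simp] lemma exL_inl (f : ∀ j : Px P.q, Zr P (.inl j)) (j : Px P.q) : exL f (.inl j) = f j := rfl

open Classical in
lemma clauseP (hA : Solv P c0 A) (b : Px P.q → Prop) {a a' : G P} (ha : a ∈ A) (ha' : a' ∈ A)
    (hd : ‖a'.1 - a.1‖ ≤ 10 * c0) (hu : uu P a = uu P a')
    (h1 : ∀ j, vv P (.inl j) a' = vv P (.inl j) a + if b j then 1 else 0)
    (h2 : ∀ j, ww P (.inl j) a' = ww P (.inl j) a + if b j then 0 else -1) :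
    ∃ u, ∀ j, b j ↔ sP P j u := by
  by_contra hc
  push Not at hc
  have b0 := hA.bd.pos
  haveI : Nonempty (Px P.q) := ⟨.inr (.inr (0, true))⟩
  obtain ⟨nx, hnx⟩ := exists_nx (Px P.q)
  let om : (∀ j : Px P.q, Zr P (.inl j)) → ∀ j : Px P.q, Zr P (.inl j) := fun s k =>
    if s (nx k) = 1 then Equiv.swap 0 1 (s k) else s k
  have := forb hA phP (fun y (j : Px P.q) => y.1.2.2 (.inl j))
    (fun s => mk (D P (exL fun j => if b j then s j - om s j else om s j + s j) • dv (.inr 0)) 0
      (exL fun j => if b j then 0 else om s j - s j))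
    (fun s => by
      have := hA.bd.d (exL fun j => if b j then s j - om s j else om s j + s j) (.inr 0)
      rw [mk_fst]; linarith)
    ?_ ha ha' hd (yv 1) 0 ?_
  · have h2 := congrFun this (.inr (.inr (0, true)))
    simp at h2
  · intro a ha a' ha' y y' q
    obtain ⟨s, hs⟩ : ∃ s : ∀ j : Px P.q, Zr P (.inl j), s = fun j => y.1.2.2 (.inl j) := ⟨_, rfl⟩
    obtain ⟨s', hs'⟩ : ∃ s : ∀ j : Px P.q, Zr P (.inl j), s = fun j => y'.1.2.2 (.inl j) := ⟨_, rfl⟩
    rw [← hs, ← hs'] at q ⊢
    have y1 : ∀ j, y.1.2.2 (.inl j) = s j := fun j => by rw [hs]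
    have y2 : ∀ j, y'.1.2.2 (.inl j) = s' j := fun j => by rw [hs']
    rw [phP_eq] at q
    simp only [map_add, uu_sec, vv_sec, ww_sec, uu_mk, vv_mk, ww_mk, add_zero,
      Prod.smul_fst, dv_fst, smul_eq_mul, mul_one, D_r, exL_inl, y1, y2] at q
    obtain ⟨q1, q2⟩ := q
    have vis : ∀ k, (¬ (b k ↔ sP P k (uu P a)) → s k = s' k) ∧ (s k = s' k ∨ om s k = om s' k) := by
      intro k
      obtain ⟨f1, f2⟩ := q2 k
      by_cases s1 : sP P k (uu P a)
      · rw [vv_true ha (j := .inl k) s1, vv_true ha' (j := .inl k) (q1 ▸ s1)] at f2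
        by_cases hb : b k
        · simp only [if_pos hb] at f2
          exact ⟨fun h => absurd (iff_of_true hb s1) h, Or.inr (by linear_combination f2)⟩
        · simp only [if_neg hb] at f2
          have : s k = s' k := by linear_combination -f2
          exact ⟨fun _ => this, Or.inl this⟩
      · rw [vv_false ha (j := .inl k) s1, vv_false ha' (j := .inl k) (q1 ▸ s1)] at f1
        by_cases hb : b k
        · simp only [if_pos hb] at f1
          have : s k = s' k := by linear_combination f1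
          exact ⟨fun _ => this, Or.inl this⟩
        · simp only [if_neg hb] at f1
          exact ⟨fun h => absurd (iff_of_false hb s1) h, Or.inr (by linear_combination f1)⟩
    obtain ⟨k0, hk0⟩ := hc (uu P a)
    have stp : ∀ k, s (nx k) = s' (nx k) → s k = s' k := by
      intro k h
      rcases (vis k).2 with q | q
      · exact q
      · simp only [om, h] at q
        split_ifs at q
        · exact (Equiv.swap 0 1).injective q
        · exact q
    have all : ∀ m k, nx^[m] k = k0 → s k = s' k := by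
      intro m
      induction m with
      | zero => intro k h; rw [show k = k0 from h]; exact (vis k0).1 (by tauto)
      | succ m ih => intro k h; exact stp k (ih (nx k) h)
    funext k
    obtain ⟨m, hm⟩ := hnx k k0
    exact all m k hm
  · rw [phP_eq]
    simp only [map_add, uu_sec, vv_sec, ww_sec, uu_mk, vv_mk, ww_mk, add_zero,
      Prod.smul_fst, dv_fst, smul_eq_mul, mul_one, D_r, exL_inl, yv_2, h1, h2, om, Pi.one_apply,
      ZeroMemClass.coe_zero, Prod.snd_zero, Pi.zero_apply, if_true, zero_ne_one, if_false,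
      Equiv.swap_apply_right]
    refine ⟨hu, fun j => ?_⟩
    split_ifs <;> constructor <;> ring

lemma allowedP (hA : Solv P c0 A) (u : U P) : ∃ u0, ∀ j, st A j u ↔ sP P j u0 := by
  classical
  have b0 := hA.bd.pos
  obtain ⟨a, ha, -, -, hu⟩ := hA.cov 0 u
  have b1 := hA.bd.d 1 (.inr 0)
  obtain ⟨a', ha', e, hu'⟩ := pt hA ha (D P 1 • dv (.inr 0)) (redB_D _ _) (by linarith) u
  have h1 : ∀ j, vv P j a' - vv P j a = ww P j a' - ww P j a + 1 := by
    intro j; simp [ww_apply, vv_apply, e]; ring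
  have g1 : ∀ j, agr j (uu P a) u := fun j => hu ▸ agr_refl _ _
  have g2 : ∀ j, agr j (uu P a') u := fun j => hu' ▸ agr_refl _ _
  refine clauseP hA (fun j => st A j u) ha ha' (by rw [e, add_sub_cancel_left]; linarith)
    (hu.trans hu'.symm) (fun j => ?_) (fun j => ?_)
  · split_ifs with h
    · linear_combination h1 (.inl j) - h a ha a' ha' (g1 j) (g2 j)
    · linear_combination -st_neg hA h ha ha' (g1 j) (g2 j)
  · split_ifs with h
    · linear_combination -h a ha a' ha' (g1 j) (g2 j)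
    · linear_combination -h1 (.inl j) - st_neg hA h ha ha' (g1 j) (g2 j)

lemma val_lt_cast {n u : ℕ} (hu : u < n) : ((u : ZMod n)).val = u := ZMod.val_cast_of_lt hu

lemma block (hA : Solv P c0 A) (c : Cx) (i : ZMod (P.q c)) {a a' : G P} (ha : a ∈ A) (ha' : a' ∈ A)
    (hd : ‖a'.1 - a.1‖ ≤ 10 * c0) (hu : uu P a c = uu P a' c)
    (hW : W i (ck P c a) = W i (ck P c a'))
    (hw : ww P (.inl (.inl ⟨c, i⟩)) a = ww P (.inl (.inl ⟨c, i⟩)) a')
    (hv : vv P (.inl (.inl ⟨c, i⟩)) a' = vv P (.inl (.inl ⟨c, i⟩)) a +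
      (((((a'.1.1 : ℤ) : ZMod (P.q c)) - (a.1.1 : ℤ)).val : ℕ) : Zr P _)) :
    ((a.1.1 : ℤ) : ZMod (P.q c)) = (a'.1.1 : ℤ) := by
  classical
  have b0 := hA.bd.pos
  obtain ⟨j, hj⟩ : ∃ j : Gx P.q, j = .inl (.inl ⟨c, i⟩) := ⟨_, rfl⟩
  have sj : ∀ x u, sg P j x u ↔ u c = i := fun x u => by rw [hj]; rfl
  rw [← hj] at hw hv
  obtain ⟨n, hn⟩ : ∃ n, n = (((a'.1.1 : ℤ) : ZMod (P.q c)) - (a.1.1 : ℤ)).val := ⟨_, rfl⟩
  rw [← hn] at hv
  have nq : n < P.q c := hn ▸ ZMod.val_lt _
  have hk := P.hlt c j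
  let g : ℕ → Ck (P.q c) := fun n => (((n : ZMod _), 0), -((P.q c : ZMod (P.q c ^ 2)) * (n : ZMod (P.q c ^ 2))))
  have gW : ∀ n, W i (g n) = 0 := by intro n; simp [g, W_apply]
  let Θ : Zr P j × Ck (P.q c) → G P := fun s => if s.1.val < P.q c then
    ((((s.1.val : ℤ), 0) : ℤ × ℤ) + D P (Pi.single j (-(top (W i s.2) : Zr P j))) • dv (.inr 0),
      Pi.single c (-((P.q c : ZMod (P.q c ^ 2)) * (s.1.val : ZMod (P.q c ^ 2)))), 0) else 0
  have t1 : ∀ s, ck P c (Θ s) = if s.1.val < P.q c then g s.1.val else 0 := by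
    intro s; simp only [Θ]; split_ifs
    · simp only [ck_apply, map_add, redB_D, add_zero, Pi.single_eq_same, g]
      simp [redB_apply]
    · simp
  have t2 : ∀ s, vv P j (Θ s) = 0 := by
    intro s; simp only [Θ]; split_ifs
    · rfl
    · simp
  have t3 : ∀ s, ww P j (Θ s) = if s.1.val < P.q c then (top (W i s.2) : Zr P j) - s.1 else 0 := by
    intro s; simp only [Θ]; split_ifs
    · simp [ww_apply]; ring
    · simp
  have := forb hA ((ck P c).prod ((vv P j).prod (ww P j)))
    (fun y => (y.1.2.2 j, (y.1.1 c, y.1.2.1 c))) Θ ?_ ?_ ha ha' hd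
    ⟨(Pi.single c (ck P c a' - ck P c a - g n).1, Pi.single c (ck P c a' - ck P c a - g n).2,
      Pi.single j n), mem_Y (fun c' => ?_) (fun c' => ?_)⟩ 0 ?_
  · have h2 := congrArg (fun s : Zr P j × Ck (P.q c) => s.1.val) this
    simp only [Pi.single_eq_same, val_lt_cast (nq.trans hk), ZeroMemClass.coe_zero, Prod.snd_zero,
      Pi.zero_apply, ZMod.val_zero] at h2
    rw [h2, eq_comm, ZMod.val_eq_zero, sub_eq_zero] at hn
    exact hn.symm
  · intro s; simp only [Θ]; split_ifs with h
    · have b1 := hA.bd.q c _ h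
      have b2 := hA.bd.d (Pi.single j (-(top (W i s.2) : Zr P j))) (.inr 0)
      exact (norm_add_le _ _).trans (by linarith)
    · simpa using b0
  · intro b hb b' hb' y y' q
    simp only [AddMonoidHom.prod_apply, map_add, ck_sec, vv_sec, ww_sec, t1, t2, t3,
      Prod.mk_add_mk, Prod.mk.injEq, add_zero] at q
    obtain ⟨q1, q2, q3⟩ := q
    rw [ck_A0 hb, ck_A0 hb'] at q1
    have gz : ∀ n : ℕ, tau _ (if n < P.q c then g n else 0).2 = 0 := by
      intro n; split_ifs <;> simp [g]
    have e1 := congrArg (fun x : Ck (P.q c) => tau _ x.2) q1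
    simp only [Prod.snd_add, map_add, gz, Y2, add_zero, ac, map_sub, tau_lift, sub_sub_cancel] at e1
    have fin : y.1.2.2 j = y'.1.2.2 j →
        (y.1.2.2 j, (y.1.1 c, y.1.2.1 c)) = (y'.1.2.2 j, (y'.1.1 c, y'.1.2.1 c)) := by
      intro q
      rw [q] at q1
      have e5 := add_right_cancel q1
      have e6 := congrArg (fun x : Ck (P.q c) => tau _ x.1.1) e5
      simp only [Prod.fst_add, map_add, ac, bc, tau_lift, Y1, add_zero] at e6
      rw [e6, e1] at e5
      rw [q, add_left_cancel e5]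
    apply fin
    by_cases s0 : uu P b c = i
    · rw [vv_true hb ((sj _ _).2 s0), vv_true hb' ((sj _ _).2 (e1 ▸ s0))] at q3
      have f3 : ∀ z : Zr P j, ∀ w : ZMod (P.q c ^ 2),
          (0 + z + if z.val < P.q c then (top w : Zr P j) - z else 0).val =
            if z.val < P.q c then top w else z.val := by
        intro z w; split_ifs
        · rw [zero_add, add_sub_cancel, val_lt_cast ((top_lt _).trans hk)]
        · simp
      have f4 := congrArg ZMod.val q3
      rw [f3, f3] at f4
      by_cases s1 : (y.1.2.2 j).val < P.q c <;> by_cases s2 : (y'.1.2.2 j).val < P.q c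
      · simp only [if_pos s1, if_pos s2] at f4 q1
        have e5 := congrArg (W i) q1
        simp only [map_add, gW, add_zero] at e5
        have e7 := top_ext (by simp only [tau_W, Y2]) f4
        rw [e7, ← e1, s0] at e5
        have e8 := W_inj i (add_right_cancel e5)
        have e9 := congrArg (fun x : Ck (P.q c) => tau _ x.1.1) q1
        simp only [Prod.fst_add, map_add, ac, bc, tau_lift, Y1, add_zero, g, tau_nat, e8] at e9
        have e10 := congrArg ZMod.val (add_left_cancel e9)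
        rw [val_lt_cast s1, val_lt_cast s2] at e10
        exact ZMod.val_injective _ e10
      · simp only [if_pos s1, if_neg s2] at f4
        have := top_lt (W i (y.1.1 c, y.1.2.1 c)); omega
      · simp only [if_neg s1, if_pos s2] at f4
        have := top_lt (W i (y'.1.1 c, y'.1.2.1 c)); omega
      · simp only [if_neg s1, if_neg s2] at f4
        exact ZMod.val_injective _ f4
    · rw [vv_false hb (fun h => s0 ((sj _ _).1 h)),
        vv_false hb' (fun h => s0 (e1 ▸ (sj _ _).1 h))] at q2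
      exact add_left_cancel q2
  · by_cases q : c' = c
    · subst q; simp [g, ck_apply, redB_apply, hn]
    · simp [q]
  · by_cases q : c' = c
    · subst q
      simp only [uu_apply] at hu
      simp [g, ck_apply, hu]
    · simp [q]
  · have z0 : W i (ck P c a' - ck P c a - g n) = 0 := by rw [map_sub, map_sub, hW, gW]; simp
    have q0 : 0 < P.q c := (P.hq c).pos
    simp only [AddMonoidHom.prod_apply, map_add, ck_sec, vv_sec, ww_sec, t1, t2, t3,
      Prod.mk_add_mk, Prod.mk.injEq, add_zero, Pi.single_eq_same, val_lt_cast (nq.trans hk),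
      if_pos nq, Prod.mk.eta, z0, ZeroMemClass.coe_zero, Prod.snd_zero, Prod.fst_zero,
      Pi.zero_apply, ZMod.val_zero, if_pos q0, hv, hw]
    refine ⟨?_, trivial, ?_⟩
    · ext <;> simp [g] <;> ring
    · simp [top, W_apply]

lemma pin (hA : Solv P c0 A) (c : Cx) (i : ZMod (P.q c)) {u u' : U P}
    (h : st A (.inl ⟨c, i⟩) u) (h' : st A (.inl ⟨c, i⟩) u') : u c = u' c := by
  classical
  have b0 := hA.bd.pos
  choose a0 ha0 y0 e0 _h using fun t : ZMod (P.q c) => hA.cov ((t.val : ℤ), 0) 0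
  have p1 : ∀ t u, ∃ a ∈ A, a.1 = (a0 t).1 ∧ uu P a = u := by
    intro t u
    simpa using pt hA (ha0 t) 0 (by simp) (by simpa using b0) u
  choose p hp hx hu using p1
  have ht : ∀ t u, (((p t u).1.1 : ℤ) : ZMod (P.q c)) = t := by
    intro t u
    have := congrArg (fun x => tau _ (redB P x c).1) (e0 t)
    simp only [map_add, redB_secB, Pi.add_apply, Prod.fst_add, Y1, add_zero] at this
    simpa [redB_apply, hx] using this
  have hn : ∀ t, ‖(a0 t).1‖ ≤ 2 * c0 := by
    intro t
    have e : (a0 t).1 = ((t.val : ℤ), 0) - secB P (y0 t).1.1 := by rw [← e0 t]; simp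
    have b1 := hA.bd.q c _ t.val_lt
    have b2 := hA.bd.s (y0 t).1.1
    rw [e]
    exact (norm_sub_le _ _).trans (by linarith)
  have ag : ∀ {a : G P} {u : U P}, uu P a = u → agr (.inl ⟨c, i⟩) (uu P a) u :=
    fun e => e ▸ agr_refl _ _
  have inj : ∀ u, st A (.inl ⟨c, i⟩) u → Function.Injective fun t => W i (ck P c (p t u)) := by
    intro u hs t t' e
    obtain ⟨j, hj⟩ : ∃ j : Gx P.q, j = .inl (.inl ⟨c, i⟩) := ⟨_, rfl⟩
    let ξ : ∀ j, Zr P j := Pi.single j (vv P j (p t u) + ((t' - t).val : ℕ) - vv P j (p t' u))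
    have b1 := hA.bd.d ξ (.inr 0)
    obtain ⟨a, ha, ea, ua⟩ := pt hA (hp t' u) (D P ξ • dv (.inr 0)) (redB_D _ _) (by linarith) u
    have c1 := ck_near hA (hp t' u) ha ea (redB_D _ _) (by linarith) c (by rw [ua, hu])
    have c2 : ((a.1.1 : ℤ) : ZMod (P.q c)) = t' := by
      have := congrArg (fun x : Ck (P.q c) => tau _ x.1.1) c1
      simpa [ck_apply, redB_apply, ht] using this
    have w1 := hs _ (hp t' u) _ ha (ag (hu _ _)) (ag ua)
    have := block hA c i (hp t u) ha ?_ (by rw [ua, hu]) (by rw [c1]; exact e)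
      (hs _ (hp t u) _ ha (ag (hu _ _)) (ag ua)) ?_
    · rwa [ht, c2] at this
    · have : a.1 - (p t u).1 = (a0 t').1 + D P ξ • dv (.inr 0) - (a0 t).1 := by rw [ea, hx, hx]
      rw [this]
      have n1 := norm_sub_le ((a0 t').1 + D P ξ • dv (.inr 0)) (a0 t).1
      have n2 := norm_add_le (a0 t').1 (D P ξ • dv (.inr 0))
      linarith [hn t, hn t']
    · subst hj
      rw [ht, c2]
      rw [ww_apply, ww_apply, ea] at w1
      simp only [Prod.fst_add, Prod.smul_fst, dv_fst, smul_eq_mul, mul_one, Int.cast_add, D_r, ξ,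
        Pi.single_eq_same, vv_apply] at w1 ⊢
      linear_combination -w1
  have tz : ∀ t u, tau _ (zt c (p t u)) = t - u c := by
    intro t u
    have := congrFun (hu t u) c
    simp only [uu_apply] at this
    simp [zt_apply, ck_apply, redB_apply, ht, this]
  have sm : ∀ u, st A (.inl ⟨c, i⟩) u → (P.q c : ZMod (P.q c ^ 2)) * lift (u c) + ∑ e, mulp e =
      ∑ t, ((P.q c + 1) * (redB P (a0 t).1 c).1 + mulp (i * (redB P (a0 t).1 c).2)) -
        ∑ t, zt c (p t u) := by
    intro u hs
    rw [← fib_sum _ (inj u hs) (u c) (fun t => by rw [tau_W]; exact congrFun (hu t u) c),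
      ← Finset.sum_sub_distrib]
    refine Finset.sum_congr rfl fun t _ => ?_
    simp only [W_apply, zt_apply, ck_apply, hx]; ring
  have s3 : ∑ t, zt c (p t u) = ∑ t, zt c (p t u') := by
    rw [← Equiv.sum_comp (Equiv.addRight (u' c - u c)) fun t => zt c (p t u')]
    refine Finset.sum_congr rfl fun t _ => zeta hA c (hp _ _) (hp _ _) ?_
    rw [tz, tz, Equiv.coe_addRight]; ring
  have := (sm u h).trans (s3 ▸ (sm u' h').symm)
  simpa using mulq.1 (add_right_cancel this)

/-- the forced labelling of locations -/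
lemma perm (hA : Solv P c0 A) : ∃ π : U P → U P, (∀ u j, st A j u ↔ sP P j (π u)) ∧
    (∀ u u' c, π u c = π u' c ↔ u c = u' c) ∧ Function.Surjective π := by
  choose π h using allowedP hA
  have h2 : ∀ u u' c, π u c = π u' c ↔ u c = u' c := by
    intro u u' c
    constructor
    · intro e
      exact pin hA c (π u c) ((h u _).2 rfl) ((h u' _).2 e.symm)
    · intro e
      have : st A (.inl ⟨c, π u c⟩) u' := st_agr (fun c' hc => by rw [show c' = c from hc, e])
        ((h u _).2 rfl)
      exact ((h u' _).1 this).symm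
  refine ⟨π, h, h2, Finite.injective_iff_surjective.1 fun u u' e => funext fun c => ?_⟩
  exact (h2 u u' c).1 (by rw [e])

end Vale.Agent.P043.T3
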