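import Vale.Agent.P043.Dir
import Vale.Agent.P043.Merge

namespace Vale.Agent.P043.T3

lemma st_line {S : ℤ × ℤ → Kx → Prop} (hS : ∀ x q, S (x + dv (.inl q)) (.inl q) ↔ S x (.inl q))
    (n : Fin 169) (c : Z13) (j i : ℤ) :
    S (j, i) (Sum.inl (n, c)) ↔ S (0, j * (n : ℕ) + i) (Sum.inl (n, c)) := by
  have step : ∀ j i : ℤ, S (j + 1, i - (n : ℕ)) (Sum.inl (n, c)) ↔ S (j, i) (Sum.inl (n, c)) :=
    fun j i => hS (j, i) (n, c)
  induction j using Int.induction_on generalizing i with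
  | zero => simp
  | succ j ih =>
    have := step j (i + (n : ℕ))
    rw [add_sub_cancel_right] at this
    refine this.trans ((ih _).trans ?_)
    rw [show (j : ℤ) * (n : ℕ) + (i + (n : ℕ)) = ((j : ℤ) + 1) * (n : ℕ) + i by ring]
  | pred j ih =>
    have := step (-(j : ℤ) - 1) i
    rw [sub_add_cancel] at this
    refine this.symm.trans ((ih _).trans ?_)
    rw [show -(j : ℤ) * (n : ℕ) + (i - (n : ℕ)) = (-(j : ℤ) - 1) * (n : ℕ) + i by ring]

lemma sud_abs {S : ℤ × ℤ → Kx → Prop} (hA : ∀ x q, S (x + dv (.inl q)) (.inl q) ↔ S x (.inl q))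
    (allowed : ∀ x, ∃ x0, ∀ k, S x k ↔ b0 x0 k = true)
    (clk : ∀ c j (m : ℕ), S (j, 0) (.inr c) → S (j + m, 0) (.inr c) → (m : Z13) = 0)
    (N : ℕ) (pos : 0 < N) (per : ∀ m k, S (0, m + N) k ↔ S (0, m) k) : False := by
  classical
  let F : ℤ → ℤ → Z13 := fun n m =>
    if h : ∃ c : Z13, ∃ n' : Fin 169, ((n' : ℕ) : ℤ) = n ∧ S (0, m) (Sum.inl (n', c)) then h.choose
    else 0
  have hF : ∀ j i : ℤ, ∃ j0 i0 : ℤ, (∀ n, 0 ≤ n → n < 169 → F n (j * n + i) = dig (j0 * n + i0)) ∧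
      S (j, i) (Sum.inr (j0 : Z13)) := by
    intro j i
    obtain ⟨⟨j0, i0⟩, h⟩ := allowed (j, i)
    refine ⟨j0, i0, fun n n0 n1 => ?_, by rw [h]; simp [b0]⟩
    obtain ⟨n', rfl⟩ : ∃ n' : Fin 169, ((n' : ℕ) : ℤ) = n := ⟨⟨n.toNat, by omega⟩, by simp; omega⟩
    have hc : ∀ c, S (0, j * (n' : ℕ) + i) (Sum.inl (n', c)) ↔ dig (j0 * (n' : ℕ) + i0) = c := by
      intro c; rw [← st_line hA, h]; simp [b0]
    have ex : ∃ c : Z13, ∃ n'' : Fin 169, ((n'' : ℕ) : ℤ) = (n' : ℕ) ∧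
        S (0, j * (n' : ℕ) + i) (Sum.inl (n'', c)) := ⟨_, n', rfl, (hc _).2 rfl⟩
    simp only [F, dif_pos ex]
    obtain ⟨n'', e, h2⟩ := ex.choose_spec
    have : n'' = n' := Fin.ext (by omega)
    subst this
    exact ((hc _).1 h2).symm
  have tr : ∀ {j i j0 i0 a b : ℤ}, (∀ n, 0 ≤ n → n < 169 → F n (j * n + i) = dig (j0 * n + i0)) →
      Rule (fun n => dig (j0 * n + i0)) a b → Rule (fun n => F n (j * n + i)) a b := by
    intro j i j0 i0 a b h hr
    refine ⟨hr.1, fun n n0 n1 => ?_⟩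
    have := hr.2 n n0 n1
    simp only [h n n0 n1]
    exact this
  have hS : Sol F := by
    intro j i
    obtain ⟨j0, i0, h, -⟩ := hF j i
    obtain ⟨a, b, hab⟩ := rule_dig' j0 i0
    exact ⟨a, b, tr h hab⟩
  choose J I h1 h2 using hF
  have dist : ∀ j : ℤ, ∀ m : ℕ, (J j 0 : Z13) = J (j + m) 0 → (m : Z13) = 0 := by
    intro j m e
    exact clk _ j m (h2 j 0) (e ▸ h2 (j + m) 0)
  have d01 : (J 0 0 : Z13) ≠ J 1 0 := fun e => absurd (dist 0 1 (by simpa using e)) (by decide)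
  have d02 : (J 0 0 : Z13) ≠ J 2 0 := fun e => absurd (dist 0 2 (by simpa using e)) (by decide)
  have d12 : (J 1 0 : Z13) ≠ J 2 0 := fun e => absurd (dist 1 1 (by simpa using e)) (by decide)
  have rl : ∀ j, (J j 0 : Z13) ≠ 0 → Rule (fun n => F n (j * n + 0)) (J j 0) (I j 0) :=
    fun j h => tr (h1 j 0) (rule_dig fun q => h q.1)
  have hM : ∀ n m : ℤ, 0 ≤ n → n < 169 → F n (m + N) = F n m := by
    intro n m _ _
    simp only [F, per]
  by_cases z0 : (J 0 0 : Z13) = 0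
  · exact sudoku hS (rl 1 (z0 ▸ d01.symm)) (rl 2 (z0 ▸ d02.symm)) d12 _ pos hM
  by_cases z1 : (J 1 0 : Z13) = 0
  · exact sudoku hS (rl 0 z0) (rl 2 (z1 ▸ d12.symm)) d02 _ pos hM
  · exact sudoku hS (rl 0 z0) (rl 1 z1) d01 _ pos hM


variable {P : Par} {c0 : ℝ} {A : Set (G P)}

lemma pt0 (hA : Solv P c0 A) {a : G P} (ha : a ∈ A) (u : U P) :
    ∃ a' ∈ A, a'.1 = a.1 ∧ uu P a' = u := by
  simpa using pt hA ha 0 (by simp) (by simpa using hA.bd.pos) u

lemma loc_inv (hA : Solv P c0 A) (k : Kx) {a a' : G P} (ha : a ∈ A) (ha' : a' ∈ A)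
    (e : a'.1 = a.1) (h1 : uu P a' none = uu P a none)
    (h2 : ∀ l, uu P a' (some (k, l)) = uu P a (some (k, l))) :
    vv P (.inr k) a' = vv P (.inr k) a :=
  inv hA k 0 (uu P a' - uu P a) (by simp) (by simpa using hA.bd.pos)
    (fun x u => by rw [add_zero]; exact val_u k x (by simp [h1]) (by simp [h2])) ha ha'
    (by simp [e]) (by simp)

def act (A : Set (G P)) (x : ℤ × ℤ) (t : ZMod (P.q none)) (k : Kx) (l : Bool) : Prop :=
  ∃ a ∈ A, ∃ a' ∈ A, a.1 = x ∧ a'.1 = x ∧ uu P a none = t ∧ uu P a' none = t ∧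
    uu P a (some (k, !l)) = uu P a' (some (k, !l)) ∧ vv P (.inr k) a ≠ vv P (.inr k) a'

lemma act_step (hA : Solv P c0 A) (q : Fin 169 × Z13) (x : ℤ × ℤ) (t : ZMod (P.q none)) :
    act A (x + NN P • dv (.inl q)) (t + 1) (.inl q) true ↔ act A x t (.inl q) true := by
  have b0 := hA.bd.pos
  have b1 := hA.bd.n (.inl q)
  have iv := fun {a a' : G P} => inv hA (.inl q) _ _ (redB_NN _) (by linarith) (val_N q)
    (a := a) (a' := a')
  constructor
  · rintro ⟨a, ha, a', ha', e, e', t1, t2, h1, h2⟩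
    have mv : ∀ a ∈ A, a.1 = x + NN P • dv (.inl q) → ∃ b ∈ A, b.1 = x ∧
        uu P b = uu P a - Pi.single none 1 ∧ vv P (.inr (.inl q)) a = vv P (.inr (.inl q)) b := by
      intro a ha e
      obtain ⟨b, hb, e1, e2⟩ := pt hA ha (-(NN P • dv (.inl q))) (by rw [map_neg, redB_NN, neg_zero])
        (by rw [norm_neg]; linarith) (uu P a - Pi.single none 1)
      have e3 : b.1 = x := by rw [e1, e, add_neg_cancel_right]
      exact ⟨b, hb, e3, e2, iv hb ha (by rw [e, e3]) (by rw [e2, sub_add_cancel])⟩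
    obtain ⟨b, hb, f1, f2, f3⟩ := mv a ha e
    obtain ⟨b', hb', f1', f2', f3'⟩ := mv a' ha' e'
    exact ⟨b, hb, b', hb', f1, f1', by simp [f2, t1], by simp [f2', t2], by simpa [f2, f2'] using h1,
      by rwa [← f3, ← f3']⟩
  · rintro ⟨a, ha, a', ha', e, e', t1, t2, h1, h2⟩
    have mv : ∀ a ∈ A, a.1 = x → ∃ b ∈ A, b.1 = x + NN P • dv (.inl q) ∧
        uu P b = uu P a + Pi.single none 1 ∧ vv P (.inr (.inl q)) b = vv P (.inr (.inl q)) a := by
      intro a ha e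
      obtain ⟨b, hb, e1, e2⟩ := pt hA ha (NN P • dv (.inl q)) (redB_NN _) (by linarith)
        (uu P a + Pi.single none 1)
      exact ⟨b, hb, by rw [e1, e], e2, iv ha hb e1 e2⟩
    obtain ⟨b, hb, f1, f2, f3⟩ := mv a ha e
    obtain ⟨b', hb', f1', f2', f3'⟩ := mv a' ha' e'
    exact ⟨b, hb, b', hb', f1, f1', by simp [f2, t1], by simp [f2', t2], by simpa [f2, f2'] using h1,
      by rwa [f3, f3']⟩

lemma allowedX (hA : Solv P c0 A) {a : G P} (ha : a ∈ A) (t : ZMod (P.q none))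
    (h : ∀ k, act A a.1 t k true ∨ act A a.1 t k false) :
    ∃ x0, ∀ k, act A a.1 t k true ↔ b0 x0 k = true := by
  classical
  have h1 : ∀ k, act A a.1 t k (decide (act A a.1 t k true)) := by
    intro k
    by_cases q : act A a.1 t k true
    · simpa [q] using q
    · simpa [q] using (h k).resolve_left q
  choose w hw w' hw' e e' t1 t2 g1 g2 using h1
  obtain ⟨b, hb, f1, f2⟩ := pt0 hA ha fun c => match c with
    | none => t
    | some (k, l) => uu P (w k) (some (k, l))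
  obtain ⟨b', hb', f1', f2'⟩ := pt0 hA ha fun c => match c with
    | none => t
    | some (k, l) => uu P (w' k) (some (k, l))
  obtain ⟨x0, hx⟩ := clauseX hA (fun k => decide (act A a.1 t k true)) hb hb' (f1.trans f1'.symm)
    (by rw [f2, f2']) (fun k => by rw [f2, f2']; exact g1 k) (fun k => by
      rw [loc_inv hA k (hw k) hb (f1.trans (e k).symm) (by rw [f2, t1]) (fun l => by rw [f2]),
        loc_inv hA k (hw' k) hb' (f1'.trans (e' k).symm) (by rw [f2', t2]) (fun l => by rw [f2'])]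
      exact g2 k)
  exact ⟨x0, fun k => by rw [← hx k]; simp⟩

lemma not_per (hA : Solv P c0 A) : ¬ Per A := by
  classical
  rintro ⟨H, hH, hper⟩
  have b0' := hA.bd.pos
  obtain ⟨π, p1, p2, p3⟩ := perm hA
  obtain ⟨us, hs⟩ := p3 0
  obtain ⟨uo, ho⟩ := p3 1
  let ul : Bool → U P := fun l => if l then us else uo
  have mv : ∀ k l (h : ℤ × ℤ), redB P h = 0 → ‖h‖ ≤ 5 * c0 → ∀ b ∈ A, ∀ b' ∈ A, b'.1 = b.1 + h →
      (∀ e, uu P b (some (k, e)) = ul l (some (k, e))) →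
      (∀ e, uu P b' (some (k, e)) = ul l (some (k, e))) →
      vv P (.inr k) b' = vv P (.inr k) b + if l then ((h.1 : ℤ) : Zr P (.inr k)) else 0 := by
    intro k l h h0 hh b hb b' hb' e g g'
    refine cond hA (.inr (.inl (k, l))) k l (fun x u s => s _) h h0 hh hb hb' e ?_ ?_
    · rintro c (rfl | rfl) <;> rw [g, g']
    · refine (p1 _ _).2 fun e => ?_
      rw [(p2 _ _ _).2 (g e)]
      cases l <;> simp [ul, hs, ho]
  let Gd : G P → Prop := fun a => ∀ b ∈ A, ∀ b' ∈ A, b.1 = a.1 → b'.1 = a.1 → ∀ k,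
    (∀ e, uu P b (some (k, e)) = us (some (k, e))) →
    (∀ e, uu P b' (some (k, e)) = uo (some (k, e))) → vv P (.inr k) b = vv P (.inr k) b' + 1
  obtain ⟨a1, ha1, g1⟩ : ∃ a ∈ A, Gd a := by
    obtain ⟨a, ha, -⟩ := hA.cov 0 0
    obtain ⟨s, hs, e1, e2⟩ := pt0 hA ha us
    obtain ⟨o, ho, e3, e4⟩ := pt0 hA ha uo
    let ξ : ∀ j, Zr P j := exR fun k => 1 - vv P (.inr k) s + vv P (.inr k) o
    have b1 := hA.bd.d ξ (.inr 0)
    obtain ⟨a', ha', e, -⟩ := pt hA ha (D P ξ • dv (.inr 0)) (redB_D _ _) (by linarith) 0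
    refine ⟨a', ha', fun b hb b' hb' f f' k g g' => ?_⟩
    rw [mv k true _ (redB_D ξ (dv (.inr 0))) (by linarith) s hs b hb (by rw [f, e, e1])
      (fun _ => by rw [e2]; rfl) g, mv k false _ (redB_D ξ (dv (.inr 0))) (by linarith) o ho b' hb'
      (by rw [f', e, e3]) (fun _ => by rw [e4]; rfl) g']
    simp [ξ, exR]; ring
  have hR : ∀ x, ∀ a ∈ A, Gd a → ∀ y, ‖NN P • y‖ ≤ c0 → (y = x ∨ y = -x) →
      ∃ a' ∈ A, a'.1 = a.1 + NN P • y ∧ Gd a' := by
    intro x a ha g y hy _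
    obtain ⟨a', ha', e, -⟩ := pt hA ha (NN P • y) (redB_NN _) (by linarith) 0
    refine ⟨a', ha', e, fun b hb b' hb' f f' k h h' => ?_⟩
    obtain ⟨s, hs, e1, e2⟩ := pt0 hA ha us
    obtain ⟨o, ho, e3, e4⟩ := pt0 hA ha uo
    rw [mv k true _ (redB_NN y) (by linarith) s hs b hb (by rw [f, e, e1])
      (fun _ => by rw [e2]; rfl) h, mv k false _ (redB_NN y) (by linarith) o ho b' hb'
      (by rw [f', e, e3]) (fun _ => by rw [e4]; rfl) h',
      g s hs o ho e1 e3 k (fun _ => by rw [e2]) (fun _ => by rw [e4])]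
    simp
  have all : ∀ x : ℤ × ℤ, ∃ a ∈ A, a.1 = a1.1 + NN P • x ∧ Gd a := by
    intro x
    obtain ⟨b, hb, e, r⟩ := chain hA Gd _ (hA.bd.n (.inr 0)) (hR _) ha1 g1 x.1
    obtain ⟨b', hb', e', r'⟩ := chain hA Gd _ hA.bd.n2 (hR _) hb r x.2
    refine ⟨b', hb', ?_, r'⟩
    rw [e', e, add_assoc, ← smul_add]
    congr 2; ext <;> simp [dv]
  have lab : ∀ x t c, act A x t (.inr c) true → (((π (Pi.single none t) none).val : ℕ) : Z13) = c := by
    rintro x t c ⟨b, hb, b', hb', e, e', t1, t2, h1, h2⟩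
    by_contra hc
    apply h2
    have := cond hA (.inr (.inr (c, decide (π (uu P b) (some (.inr c, false)) = 0)))) (.inr c)
      (decide (π (uu P b) (some (.inr c, false)) = 0)) (fun x u s => ?_) 0 (by simp) (by simpa using b0') hb hb' (by simp [e, e']) ?_ ?_
    · simpa using this.symm
    · have : b0 (hid P x u) (.inr c) = false := by
        rw [← Bool.not_eq_true, b0_inr]; exact s.1
      show u (some (.inr c, b0 (hid P x u) (.inr c))) = 0 ↔ _
      rw [this]; exact s.2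
    · rintro c (rfl | rfl)
      · rw [t1, t2]
      · exact h1
    · refine (p1 _ _).2 ⟨?_, by simp⟩
      rwa [(p2 (uu P b) (Pi.single none t) none).2 (by simp [t1])]
  refine sud_abs (S := fun x k => act A (a1.1 + NN P • x) (x.1 : ℤ) k true) (fun x q => ?_)
    (fun x => ?_) (fun c j m h h' => ?_) H.index (Nat.pos_of_ne_zero hH.index_ne_zero)
    (fun m k => ?_)
  · rw [smul_add, ← add_assoc, Prod.fst_add, dv_fst, Int.cast_add, Int.cast_one]
    exact act_step hA q _ _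
  · obtain ⟨a, ha, e, g⟩ := all x
    rw [← e]
    refine allowedX hA ha _ fun k => ?_
    obtain ⟨s, hs, e1, e2⟩ := pt0 hA ha (Function.update us none (x.1 : ℤ))
    obtain ⟨o, ho, e3, e4⟩ := pt0 hA ha (Function.update uo none (x.1 : ℤ))
    obtain ⟨w, hw, e5, e6⟩ := pt0 hA ha
      (Function.update (Function.update us none (x.1 : ℤ)) (some (k, true)) (uo (some (k, true))))
    have := g s hs o ho e1 e3 k (fun _ => by simp [e2]) (fun _ => by simp [e4])
    by_cases q : vv P (.inr k) s = vv P (.inr k) w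
    · refine Or.inr ⟨w, hw, o, ho, e5, e3, by simp [e6], by simp [e4], by
        show uu P w (some (k, true)) = uu P o (some (k, true))
        simp [e6, e4], ?_⟩
      rw [← q, this]; simp
    · exact Or.inl ⟨s, hs, w, hw, e1, e5, by simp [e2], by simp [e6], by
        show uu P s (some (k, false)) = uu P w (some (k, false))
        simp [e6, e2], q⟩
  · have h1 := (lab _ _ _ h).trans (lab _ _ _ h').symm
    have lt : ∀ z : ZMod (P.q none), z.val < 13 := fun z => P.h13 ▸ z.val_lt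
    rw [ZMod.natCast_eq_natCast_iff', Nat.mod_eq_of_lt (lt _), Nat.mod_eq_of_lt (lt _)] at h1
    have h2 := (p2 _ _ _).1 (ZMod.val_injective _ h1)
    simp only [Pi.single_eq_same, Int.cast_add, Int.cast_natCast, left_eq_add] at h2
    rw [ZMod.natCast_eq_zero_iff] at h2 ⊢
    rwa [P.h13] at h2
  · obtain ⟨g, hg, e1, e2⟩ : ∃ g ∈ H, g.1 = NN P • ((0, (H.index : ℤ)) : ℤ × ℤ) ∧ g.2 = 0 :=
      ⟨_, H.nsmul_index_mem ((0, NN P), 0), by ext <;> simp [mul_comm], by simp⟩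
    have u0 : uu P g = 0 := by funext c; simp [uu_apply, e2]
    have v0 : vv P (.inr k) g = 0 := by simp [vv_apply, e2]
    have e3 : a1.1 + NN P • ((0, m + H.index) : ℤ × ℤ) = a1.1 + NN P • ((0, m) : ℤ × ℤ) + g.1 := by
      rw [e1, add_assoc, ← smul_add]; simp
    simp only [e3]
    constructor
    · rintro ⟨b, hb, b', hb', e, e', t1, t2, h1, h2⟩
      exact ⟨_, hper _ (neg_mem hg) b hb, _, hper _ (neg_mem hg) b' hb', by simp [e], by simp [e'],
        by simpa [u0] using t1, by simpa [u0] using t2, by simpa [u0] using h1,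
        by simpa [v0] using h2⟩
    · rintro ⟨b, hb, b', hb', e, e', t1, t2, h1, h2⟩
      exact ⟨_, hper _ hg b hb, _, hper _ hg b' hb', by simp [e], by simp [e'],
        by simpa [u0] using t1, by simpa [u0] using t2, by simpa [u0] using h1,
        by simpa [v0] using h2⟩

end Vale.Agent.P043.T3
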