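import Vale.Agent.P043.Basic

namespace Vale.Agent.P043

open MeasureTheory

variable {d : ℕ}

def cube (c : Fin d → ℝ) : Set (Fin d → ℝ) := Set.pi Set.univ fun i => Set.Ico (c i) (c i + 1)

lemma mem_cube {c x : Fin d → ℝ} : x ∈ cube c ↔ ∀ i, c i ≤ x i ∧ x i < c i + 1 := by
  simp [cube, Set.mem_pi]

def cz (f : Fin d → ℤ) : Fin d → ℝ := fun i => f i

def body (F : Finset (Fin d → ℤ)) : Set (Fin d → ℝ) := ⋃ f ∈ F, cube (cz f)

lemma mem_img {F : Finset (Fin d → ℤ)} {a x : Fin d → ℝ} :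
    x ∈ (fun y => y + a) '' body F ↔ ∃ f ∈ F, x ∈ cube (a + cz f) := by
  simp only [Set.image_add_right, Set.mem_preimage, body, Set.mem_iUnion, mem_cube, exists_prop,
    Pi.add_apply, Pi.neg_apply]
  refine exists_congr fun f => and_congr_right fun _ => forall_congr' fun i => ?_
  constructor <;> rintro ⟨h1, h2⟩ <;> constructor <;> linarith

lemma box_pos (x : Fin d → ℝ) (e : Fin d → ℝ) (he : ∀ i, x i < e i) :
    volume (Set.pi Set.univ fun i => Set.Ioo (x i) (e i)) ≠ 0 := by
  rw [Real.volume_pi_Ioo]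
  exact Finset.prod_ne_zero_iff.2 fun i _ => by simpa using he i

/-- every point lies in exactly one half-open unit cube -/
def CT {J : Type} (c : J → Fin d → ℝ) : Prop := ∀ x, ∃! j, x ∈ cube (c j)

lemma ct_of_ae {J : Type} (c : J → Fin d → ℝ) (cov : volume (⋃ j, cube (c j))ᶜ = 0)
    (dis : ∀ j j', j ≠ j' → volume (cube (c j) ∩ cube (c j')) = 0) : CT c := by
  have uq : ∀ x j j', x ∈ cube (c j) → x ∈ cube (c j') → j = j' := by
    intro x j j' h h'
    by_contra hne
    rw [mem_cube] at h h'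
    refine box_pos x (fun i => min (c j i + 1) (c j' i + 1))
      (fun i => lt_min (h i).2 (h' i).2) (measure_mono_null ?_ (dis j j' hne))
    intro y hy
    simp only [Set.mem_pi, Set.mem_univ, true_imp_iff, Set.mem_Ioo, lt_min_iff] at hy
    exact ⟨mem_cube.2 fun i => ⟨by linarith [(h i).1, (hy i).1], (hy i).2.1⟩,
      mem_cube.2 fun i => ⟨by linarith [(h' i).1, (hy i).1], (hy i).2.2⟩⟩
  intro x
  refine existsUnique_of_exists_of_unique ?_ (uq x)
  by_contra hc
  push Not at hc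
  let S : Set J := {j | ∀ i, x i - 1 < c j i ∧ c j i < x i + 1}
  have hS : S.Finite := by
    refine Set.Finite.of_finite_image (f := fun j i => ⌊c j i⌋) ?_ ?_
    · refine (Set.finite_Icc (fun i => ⌊x i - 1⌋) (fun i => ⌊x i + 1⌋)).subset ?_
      rintro _ ⟨j, hj, rfl⟩
      exact ⟨fun i => Int.floor_mono (hj i).1.le, fun i => Int.floor_mono (hj i).2.le⟩
    · intro j _ j' _ e
      refine uq (fun i => max (c j i) (c j' i)) j j' (mem_cube.2 fun i => ⟨le_max_left _ _, ?_⟩)
        (mem_cube.2 fun i => ⟨le_max_right _ _, ?_⟩)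
      all_goals
        have e1 : ⌊c j i⌋ = ⌊c j' i⌋ := congrFun e i
        have h1 := Int.floor_le (c j i)
        have h2 := Int.floor_le (c j' i)
        have h3 := Int.lt_floor_add_one (c j i)
        have h4 := Int.lt_floor_add_one (c j' i)
        rw [e1] at h1 h3
        exact max_lt (by linarith) (by linarith)
  have loc : ∀ j, ∃ ε : ℝ, 0 < ε ∧ ∀ y, (∀ i, x i < y i ∧ y i < x i + ε) → y ∉ cube (c j) := by
    intro j
    have := hc j
    rw [mem_cube] at this
    push Not at this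
    obtain ⟨i, hi⟩ := this
    by_cases h : c j i ≤ x i
    · exact ⟨1, one_pos, fun y hy hm => by
        linarith [hi h, (mem_cube.1 hm i).2, (hy i).1]⟩
    · exact ⟨c j i - x i, by linarith, fun y hy hm => by
        linarith [(mem_cube.1 hm i).1, (hy i).2]⟩
  choose ε hε hl using loc
  obtain ⟨δ, δ0, δ1, hδ⟩ : ∃ δ : ℝ, 0 < δ ∧ δ ≤ 1 ∧ ∀ j ∈ S, δ ≤ ε j := by
    have : ∀ S : Set J, S.Finite → ∃ δ : ℝ, 0 < δ ∧ δ ≤ 1 ∧ ∀ j ∈ S, δ ≤ ε j := by
      intro S hS
      induction S, hS using Set.Finite.induction_on with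
      | empty => exact ⟨1, one_pos, le_rfl, by simp⟩
      | @insert j S _ _ ih =>
        obtain ⟨δ, δ0, δ1, hδ⟩ := ih
        refine ⟨min δ (ε j), lt_min δ0 (hε j), (min_le_left _ _).trans δ1, ?_⟩
        rintro k (rfl | hk)
        · exact min_le_right _ _
        · exact (min_le_left _ _).trans (hδ k hk)
    exact this S hS
  refine box_pos x (fun i => x i + δ) (fun i => by linarith) (measure_mono_null ?_ cov)
  intro y hy hm
  simp only [Set.mem_pi, Set.mem_univ, true_imp_iff, Set.mem_Ioo] at hy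
  obtain ⟨j, hj⟩ := Set.mem_iUnion.1 hm
  have hjS : j ∈ S := fun i => by
    have := mem_cube.1 hj i
    constructor <;> linarith [(hy i).1, (hy i).2]
  exact hl j y (fun i => ⟨(hy i).1, by linarith [(hy i).2, hδ j hjS]⟩) hj

lemma line_tile {J : Type} (P : J → Prop) (g : J → ℝ)
    (h : ∀ t : ℝ, ∃! j, P j ∧ g j ≤ t ∧ t < g j + 1) :
    ∃ c : ℝ, (∀ n : ℤ, ∃ j, P j ∧ g j = c + n) ∧ (∀ j, P j → ∃ n : ℤ, g j = c + n) ∧
      ∀ j j', P j → P j' → g j = g j' → j = j' := by
  have uq : ∀ t j j', P j → P j' → g j ≤ t → t < g j + 1 → g j' ≤ t → t < g j' + 1 → j = j' :=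
    fun t j j' a b c d e f => (h t).unique ⟨a, c, d⟩ ⟨b, e, f⟩
  obtain ⟨j0, ⟨p0, -⟩, -⟩ := h 0
  have all : ∀ n : ℤ, ∃ j, P j ∧ g j = g j0 + n := by
    intro n
    induction n using Int.induction_on with
    | zero => exact ⟨j0, p0, by simp⟩
    | succ n ih =>
      obtain ⟨j, pj, e⟩ := ih
      obtain ⟨j', ⟨p', l1, l2⟩, -⟩ := h (g j + 1)
      refine ⟨j', p', ?_⟩
      by_contra hne
      have : g j' < g j + 1 := lt_of_le_of_ne l1 (by rw [e]; push_cast at hne ⊢; intro q; apply hne; linarith)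
      have := uq (g j') j j' pj p' (by linarith) this le_rfl (by linarith)
      subst this; linarith
    | pred n ih =>
      obtain ⟨j, pj, e⟩ := ih
      obtain ⟨j', ⟨p', l1, l2⟩, -⟩ := h (g j - 1)
      refine ⟨j', p', ?_⟩
      by_contra hne
      have h1 : g j' < g j - 1 := lt_of_le_of_ne l1 (by
        rw [e]; push_cast at hne ⊢; intro q; apply hne; linarith)
      obtain ⟨j'', ⟨p'', m1, m2⟩, -⟩ := h (g j' + 1)
      have h2 : g j'' = g j' + 1 := by
        by_contra q
        have := uq (g j'') j' j'' p' p'' (by linarith) (lt_of_le_of_ne m1 q) le_rfl (by linarith)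
        subst this; linarith
      have := uq (g j) j j'' pj p'' le_rfl (by linarith) (by linarith) (by linarith)
      subst this; linarith
  refine ⟨g j0, all, fun j pj => ?_, fun j j' p p' e =>
    uq (g j) j j' p p' le_rfl (by linarith) e.ge (by linarith)⟩
  obtain ⟨j', p', e⟩ := all ⌊g j - g j0⌋
  have := uq (g j) j j' pj p' le_rfl (by linarith) (by linarith [Int.floor_le (g j - g j0)])
    (by linarith [Int.lt_floor_add_one (g j - g j0)])
  exact ⟨⌊g j - g j0⌋, (congrArg g this).trans e⟩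

lemma ct_step {J : Type} (ρ : ℝ → ℤ) (hρ : ∀ x (n : ℤ), ρ (x + n) = ρ x + n) (c : J → Fin d → ℝ)
    (h : CT c) (i : Fin d) : CT fun j => Function.update (c j) i (ρ (c j i)) := by
  intro x
  let P : J → Prop := fun j => ∀ k, k ≠ i → c j k ≤ x k ∧ x k < c j k + 1
  obtain ⟨c0, h1, h2, h3⟩ := line_tile P (fun j => c j i) (fun t => by
    refine (existsUnique_congr fun j => ?_).1 (h (Function.update x i t))
    rw [mem_cube]
    constructor
    · intro q
      exact ⟨fun k hk => by simpa [hk] using q k, by simpa using q i⟩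
    · rintro ⟨q1, q2⟩ k
      by_cases hk : k = i
      · subst hk; simpa using q2
      · simpa [hk] using q1 k hk)
  have iff : ∀ j, x ∈ cube (Function.update (c j) i (ρ (c j i))) ↔ P j ∧ ρ (c j i) = ⌊x i⌋ := by
    intro j
    rw [mem_cube, eq_comm, Int.floor_eq_iff]
    constructor
    · intro q
      exact ⟨fun k hk => by simpa [hk] using q k, by simpa using q i⟩
    · rintro ⟨q1, q2⟩ k
      by_cases hk : k = i
      · subst hk; simpa using q2
      · simpa [hk] using q1 k hk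
  simp only [iff]
  obtain ⟨j, pj, e⟩ := h1 (⌊x i⌋ - ρ c0)
  refine ⟨j, ⟨pj, by rw [e, hρ]; ring⟩, ?_⟩
  rintro j' ⟨p', e'⟩
  obtain ⟨n, hn⟩ := h2 j' p'
  rw [hn, hρ] at e'
  refine h3 j' j p' pj ?_
  rw [hn, e, ← e']; simp

lemma ct_round {J : Type} (ρ : ℝ → ℤ) (hρ : ∀ x (n : ℤ), ρ (x + n) = ρ x + n) (c : J → Fin d → ℝ)
    (h : CT c) (z : Fin d → ℤ) : ∃! j, (fun i => ρ (c j i)) = z := by
  classical
  have : ∀ s : Finset (Fin d), CT fun j i => if i ∈ s then (ρ (c j i) : ℝ) else c j i := by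
    intro s
    induction s using Finset.induction_on with
    | empty => simpa using h
    | insert i s hi ih =>
      convert ct_step ρ hρ _ ih i using 2 with j
      funext k
      by_cases hk : k = i
      · subst hk; simp [hi]
      · simp [hk]
  refine (existsUnique_congr fun j => ?_).1 (this Finset.univ (cz z))
  simp only [mem_cube, Finset.mem_univ, if_true, cz, funext_iff]
  refine forall_congr' fun i => ?_
  norm_cast; omega

lemma cube_disj {a : Fin d → ℝ} {f f' : Fin d → ℤ} {x : Fin d → ℝ} (h : x ∈ cube (a + cz f))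
    (h' : x ∈ cube (a + cz f')) : f = f' := by
  funext i
  have h1 := mem_cube.1 h i
  have h2 := mem_cube.1 h' i
  simp only [Pi.add_apply, cz] at h1 h2
  have e1 : (f i : ℝ) < f' i + 1 := by linarith
  have e2 : (f' i : ℝ) < f i + 1 := by linarith
  norm_cast at e1 e2; omega

theorem real_of_sys (F : Finset (Fin d → ℤ)) (hF : Sys (Fin d → ℤ) [F]) :
    Bornology.IsBounded (body F) ∧ MeasurableSet (body F) ∧ 0 < volume (body F) ∧
      (∃ A, IsRealTiling (body F) A) ∧ ∀ A, IsRealTiling (body F) A → ¬ IsRealPeriodic A := by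
  classical
  obtain ⟨⟨A0, hA0⟩, hap⟩ := hF
  have h0 := hA0 F (by simp)
  refine ⟨?_, ?_, ?_, ⟨cz '' A0, ?_, ?_⟩, ?_⟩
  · refine (Bornology.isBounded_biUnion_finset F).2 fun f _ => ?_
    exact Bornology.IsBounded.pi fun i => Metric.isBounded_Ico _ _
  · exact Finset.measurableSet_biUnion F fun f _ =>
      MeasurableSet.univ_pi fun i => measurableSet_Ico
  · obtain ⟨f, hf⟩ := h0.nonempty
    refine pos_iff_ne_zero.2 fun h => box_pos (cz f) (fun i => cz f i + 1) (fun i => by simp)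
      (measure_mono_null ?_ h)
    intro y hy
    simp only [Set.mem_pi, Set.mem_univ, true_imp_iff, Set.mem_Ioo] at hy
    exact Set.mem_biUnion hf (mem_cube.2 fun i => ⟨(hy i).1.le, (hy i).2⟩)
  · convert measure_empty (μ := (volume : Measure (Fin d → ℝ)))
    rw [Set.compl_empty_iff, Set.eq_univ_iff_forall]
    intro x
    obtain ⟨a, ha, f, hf, e⟩ := h0.ex fun i => ⌊x i⌋
    refine Set.mem_biUnion ⟨a, ha, rfl⟩ (mem_img.2 ⟨f, hf, mem_cube.2 fun i => ?_⟩)
    have : (a i : ℝ) + f i = ⌊x i⌋ := by exact_mod_cast congrFun e i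
    simp only [Pi.add_apply, cz, this]
    exact ⟨Int.floor_le _, Int.lt_floor_add_one _⟩
  · rintro _ ⟨a, ha, rfl⟩ _ ⟨a', ha', rfl⟩ hne
    convert measure_empty (μ := (volume : Measure (Fin d → ℝ)))
    rw [Set.eq_empty_iff_forall_notMem]
    rintro x ⟨h1, h2⟩
    obtain ⟨f, hf, q⟩ := mem_img.1 h1
    obtain ⟨f', hf', q'⟩ := mem_img.1 h2
    have e : ∀ a f : Fin d → ℤ, cz a + cz f = 0 + cz (a + f) := by
      intro a f; funext i; simp [cz]
    rw [e] at q q'
    exact hne (by rw [(h0.uniq ha ha' hf hf' (cube_disj q q')).1])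
  · rintro A ⟨cov, dis⟩ ⟨b, hb⟩
    have ct : CT fun j : A × F => (j.1 : Fin d → ℝ) + cz j.2 := by
      apply ct_of_ae
      · refine measure_mono_null (Set.compl_subset_compl.2 ?_) cov
        intro x hx
        simp only [Set.mem_iUnion] at hx
        obtain ⟨a, ha, hx⟩ := hx
        obtain ⟨f, hf, q⟩ := mem_img.1 hx
        exact Set.mem_iUnion.2 ⟨(⟨a, ha⟩, ⟨f, hf⟩), q⟩
      · rintro ⟨⟨a, ha⟩, ⟨f, hf⟩⟩ ⟨⟨a', ha'⟩, ⟨f', hf'⟩⟩ hne
        by_cases e : a = a'
        · subst e
          convert measure_empty (μ := (volume : Measure (Fin d → ℝ)))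
          rw [Set.eq_empty_iff_forall_notMem]
          rintro x ⟨h1, h2⟩
          have := cube_disj h1 h2
          exact hne (by simpa using this)
        · refine measure_mono_null ?_ (dis a ha a' ha' e)
          intro x hx
          exact ⟨mem_img.2 ⟨f, hf, hx.1⟩, mem_img.2 ⟨f', hf', hx.2⟩⟩
    obtain ⟨φ, hφ⟩ : ∃ φ : ℝ →ₗ[ℚ] ℚ, φ 1 = 1 :=
      (Module.forall_dual_apply_eq_zero_iff ℚ (1 : ℝ)).not.2 one_ne_zero |> fun h => by
        push Not at h
        obtain ⟨ψ, hψ⟩ := h
        exact ⟨(ψ 1)⁻¹ • ψ, by simp [hψ]⟩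
    have φn : ∀ n : ℤ, φ n = n := by
      intro n
      have : (n : ℝ) = (n : ℚ) • (1 : ℝ) := by simp
      rw [this, map_smul, hφ]; simp
    let ρ : ℝ → ℤ := fun x => ⌊φ x⌋
    have hρ : ∀ x (n : ℤ), ρ (x + n) = ρ x + n := by
      intro x n; simp only [ρ, map_add, φn, Int.floor_add_intCast]
    have rd := ct_round ρ hρ _ ct
    simp only [Pi.add_apply, cz, hρ] at rd
    let R : (Fin d → ℝ) → Fin d → ℤ := fun a i => ρ (a i)
    have t1 : IsTiling (R '' A) F := by
      apply isTiling_of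
      · intro z
        obtain ⟨⟨a, f⟩, e, -⟩ := rd z
        exact ⟨_, ⟨a, a.2, rfl⟩, f, f.2, e⟩
      · rintro _ ⟨a, ha, rfl⟩ _ ⟨a', ha', rfl⟩ f hf f' hf' e
        have := (rd (R a + f)).unique (y₁ := (⟨a, ha⟩, ⟨f, hf⟩)) (y₂ := (⟨a', ha'⟩, ⟨f', hf'⟩)) rfl
          e.symm
        simpa using congrArg (fun p => (p.2 : Fin d → ℤ)) this
    have Rinj : ∀ a ∈ A, ∀ a' ∈ A, R a = R a' → a = a' := by
      intro a ha a' ha' e
      obtain ⟨f, hf⟩ := h0.nonempty
      have := (rd (R a + f)).unique (y₁ := (⟨a, ha⟩, ⟨f, hf⟩)) (y₂ := (⟨a', ha'⟩, ⟨f, hf⟩)) rfl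
        (by rw [e]; rfl)
      simpa using congrArg (fun p => (p.1 : Fin d → ℝ)) this
    refine hap _ (fun F' hF' => by rw [List.mem_singleton.1 hF']; exact t1) ?_
    obtain ⟨N, hN⟩ := IsLocalization.exist_integer_multiples_of_finite (nonZeroDivisors ℤ)
      fun q : Fin d × Fin d => φ (b q.1 q.2)
    choose m hm using hN
    have N0 : (N : ℤ) ≠ 0 := nonZeroDivisors.coe_ne_zero N
    let lam : (Fin d → ℤ) → Fin d → ℝ := fun n => ∑ j, (n j * N) • b j
    let T : (Fin d → ℤ) →ₗ[ℤ] (Fin d → ℤ) := Matrix.vecMulLinear (Matrix.of fun j i => m (j, i))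
    have hT : ∀ n i, φ (lam n i) = T n i := by
      intro n i
      simp only [lam, T, Finset.sum_apply, Pi.smul_apply, map_sum, map_zsmul,
        Matrix.vecMulLinear_apply, Matrix.vecMul, dotProduct, Matrix.of_apply]
      push_cast
      refine Finset.sum_congr rfl fun j _ => ?_
      have := hm (j, i)
      simp only [algebraMap_int_eq, eq_intCast] at this
      rw [this, mul_smul]; simp
    have hl : ∀ n, ∀ a ∈ A, a + lam n ∈ A := by
      intro n a ha
      rw [← hb (lam n) (Submodule.sum_mem _ fun j _ =>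
        Submodule.smul_mem _ _ (Submodule.subset_span ⟨j, rfl⟩))]
      exact ⟨a, ha, rfl⟩
    have hR : ∀ n a, R (a + lam n) = R a + T n := by
      intro n a; funext i
      simp only [R, ρ, Pi.add_apply, map_add, hT, Int.floor_add_intCast]
    have Tinj : Function.Injective T := by
      rw [injective_iff_map_eq_zero]
      intro n hn
      obtain ⟨⟨⟨a, ha⟩, -⟩, -⟩ := rd 0
      have h1 := Rinj _ (hl n a ha) a ha (by rw [hR, hn, add_zero])
      have h2 : lam n = 0 := by simpa using h1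
      have h3 := Fintype.linearIndependent_iff.1 b.linearIndependent
        (fun j => ((n j * N : ℤ) : ℝ)) (by
          rw [← h2]; exact Finset.sum_congr rfl fun j _ => Int.cast_smul_eq_zsmul ℝ _ _)
      funext j
      have h4 : n j * N = 0 := by exact_mod_cast h3 j
      exact (mul_eq_zero.1 h4).resolve_right N0
    refine ⟨(LinearMap.range T).toAddSubgroup, ?_, ?_⟩
    · have h := Submodule.finiteQuotientOfFreeOfRankEq (LinearMap.range T)
        (LinearMap.finrank_range_of_inj Tinj)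
      exact @AddSubgroup.finiteIndex_of_finite_quotient _ _ _ h
    · rintro _ ⟨n, rfl⟩ _ ⟨a, ha, rfl⟩
      exact ⟨_, hl n a ha, hR n a⟩

end Vale.Agent.P043
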