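import Vale.Agent.P043.Clk
import Vale.Agent.P043.Enc2

namespace Vale.Agent.P043.T3

abbrev Cx := Option (Kx × Bool)
abbrev Px (q : Cx → ℕ) := (Σ c, ZMod (q c)) ⊕ (Kx × Bool) ⊕ (Z13 × Bool)
abbrev Gx (q : Cx → ℕ) := Px q ⊕ Kx

structure Par where
  q : Cx → ℕ
  r : Gx q → ℕ
  hq : ∀ c, (q c).Prime
  hr : ∀ j, (r j).Prime
  h13 : q none = 13
  hlt : ∀ c j, q c < r j
  crt : ∀ (α : Cx → ℤ) (ξ : ∀ j, ZMod (r j)), ∃ m : ℤ,
    (∀ c, (q c : ℤ) ^ 3 ∣ m - α c) ∧ ∀ j, (m : ZMod (r j)) = ξ j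

variable (P : Par)

instance (c : Cx) : Fact (P.q c).Prime := ⟨P.hq c⟩
instance (j : Gx P.q) : Fact (P.r j).Prime := ⟨P.hr j⟩

abbrev Zr (j : Gx P.q) := ZMod (P.r j)
abbrev U := ∀ c, ZMod (P.q c)
abbrev K := (∀ c, ZMod (P.q c ^ 2)) × (∀ j, Zr P j)
abbrev G := (ℤ × ℤ) × K P
abbrev M := ∀ c, ZMod (P.q c ^ 2) × ZMod (P.q c)
abbrev Om := M P × K P

def redB : ℤ × ℤ →+ M P := AddMonoidHom.mk' (fun x c => ((x.1 : ZMod _), (x.2 : ZMod _))) (by
  intro a b; ext c <;> simp)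

def red : G P →+ Om P := (redB P).prodMap (AddMonoidHom.id _)

def prj : Om P →+ U P × U P :=
  AddMonoidHom.mk' (fun w => (fun c => tau _ (w.1 c).1, fun c => tau _ (w.2.1 c))) (by
    intro a b; ext c <;> simp)

abbrev Y := (prj P).ker

def uu : G P →+ U P := AddMonoidHom.mk' (fun g c => tau _ (g.2.1 c)) (by
  intro a b; ext c; simp)

def vv (j : Gx P.q) : G P →+ Zr P j := AddMonoidHom.mk' (fun g => g.2.2 j) (fun _ _ => rfl)

def ww (j : Gx P.q) : G P →+ Zr P j := AddMonoidHom.mk' (fun g => g.2.2 j - (g.1.1 : ℤ)) (by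
  intro a b; simp only [Prod.fst_add, Prod.snd_add, Pi.add_apply]; push_cast; ring)

def ck (c : Cx) : G P →+ Ck (P.q c) :=
  AddMonoidHom.mk' (fun g => (redB P g.1 c, g.2.1 c)) (by intro a b; simp)

lemma ex_sec (m : M P) : ∃ x : ℤ × ℤ, redB P x = m ∧ (∀ j, ((x.1 : ℤ) : Zr P j) = 0) ∧
    (m = 0 → x = 0) := by
  by_cases h : m = 0
  · exact ⟨0, by simp [h], by simp, fun _ => rfl⟩
  obtain ⟨x, h1, h2⟩ := P.crt (fun c => ((m c).1.val : ℤ)) 0
  obtain ⟨y, h3, -⟩ := P.crt (fun c => ((m c).2.val : ℤ)) 0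
  refine ⟨(x, y), funext fun c => Prod.ext ?_ ?_, h2, fun e => absurd e h⟩
  · have : ((P.q c ^ 2 : ℕ) : ℤ) ∣ x - ((m c).1.val : ℤ) :=
      Dvd.dvd.trans (by push_cast; exact pow_dvd_pow _ (by norm_num)) (h1 c)
    have := (ZMod.intCast_eq_intCast_iff_dvd_sub _ _ _).2 this
    simpa [redB] using this.symm
  · have : ((P.q c : ℕ) : ℤ) ∣ y - ((m c).2.val : ℤ) :=
      Dvd.dvd.trans (dvd_pow_self _ (by norm_num)) (h3 c)
    have := (ZMod.intCast_eq_intCast_iff_dvd_sub _ _ _).2 this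
    simpa [redB] using this.symm

noncomputable def secB (m : M P) : ℤ × ℤ := (ex_sec P m).choose

noncomputable def sec (y : Y P) : G P := (secB P y.1.1, y.1.2)

noncomputable def D (ξ : ∀ j, Zr P j) : ℤ := (P.crt 0 ξ).choose

noncomputable def NN : ℤ := (P.crt (fun c => if c = none then 169 else 0) 0).choose

def hid (x : ℤ × ℤ) (u : U P) : ℤ × ℤ :=
  (x.1 / 169 + ((u none - ((x.1 / 169 : ℤ) : ZMod _)).val : ℕ), x.2 / 169)

def sP : Px P.q → U P → Prop
  | Sum.inl ⟨c, i⟩ => fun u => u c = i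
  | Sum.inr (Sum.inl (k, l)) => fun u => ∀ e, u (some (k, e)) = 0 ↔ l = true
  | Sum.inr (Sum.inr (c, l)) => fun u => (((u none).val : ℕ) : Z13) ≠ c ∧
      (u (some (Sum.inr c, false)) = 0 ↔ l = true)

def dep : Px P.q → Set Cx
  | Sum.inl ⟨c, _⟩ => {c}
  | Sum.inr (Sum.inl (k, _)) => {some (k, false), some (k, true)}
  | Sum.inr (Sum.inr (c, _)) => {none, some (Sum.inr c, false)}

def sg : Gx P.q → ℤ × ℤ → U P → Prop
  | Sum.inl j => fun _ u => sP P j u
  | Sum.inr k => fun x u => u (some (k, b0 (hid P x u) k)) = 0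

def InB (x : ℤ × ℤ) : Prop := ∀ c, redB P x c = bc ((x.1 : ℤ) : ZMod (P.q c))

open Classical in
noncomputable def al (x : ℤ × ℤ) (u : U P) : G P :=
  (x, fun c => ((x.1 : ℤ) : ZMod _) - lift (((x.1 : ℤ) : ZMod _) - u c),
    fun j => if sg P j x u then ((x.1 : ℤ) : Zr P j) else 0)

def A0 : Set (G P) := {g | InB P g.1 ∧ g = al P g.1 (uu P g)}

variable {P}

lemma redB_apply (x : ℤ × ℤ) (c : Cx) : redB P x c = ((x.1 : ZMod _), (x.2 : ZMod _)) := rfl
lemma uu_apply (g : G P) (c : Cx) : uu P g c = tau _ (g.2.1 c) := rfl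
lemma vv_apply (g : G P) (j : Gx P.q) : vv P j g = g.2.2 j := rfl
lemma ww_apply (g : G P) (j : Gx P.q) : ww P j g = g.2.2 j - (g.1.1 : ℤ) := rfl
lemma ck_apply (g : G P) (c : Cx) : ck P c g = (redB P g.1 c, g.2.1 c) := rfl

@[simp] lemma redB_secB (m : M P) : redB P (secB P m) = m := (ex_sec P m).choose_spec.1
@[simp] lemma secB_r (m : M P) (j : Gx P.q) : (((secB P m).1 : ℤ) : Zr P j) = 0 :=
  (ex_sec P m).choose_spec.2.1 j
@[simp] lemma secB_zero : secB P 0 = 0 := (ex_sec P 0).choose_spec.2.2 rfl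

lemma D_q (ξ : ∀ j, Zr P j) (c : Cx) : (P.q c : ℤ) ^ 3 ∣ D P ξ := by
  have := (P.crt 0 ξ).choose_spec.1 c
  rwa [Pi.zero_apply, sub_zero] at this
@[simp] lemma D_r (ξ : ∀ j, Zr P j) (j : Gx P.q) : ((D P ξ : ℤ) : Zr P j) = ξ j :=
  (P.crt 0 ξ).choose_spec.2 j
@[simp] lemma NN_r (j : Gx P.q) : ((NN P : ℤ) : Zr P j) = 0 :=
  (P.crt (fun c => if c = none then 169 else 0) 0).choose_spec.2 j
lemma NN_13 : ∃ t : ℤ, NN P = 169 * (13 * t + 1) := by
  have := (P.crt (fun c => if c = none then 169 else 0) 0).choose_spec.1 none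
  rw [P.h13] at this
  obtain ⟨t, ht⟩ := this
  refine ⟨t, ?_⟩
  simp only [if_true] at ht
  unfold NN; push_cast at ht; linarith
lemma NN_q (c : Cx) : (P.q c : ℤ) ^ 2 ∣ NN P := by
  cases c with
  | none => obtain ⟨t, ht⟩ := NN_13 (P := P); rw [P.h13, ht]; exact ⟨13 * t + 1, by norm_num⟩
  | some c =>
    have := (P.crt (fun c => if c = none then 169 else 0) 0).choose_spec.1 (some c)
    simp only [reduceCtorEq, if_false, sub_zero] at this
    exact Dvd.dvd.trans (pow_dvd_pow _ (by norm_num)) this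

lemma redB_lat {m : ℤ} (h : ∀ c, (P.q c : ℤ) ^ 2 ∣ m) (x : ℤ × ℤ) : redB P (m • x) = 0 := by
  funext c
  have h1 : ((m : ℤ) : ZMod (P.q c ^ 2)) = 0 :=
    (ZMod.intCast_zmod_eq_zero_iff_dvd _ _).2 (by push_cast; exact h c)
  have h2 : ((m : ℤ) : ZMod (P.q c)) = 0 :=
    (ZMod.intCast_zmod_eq_zero_iff_dvd _ _).2 (Dvd.dvd.trans (dvd_pow_self _ two_ne_zero) (h c))
  simp [redB_apply, h1, h2]

@[simp] lemma redB_D (ξ : ∀ j, Zr P j) (x : ℤ × ℤ) : redB P (D P ξ • x) = 0 :=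
  redB_lat (fun c => Dvd.dvd.trans (pow_dvd_pow _ (by norm_num)) (D_q ξ c)) x
@[simp] lemma redB_NN (x : ℤ × ℤ) : redB P (NN P • x) = 0 := redB_lat NN_q x

lemma Y1 (y : Y P) (c : Cx) : tau _ (y.1.1 c).1 = 0 :=
  congrFun (congrArg Prod.fst ((AddMonoidHom.mem_ker).1 y.2)) c
lemma Y2 (y : Y P) (c : Cx) : tau _ (y.1.2.1 c) = 0 :=
  congrFun (congrArg Prod.snd ((AddMonoidHom.mem_ker).1 y.2)) c
lemma mem_Y {w : Om P} (h1 : ∀ c, tau _ (w.1 c).1 = 0) (h2 : ∀ c, tau _ (w.2.1 c) = 0) :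
    w ∈ Y P := (AddMonoidHom.mem_ker).2 (Prod.ext (funext h1) (funext h2))

@[simp] lemma uu_sec (y : Y P) : uu P (sec P y) = 0 := funext fun c => Y2 y c
@[simp] lemma vv_sec (y : Y P) (j : Gx P.q) : vv P j (sec P y) = y.1.2.2 j := rfl
@[simp] lemma ww_sec (y : Y P) (j : Gx P.q) : ww P j (sec P y) = y.1.2.2 j := by
  simp [ww_apply, sec]
@[simp] lemma ck_sec (y : Y P) (c : Cx) : ck P c (sec P y) = (y.1.1 c, y.1.2.1 c) := by
  simp [ck_apply, sec]
@[simp] lemma sec_fst (y : Y P) : (sec P y).1 = secB P y.1.1 := rfl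
@[simp] lemma sec_zero : sec P 0 = 0 := by simp [sec]

@[simp] lemma uu_al (x : ℤ × ℤ) (u : U P) : uu P (al P x u) = u := by
  funext c; simp [uu_apply, al]
@[simp] lemma al_fst (x : ℤ × ℤ) (u : U P) : (al P x u).1 = x := rfl

lemma al_mem {x : ℤ × ℤ} (h : InB P x) (u : U P) : al P x u ∈ A0 P := ⟨h, by simp⟩

lemma ck_A0 {a : G P} (ha : a ∈ A0 P) (c : Cx) :
    ck P c a = ac ((a.1.1 : ℤ) : ZMod _) (uu P a c) := by
  have h1 := ha.1 c
  have h2 := congrArg (fun g : G P => g.2.1 c) ha.2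
  have h3 := congrArg Prod.fst h1
  simp only [redB_apply, bc, al] at h2 h3
  rw [ck_apply, h1, h2, ac, ← h3]

open Classical in
lemma vv_A0 {a : G P} (ha : a ∈ A0 P) (j : Gx P.q) :
    vv P j a = if sg P j a.1 (uu P a) then ((a.1.1 : ℤ) : Zr P j) else 0 :=
  congrArg (fun g : G P => g.2.2 j) ha.2

lemma vv_true {a : G P} (ha : a ∈ A0 P) {j : Gx P.q} (h : sg P j a.1 (uu P a)) : ww P j a = 0 := by
  have := vv_A0 ha j
  rw [if_pos h, vv_apply] at this
  rw [ww_apply, this, sub_self]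

lemma vv_false {a : G P} (ha : a ∈ A0 P) {j : Gx P.q} (h : ¬ sg P j a.1 (uu P a)) :
    vv P j a = 0 := by
  rw [vv_A0 ha, if_neg h]

/-- the support tiles the base with the section -/
lemma base_rig {x x' : ℤ × ℤ} (h : InB P x) (h' : InB P x') {y y' : Y P}
    (e : redB P x + y.1.1 = redB P x' + y'.1.1) : y.1.1 = y'.1.1 := by
  have : redB P x = redB P x' := by
    funext c
    have e1 := congrArg (fun m : M P => tau _ (m c).1) e
    simp only [Pi.add_apply, Prod.fst_add, map_add, Y1, add_zero, redB_apply, tau_int] at e1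
    rw [h c, h' c, e1]
  rw [this] at e
  exact add_left_cancel e

lemma basic {a a' : G P} (ha : a ∈ A0 P) (ha' : a' ∈ A0 P) {y y' : Y P}
    (e : a + sec P y = a' + sec P y') : y = y' := by
  have e1 := congrArg (fun g : G P => redB P g.1) e
  simp only [Prod.fst_add, map_add, sec_fst, redB_secB] at e1
  have e2 := base_rig ha.1 ha'.1 e1
  have e3 := congrArg Prod.fst e
  simp only [Prod.fst_add, sec_fst, e2] at e3
  have e4 := congrArg (uu P) e
  simp only [map_add, uu_sec, add_zero] at e4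
  have e5 : a = a' := by rw [ha.2, ha'.2, add_right_cancel e3, e4]
  rw [e5] at e
  have e6 : sec P y = sec P y' := add_left_cancel e
  exact Subtype.ext (Prod.ext e2 (congrArg (fun g : G P => g.2) e6))

def Inj (A : Set (G P)) (θ : Y P → G P) : Prop :=
  ∀ a ∈ A, ∀ a' ∈ A, ∀ y y', a + θ y = a' + θ y' → y = y'

noncomputable def tl (θ : Y P → G P) : Finset (G P) := (Set.finite_range θ).toFinset

lemma mem_tl {θ : Y P → G P} {f : G P} : f ∈ tl θ ↔ ∃ y, θ y = f := by simp [tl]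

lemma tile_of_inj {θ : Y P → G P} (h : Inj (A0 P) θ) : IsTiling (A0 P) (tl θ) := by
  classical
  apply isTiling_of
  · rintro ⟨X, w⟩
    let rep : M P → ℤ × ℤ := fun m => if m = redB P X then X else secB P m
    have hrep : ∀ m, redB P (rep m) = m := by
      intro m; simp only [rep]; split_ifs with q
      · exact q.symm
      · simp
    let ps : U P → Y P → ℤ × ℤ := fun t y => rep ((fun c => bc (t c)) + redB P (θ y).1) - (θ y).1
    have h1 : ∀ t y, redB P (ps t y) = fun c => bc (t c) := by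
      intro t y; simp [ps, hrep]
    have h2 : ∀ t y c, (((ps t y).1 : ℤ) : ZMod (P.q c)) = t c := by
      intro t y c
      have := congrArg (fun m : M P => tau _ (m c).1) (h1 t y)
      simpa [redB_apply, bc] using this
    have h3 : ∀ t y, InB P (ps t y) := by
      intro t y c; rw [h1, h2]
    let Ψ : (U P × U P) × Y P → G P := fun s => al P (ps s.1.1 s.2) s.1.2 + θ s.2
    have h4 : ∀ s, (Ψ s).1 = rep (red P (Ψ s)).1 := by
      intro s
      have : (Ψ s).1 = rep ((fun c => bc (s.1.1 c)) + redB P (θ s.2).1) := by simp [Ψ, ps]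
      show (Ψ s).1 = rep (redB P (Ψ s).1)
      rw [this, hrep]
    have hi : Function.Injective fun s => red P (Ψ s) := by
      rintro ⟨⟨t, u⟩, y⟩ ⟨⟨t', u'⟩, y'⟩ e
      have e1 : Ψ ((t, u), y) = Ψ ((t', u'), y') :=
        Prod.ext (by rw [h4, h4]; exact congrArg (fun w : Om P => rep w.1) e)
          (congrArg (fun w : Om P => w.2) e)
      have := h _ (al_mem (h3 t y) u) _ (al_mem (h3 t' y') u') y y' e1
      subst this
      have e2 : al P (ps t y) u = al P (ps t' y) u' := add_right_cancel e1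
      have e3 : u = u' := by rw [← uu_al (ps t y) u, e2, uu_al]
      have e4 : t = t' := by
        have e5 : ps t y = ps t' y := by rw [← al_fst (ps t y) u, e2, al_fst]
        funext c; rw [← h2 t y c, ← h2 t' y c, e5]
      rw [e3, e4]
    have hc : Nat.card (Om P) ≤ Nat.card ((U P × U P) × Y P) := by
      rw [← (prj P).ker.card_mul_index, AddSubgroup.index_ker, Nat.card_prod (U P × U P), mul_comm]
      exact Nat.mul_le_mul_right _ (Nat.card_le_card_of_injective _ Subtype.val_injective)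
    obtain ⟨s, e⟩ := (hi.bijective_of_nat_card_le hc).2 (redB P X, w)
    refine ⟨_, al_mem (h3 s.1.1 s.2) s.1.2, θ s.2, mem_tl.2 ⟨s.2, rfl⟩, Prod.ext ?_ ?_⟩
    · have := h4 s
      simp only at e
      rw [e] at this
      simpa only [rep, if_true] using this
    · exact congrArg (fun w : Om P => w.2) e
  · intro a ha a' ha' f hf f' hf' e
    obtain ⟨y, rfl⟩ := mem_tl.1 hf
    obtain ⟨y', rfl⟩ := mem_tl.1 hf'
    rw [h a ha a' ha' y y' e]

end Vale.Agent.P043.T3
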