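import Mathlib

namespace Vale.Agent.P043

section field
variable {k : Type} [Field k]

lemma two_zero {x y a b : k} (h : x ≠ y) (h1 : a * x + b = 0) (h2 : a * y + b = 0) :
    a = 0 ∧ b = 0 := by
  have : a * (x - y) = 0 := by linear_combination h1 - h2
  have ha : a = 0 := (mul_eq_zero.1 this).resolve_right (sub_ne_zero.2 h)
  exact ⟨ha, by simpa [ha] using h1⟩

lemma four_points (x : Fin 4 → k) (hx : Function.Injective x) {a b a' b' : k}
    (h : ¬ (a = 0 ∧ b = 0)) (h' : ¬ (a' = 0 ∧ b' = 0))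
    (H : ∀ i, a * x i + b = 0 ∨ a' * x i + b' = 0 ∨ a * x i + b = a' * x i + b') :
    a = a' ∧ b = b' := by
  have : ∀ i, ∃ c : Fin 3, (![a, a', a - a'] c) * x i + ![b, b', b - b'] c = 0 := by
    intro i
    rcases H i with h | h | h
    · exact ⟨0, h⟩
    · exact ⟨1, h⟩
    · exact ⟨2, by simp; linear_combination h⟩
  choose c hc using this
  obtain ⟨i, j, hij, e⟩ := Fintype.exists_ne_map_eq_of_card_lt c (by simp)
  have h1 := hc i
  have h2 := hc j
  rw [← e] at h2
  have h3 := two_zero (fun q => hij (hx q)) h1 h2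
  generalize c i = t at h3
  fin_cases t
  · exact absurd h3 h
  · exact absurd h3 h'
  · simp at h3; exact ⟨sub_eq_zero.1 h3.1, sub_eq_zero.1 h3.2⟩

lemma three_zero {x y z a b c : k} (h1 : x ≠ y) (h2 : x ≠ z) (h3 : y ≠ z)
    (e1 : a * x ^ 2 + b * x + c = 0) (e2 : a * y ^ 2 + b * y + c = 0)
    (e3 : a * z ^ 2 + b * z + c = 0) : a = 0 := by
  have : a * ((x - y) * (x - z) * (y - z)) = 0 := by
    linear_combination (y - z) * e1 - (x - z) * e2 + (x - y) * e3
  rcases mul_eq_zero.1 this with h | h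
  · exact h
  · exact absurd h (mul_ne_zero (mul_ne_zero (sub_ne_zero.2 h1) (sub_ne_zero.2 h2))
      (sub_ne_zero.2 h3))
end field

instance f13 : Fact (Nat.Prime 13) := ⟨by norm_num⟩

abbrev Z13 := ZMod 13

/-- the Sudoku rule on one line -/
def Rule (g : ℤ → Z13) (a b : ℤ) : Prop :=
  ¬ ((a : Z13) = 0 ∧ (b : Z13) = 0) ∧ ∀ n : ℤ, 0 ≤ n → n < 169 →
    ((a : Z13) * n + b ≠ 0 → g n = a * n + b) ∧
      ∀ c : ℤ, a * n + b = 13 * c → (c : Z13) ≠ 0 → g n = c

def Sol (F : ℤ → ℤ → Z13) : Prop := ∀ j i : ℤ, ∃ a b, Rule (fun n => F n (j * n + i)) a b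

def Fine (F : ℤ → ℤ → Z13) (A B C : Z13) (m : ℤ) : Prop :=
  ∀ n : ℤ, 0 ≤ n → n < 169 → A * n + B * m + C ≠ 0 → F n m = A * n + B * m + C

lemma cast_ne {x y : ℤ} (h : x ≠ y) (h1 : x - y < 13) (h2 : y - x < 13) : (x : Z13) ≠ y := by
  intro e
  have := (ZMod.intCast_eq_intCast_iff_dvd_sub x y 13).1 e
  omega

lemma line_eq {F : ℤ → ℤ → Z13} {A B C : Z13} {j i a b : ℤ} (hr : Rule (fun n => F n (j * n + i)) a b)
    (hH : ¬ (A + B * j = 0 ∧ B * i + C = 0)) (x : Fin 4 → ℤ)
    (hx : Function.Injective fun t => (x t : Z13)) (h0 : ∀ t, 0 ≤ x t ∧ x t < 169)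
    (hf : ∀ t, Fine F A B C (j * x t + i)) : (a : Z13) = A + B * j ∧ (b : Z13) = B * i + C := by
  refine four_points _ hx hr.1 hH fun t => ?_
  by_cases h1 : (a : Z13) * x t + b = 0
  · exact Or.inl h1
  by_cases h2 : (A + B * j) * x t + (B * i + C) = 0
  · exact Or.inr (Or.inl h2)
  refine Or.inr (Or.inr ?_)
  have e1 := ((hr.2 _ (h0 t).1 (h0 t).2).1 h1)
  have e2 := hf t (x t) (h0 t).1 (h0 t).2 (by push_cast; intro q; apply h2; linear_combination q)
  rw [← e1]
  show F _ _ = _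
  rw [e2]; push_cast; ring

lemma extend {F : ℤ → ℤ → Z13} (hF : Sol F) {A B C : Z13} (m : ℤ) (r : Fin 4 → ℤ)
    (hr : Function.Injective r) (σ : ℤ) (hσ : σ = 1 ∨ σ = -1)
    (hb : ∀ t, 1 ≤ σ * (r t - m) ∧ σ * (r t - m) ≤ 9) (hf : ∀ t, Fine F A B C (r t)) :
    Fine F A B C m := by
  intro n n0 n1 hH
  obtain ⟨ε, hε, hx⟩ : ∃ ε : ℤ, (ε = 1 ∨ ε = -1) ∧ ∀ t, 0 ≤ n + ε * (r t - m) ∧
      n + ε * (r t - m) < 169 := by
    by_cases h : n < 50
    · exact ⟨σ, hσ, fun t => by have := hb t; omega⟩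
    · refine ⟨-σ, by omega, fun t => ?_⟩
      have := hb t
      rw [neg_mul]; omega
  obtain ⟨a, b, hab⟩ := hF ε (m - ε * n)
  have hε2 : ε * ε = 1 := by rcases hε with rfl | rfl <;> rfl
  have key := line_eq (A := A) (B := B) (C := C) hab ?_ (fun t => n + ε * (r t - m)) ?_ hx ?_
  · have e : (a : Z13) * n + b = A * n + B * m + C := by rw [key.1, key.2]; push_cast; ring
    have := (hab.2 n n0 n1).1 (by rw [e]; exact hH)
    rw [e] at this
    simpa using this
  · rintro ⟨h1, h2⟩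
    apply hH
    push_cast at h2
    linear_combination (n : Z13) * h1 + h2
  · intro t t' e
    by_contra hne
    have h1 := hb t
    have h2 := hb t'
    have h3 : r t ≠ r t' := fun q => hne (hr q)
    refine cast_ne ?_ ?_ ?_ e <;> rcases hε with rfl | rfl <;> rcases hσ with rfl | rfl <;> omega
  · intro t
    have : ε * (n + ε * (r t - m)) + (m - ε * n) = r t := by linear_combination (r t - m) * hε2
    rw [this]; exact hf t

lemma all_fine {F : ℤ → ℤ → Z13} (hF : Sol F) {A B C : Z13} (r : Fin 4 → ℤ)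
    (hr : Function.Injective r) (hb : ∀ t, 0 ≤ r t ∧ r t ≤ 5) (hf : ∀ t, Fine F A B C (r t)) (m : ℤ) :
    Fine F A B C m := by
  have inj : ∀ m : ℤ, Function.Injective fun t : Fin 4 => m + (t : ℕ) := by
    intro m t t' e
    have : (t : ℕ) = t' := by simpa using e
    exact Fin.ext this
  have Q : ∀ m : ℤ, ∀ t : Fin 4, Fine F A B C (m + (t : ℕ)) := by
    intro m
    induction m using Int.inductionOn' (b := 6) with
    | zero =>
      intro t
      refine extend hF _ r hr (-1) (Or.inr rfl) (fun s => ?_) hf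
      have := hb s; have := t.2; omega
    | succ m _ ih =>
      intro t
      by_cases h : (t : ℕ) = 3
      · refine extend hF _ _ (inj m) (-1) (Or.inr rfl) (fun s => ?_) ih
        have := s.2; omega
      · have := ih ⟨t + 1, by omega⟩
        convert this using 1; push_cast; ring
    | pred m _ ih =>
      intro t
      by_cases h : (t : ℕ) = 0
      · refine extend hF _ _ (inj m) 1 (Or.inl rfl) (fun s => ?_) ih
        have := s.2; omega
      · have := ih ⟨t - 1, by omega⟩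
        convert this using 1
        have : ((t - 1 : ℕ) : ℤ) = (t : ℕ) - 1 := by omega
        simp only [this]; ring
  simpa using Q m 0

lemma diag {F : ℤ → ℤ → Z13} (hF : Sol F) (a b : Fin 6 → ℤ)
    (hab : ∀ k : Fin 6, Rule (fun n => F n (0 * n + (k : ℕ))) (a k) (b k)) (ε : ℤ) (hε : ε = 1 ∨ ε = -1) :
    ∃ κ : Fin 6, ∃ l μ u v : Z13, ∀ k : Fin 6, k ≠ κ →
      (a k : Z13) = l + μ * (k : ℕ) ∧ (ε : Z13) * a k * (k : ℕ) + b k = u + v * (k : ℕ) := by
  classical
  have hε2 : ε * ε = 1 := by rcases hε with rfl | rfl <;> rfl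
  let bad : Fin 6 → Finset (Fin 13) := fun k =>
    Finset.univ.filter fun c => (a k : Z13) * (((c : ℕ) + 5 + ε * (k : ℕ) : ℤ) : Z13) + b k = 0
  have hbad : ∀ k, (bad k).card ≤ 1 := by
    intro k
    rw [Finset.card_le_one]
    intro c hc c' hc'
    by_contra hne
    simp only [bad, Finset.mem_filter, Finset.mem_univ, true_and] at hc hc'
    refine (hab k).1 (two_zero (cast_ne ?_ ?_ ?_) hc hc')
    · have : (c : ℕ) ≠ c' := fun q => hne (Fin.ext q)
      omega
    · have := c.2; omega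
    · have := c'.2; omega
  let good : Finset (Fin 13) := Finset.univ \ Finset.univ.biUnion bad
  have hgood : 6 < good.card := by
    have h1 : (Finset.univ.biUnion bad).card ≤ 6 := by
      refine Finset.card_biUnion_le.trans ?_
      refine (Finset.sum_le_sum fun k _ => hbad k).trans (by simp)
    have h2 : good.card = 13 - (Finset.univ.biUnion bad).card := by
      simp [good, Finset.card_sdiff]
    omega
  have main : ∀ c : Fin 13, ∃ κ : Fin 6, c ∈ good → ∃ u v : Z13, ∀ k : Fin 6, k ≠ κ →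
      (a k : Z13) * (((c : ℕ) + 5 + ε * (k : ℕ) : ℤ) : Z13) + b k = u + v * (k : ℕ) := by
    intro c
    obtain ⟨α, β, hr⟩ := hF ε (-(ε * ((c : ℕ) + 5)))
    obtain ⟨κ, hκ⟩ : ∃ κ : Fin 6, ∀ k : Fin 6, k ≠ κ →
        (α : Z13) * (((c : ℕ) + 5 + ε * (k : ℕ) : ℤ) : Z13) + β ≠ 0 := by
      by_contra hc
      push Not at hc
      obtain ⟨k, -, hk⟩ := hc 0
      obtain ⟨k', hne, hk'⟩ := hc k
      refine hr.1 (two_zero (cast_ne ?_ ?_ ?_) hk hk')
      all_goals
        have : (k' : ℕ) ≠ k := fun q => hne (Fin.ext q)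
        have := k.2; have := k'.2
        rcases hε with rfl | rfl <;> omega
    refine ⟨κ, fun hc => ⟨α * ((c : ℕ) + 5) + β, α * ε, fun k hk => ?_⟩⟩
    have hn : 0 ≤ (c : ℕ) + 5 + ε * (k : ℕ) ∧ (c : ℕ) + 5 + ε * (k : ℕ) < 169 := by
      have := k.2; have := c.2
      rcases hε with rfl | rfl <;> omega
    have e1 := (hr.2 _ hn.1 hn.2).1 (hκ k hk)
    have e2 := ((hab k).2 _ hn.1 hn.2).1 (by
      intro q
      simp only [good, Finset.mem_sdiff, Finset.mem_univ, true_and, Finset.mem_biUnion, not_exists,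
        bad, Finset.mem_filter] at hc
      exact hc k q)
    have e3 : ε * ((c : ℕ) + 5 + ε * (k : ℕ)) + -(ε * ((c : ℕ) + 5)) =
        0 * ((c : ℕ) + 5 + ε * (k : ℕ)) + (k : ℕ) := by linear_combination ((k : ℕ) : ℤ) * hε2
    simp only [e3] at e1
    beta_reduce at e2
    rw [← e2, e1]; push_cast; ring
  choose κ hκ using main
  obtain ⟨c, hc, c', hc', hne, e⟩ := Finset.exists_ne_map_eq_of_card_lt_of_maps_to
    (s := good) (t := (Finset.univ : Finset (Fin 6))) (by simpa using hgood) (f := κ)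
    (fun _ _ => Finset.mem_coe.2 (Finset.mem_univ _))
  obtain ⟨u, v, h1⟩ := hκ c hc
  obtain ⟨u', v', h2⟩ := hκ c' hc'
  have hd : (((c : ℕ) : ℤ) : Z13) - (((c' : ℕ) : ℤ) : Z13) ≠ 0 := by
    refine sub_ne_zero.2 (cast_ne ?_ ?_ ?_)
    · have : (c : ℕ) ≠ c' := fun q => hne (Fin.ext q)
      omega
    · have := c.2; omega
    · have := c'.2; omega
  set D := (((c : ℕ) : ℤ) : Z13) - (((c' : ℕ) : ℤ) : Z13) with hD
  refine ⟨κ c, (u - u') / D, (v - v') / D, u - (u - u') / D * ((c : ℕ) + 5),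
    v - (v - v') / D * ((c : ℕ) + 5), fun k hk => ?_⟩
  have q1 := h1 k hk
  have q2 := h2 k (e ▸ hk)
  have q3 : (a k : Z13) = (u - u') / D + (v - v') / D * (k : ℕ) := by
    field_simp
    rw [hD]; push_cast at q1 q2 ⊢
    linear_combination q1 - q2
  refine ⟨q3, ?_⟩
  push_cast at q1
  linear_combination q1 - (((c : ℕ) : Z13) + 5) * q3

lemma structure_thm {F : ℤ → ℤ → Z13} (hF : Sol F) :
    ∃ A B C : Z13, (B = 0 → ¬ (A = 0 ∧ C = 0)) ∧ ∀ m, Fine F A B C m := by
  classical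
  choose a b hab using fun k : Fin 6 => hF 0 (k : ℕ)
  obtain ⟨κ, l, μ, u, v, h1⟩ := diag hF a b hab 1 (Or.inl rfl)
  obtain ⟨κ', l', μ', u', v', h2⟩ := diag hF a b hab (-1) (Or.inr rfl)
  obtain ⟨r, hr, hκ⟩ : ∃ r : Fin 4 → Fin 6, Function.Injective r ∧ ∀ t, r t ≠ κ ∧ r t ≠ κ' := by
    have hc : 4 ≤ ((Finset.univ.erase κ).erase κ').card := by
      have := Finset.pred_card_le_card_erase (s := Finset.univ.erase κ) (a := κ')
      have h2 : (Finset.univ.erase κ).card = 5 := by simp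
      omega
    obtain ⟨s, hs, hs4⟩ := Finset.exists_subset_card_eq hc
    refine ⟨fun t => s.orderEmbOfFin hs4 t, (s.orderEmbOfFin hs4).injective, fun t => ?_⟩
    have := hs (s.orderEmbOfFin_mem hs4 t)
    simp only [Finset.mem_erase] at this
    exact ⟨this.2.1, this.1⟩
  have two : (2 : Z13) ≠ 0 := by decide
  have ne : ∀ t t', t ≠ t' → (((r t : ℕ) : ℤ) : Z13) ≠ (((r t' : ℕ) : ℤ) : Z13) := by
    intro t t' h
    have : (r t : ℕ) ≠ r t' := fun q => h (hr (Fin.ext q))
    have := (r t).2; have := (r t').2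
    refine cast_ne ?_ ?_ ?_ <;> omega
  have q : ∀ t, (2 * μ) * (((r t : ℕ) : ℤ) : Z13) ^ 2 + (2 * l - v + v') * (((r t : ℕ) : ℤ) : Z13)
      + (u' - u) = 0 := by
    intro t
    have e1 := h1 _ (hκ t).1
    have e2 := h2 _ (hκ t).2
    push_cast at e1 e2 ⊢
    linear_combination e1.2 - e2.2 - 2 * ((r t : ℕ) : Z13) * e1.1
  have hμ : μ = 0 := (mul_eq_zero.1 (three_zero (ne 0 1 (by decide)) (ne 0 2 (by decide))
    (ne 1 2 (by decide)) (q 0) (q 1) (q 2))).resolve_left two
  have e : ∀ t, (a (r t) : Z13) = l ∧ (b (r t) : Z13) = (v - l) * (r t : ℕ) + u := by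
    intro t
    have e1 := h1 _ (hκ t).1
    rw [hμ] at e1
    push_cast at e1
    exact ⟨by linear_combination e1.1, by linear_combination e1.2 - ((r t : ℕ) : Z13) * e1.1⟩
  refine ⟨l, v - l, u, fun h0 h => (hab (r 0)).1 ?_, all_fine hF (fun t => ((r t : ℕ) : ℤ)) ?_ ?_ ?_⟩
  · rw [(e 0).1, (e 0).2, h0, h.1, h.2]; simp
  · intro t t' h
    exact hr (Fin.ext (by simpa using h))
  · intro t; have := (r t).2; omega
  · intro t n n0 n1 hH
    have e2 : (a (r t) : Z13) * n + b (r t) = l * n + (v - l) * (((r t : ℕ) : ℤ) : Z13) + u := by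
      rw [(e t).1, (e t).2]; push_cast; ring
    have := ((hab (r t)).2 n n0 n1).1 (by rw [e2]; exact hH)
    rw [e2] at this
    simpa using this

lemma line_all {F : ℤ → ℤ → Z13} {A B C : Z13} (hf : ∀ m, Fine F A B C m) {j i a b : ℤ}
    (hr : Rule (fun n => F n (j * n + i)) a b) (hH : ¬ (A + B * j = 0 ∧ B * i + C = 0)) :
    (a : Z13) = A + B * j ∧ (b : Z13) = B * i + C := by
  refine line_eq hr hH (fun t => (t : ℕ)) ?_ (fun t => by have := t.2; omega) fun _ => hf _
  intro t t' e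
  by_contra hne
  have : (t : ℕ) ≠ t' := fun q => hne (Fin.ext q)
  have := t.2; have := t'.2
  refine cast_ne ?_ ?_ ?_ e <;> omega

def Good (F : ℤ → ℤ → Z13) : Prop := Sol F ∧ ∃ A B C : Z13, B ≠ 0 ∧ ∀ m, Fine F A B C m

lemma tetris {F : ℤ → ℤ → Z13} (hF : Good F) :
    ∃ s t : ℤ, Good fun n m => F n (s * n + t + 13 * m) := by
  obtain ⟨hF, A, B, C, hB, hf⟩ := hF
  obtain ⟨s, hs⟩ := ZMod.intCast_surjective (-A / B)
  obtain ⟨t, ht⟩ := ZMod.intCast_surjective (-C / B)
  have hs' : A + B * s = 0 := by rw [hs]; field_simp; ring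
  have ht' : B * t + C = 0 := by rw [ht]; field_simp; ring
  have hS : Sol fun n m => F n (s * n + t + 13 * m) := by
    intro j i
    obtain ⟨a, b, h⟩ := hF (s + 13 * j) (t + 13 * i)
    refine ⟨a, b, ?_⟩
    convert h using 3; ring
  obtain ⟨A', B', C', h0, hf'⟩ := structure_thm hS
  refine ⟨s, t, hS, A', B', C', fun hB' => ?_, hf'⟩
  obtain ⟨n0, hn0, hne⟩ : ∃ n0 : ℤ, (n0 = 0 ∨ n0 = 1) ∧ A' * n0 + C' ≠ 0 := by
    by_contra hc
    push Not at hc
    have c0 := hc 0 (Or.inl rfl)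
    have c1 := hc 1 (Or.inr rfl)
    push_cast at c0 c1
    exact h0 hB' ⟨by linear_combination c1 - c0, by linear_combination c0⟩
  obtain ⟨a, b, hr⟩ := hF (s + 1) (t - n0)
  obtain ⟨ha, hb⟩ := line_all hf hr (by
    rintro ⟨h1, -⟩
    push_cast at h1
    exact hB (by linear_combination h1 - hs'))
  push_cast at ha hb
  have ha' : (a : Z13) = B := by linear_combination ha + hs'
  obtain ⟨c0, hc0⟩ : (13 : ℤ) ∣ a * n0 + b := by
    have := (ZMod.intCast_zmod_eq_zero_iff_dvd (a * n0 + b) 13).1 (by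
      push_cast; linear_combination (n0 : Z13) * ha' + hb + ht')
    exact_mod_cast this
  have h13 : (13 : Z13) = 0 := by decide
  have key : ∀ k : ℤ, 0 ≤ k → k ≤ 2 → (c0 : Z13) + B * k = 0 ∨ (c0 : Z13) + B * k = A' * n0 + C' := by
    intro k k0 k2
    by_cases hz : (c0 : Z13) + B * k = 0
    · exact Or.inl hz
    right
    have r0 : 0 ≤ n0 + 13 * k := by omega
    have r1 : n0 + 13 * k < 169 := by omega
    have e1 := (hr.2 _ r0 r1).2 (c0 + a * k) (by linear_combination hc0)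
      (by push_cast; rw [ha']; exact hz)
    have e2 := hf' k _ r0 r1 (by push_cast; rw [hB', h13]; simpa using hne)
    have e3 : (s + 1) * (n0 + 13 * k) + (t - n0) = s * (n0 + 13 * k) + t + 13 * k := by ring
    simp only [e3] at e1 e2
    rw [e1] at e2
    push_cast at e2
    rw [hB', h13, ha'] at e2
    linear_combination e2
  have two : (2 : Z13) ≠ 0 := by decide
  have k0 := key 0 (by omega) (by omega)
  have k1 := key 1 (by omega) (by omega)
  have k2 := key 2 (by omega) (by omega)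
  push_cast at k0 k1 k2
  have h2B : 2 * B ≠ 0 := mul_ne_zero two hB
  rcases k0 with k0 | k0 <;> rcases k1 with k1 | k1 <;> rcases k2 with k2 | k2 <;>
    first
    | exact hB (by linear_combination k1 - k0)
    | exact hB (by linear_combination k2 - k1)
    | exact h2B (by linear_combination k2 - k0)

lemma good_aper (M : ℕ) : ∀ F : ℤ → ℤ → Z13, Good F → 0 < M →
    ¬ ∀ n m : ℤ, 0 ≤ n → n < 169 → F n (m + M) = F n m := by
  induction M using Nat.strong_induction_on with
  | _ M ih =>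
  intro F hF hM hper
  obtain ⟨s, t, hG⟩ := tetris hF
  obtain ⟨-, A, B, C, hB, hf⟩ := hF
  have hd : 13 ∣ M := by
    rw [← ZMod.natCast_eq_zero_iff]
    have key : ∀ m : ℤ, B * m + C = 0 ∨ B * m + (B * M + C) = 0 ∨ (M : Z13) = 0 := by
      intro m
      by_contra hc
      push Not at hc
      have e1 := hf m 0 (by omega) (by omega) (by simpa using hc.1)
      have e2 := hf (m + M) 0 (by omega) (by omega) (by
        push_cast; intro q; apply hc.2.1; linear_combination q)
      rw [hper 0 m (by omega) (by omega), e1] at e2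
      push_cast at e2
      have : B * M = 0 := by linear_combination -e2
      exact hc.2.2 ((mul_eq_zero.1 this).resolve_left hB)
    have two : (2 : Z13) ≠ 0 := by decide
    have h2B : 2 * B ≠ 0 := mul_ne_zero two hB
    have k0 := key 0
    have k1 := key 1
    have k2 := key 2
    push_cast at k0 k1 k2
    rcases k0 with k0 | k0 | k0 <;> rcases k1 with k1 | k1 | k1 <;> rcases k2 with k2 | k2 | k2 <;>
      first
      | assumption
      | exact absurd (by linear_combination k1 - k0) hB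
      | exact absurd (by linear_combination k2 - k1) hB
      | exact absurd (by linear_combination k2 - k0) h2B
  obtain ⟨M', rfl⟩ := hd
  refine ih M' (by omega) _ hG (by omega) fun n m n0 n1 => ?_
  have := hper n (s * n + t + 13 * m) n0 n1
  convert this using 2; push_cast; ring

theorem sudoku {F : ℤ → ℤ → Z13} (hF : Sol F) {j i a b j' i' a' b' : ℤ}
    (h1 : Rule (fun n => F n (j * n + i)) a b) (h2 : Rule (fun n => F n (j' * n + i')) a' b')
    (hne : (a : Z13) ≠ a') (M : ℕ) (hM : 0 < M) :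
    ¬ ∀ n m : ℤ, 0 ≤ n → n < 169 → F n (m + M) = F n m := by
  obtain ⟨A, B, C, h0, hf⟩ := structure_thm hF
  refine good_aper M F ⟨hF, A, B, C, fun hB => hne ?_, hf⟩ hM
  have e1 := (line_all hf h1 (by simpa [hB] using h0 hB)).1
  have e2 := (line_all hf h2 (by simpa [hB] using h0 hB)).1
  rw [e1, e2, hB]; simp

/-- last nonzero digit in base 13 -/
noncomputable def dig (m : ℤ) : Z13 := if m = 0 then 1 else ((m / 13 ^ padicValInt 13 m : ℤ) : Z13)

lemma dig_unit {m : ℤ} (h : (m : Z13) ≠ 0) : dig m = m := by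
  have h0 : m ≠ 0 := by rintro rfl; simp at h
  have : padicValInt 13 m = 0 := padicValInt.eq_zero_of_not_dvd (by
    intro q; exact h ((ZMod.intCast_zmod_eq_zero_iff_dvd m 13).2 q))
  simp [dig, h0, this]

lemma dig_mul (m : ℤ) : dig (13 * m) = dig m := by
  by_cases h0 : m = 0
  · simp [h0]
  have : padicValInt 13 (13 * m) = padicValInt 13 m + 1 := by
    rw [mul_comm]; exact padicValInt_mul_eq_succ m h0
  simp only [dig, h0, mul_eq_zero, this, or_false, if_false, pow_succ]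
  rw [mul_comm (13 ^ _), Int.mul_ediv_mul_of_pos _ _ (by norm_num)]
  simp

lemma rule_dig {a b : ℤ} (h : ¬ ((a : Z13) = 0 ∧ (b : Z13) = 0)) :
    Rule (fun n => dig (a * n + b)) a b := by
  refine ⟨h, fun n _ _ => ⟨fun h1 => ?_, fun c h1 h2 => ?_⟩⟩
  · show dig _ = _
    rw [dig_unit (by push_cast; exact h1)]; push_cast; rfl
  · show dig _ = _
    rw [h1, dig_mul, dig_unit h2]

lemma rule_dig' (j i : ℤ) : ∃ a b, Rule (fun n => dig (j * n + i)) a b := by
  induction h : j.natAbs + i.natAbs using Nat.strong_induction_on generalizing j i with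
  | _ N ih =>
  by_cases h0 : (j : Z13) = 0 ∧ (i : Z13) = 0
  · obtain ⟨j', rfl⟩ := (ZMod.intCast_zmod_eq_zero_iff_dvd j 13).1 h0.1
    obtain ⟨i', rfl⟩ := (ZMod.intCast_zmod_eq_zero_iff_dvd i 13).1 h0.2
    by_cases hz : j' = 0 ∧ i' = 0
    · obtain ⟨rfl, rfl⟩ := hz
      refine ⟨0, 1, ?_⟩
      have := rule_dig (a := 0) (b := 1) (by simp)
      convert this using 2
      simp [dig]
    · obtain ⟨a, b, hab⟩ := ih (j'.natAbs + i'.natAbs) (by push_cast at h; omega) j' i' rfl
      refine ⟨a, b, ?_⟩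
      convert hab using 2 with n
      rw [← dig_mul (j' * n + i')]; congr 1; push_cast; ring
  · exact ⟨j, i, rule_dig h0⟩

end Vale.Agent.P043
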