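import Vale.Agent.P043.Per3

namespace Vale.Agent.P043.T3

lemma ex_primes (ι : Type) [Finite ι] (B : ℕ) :
    ∃ r : ι → ℕ, Function.Injective r ∧ ∀ k, (r k).Prime ∧ B < r k := by
  have hi : ({q : ℕ | q.Prime} \ Set.Iic B).Infinite :=
    Nat.infinite_setOf_prime.diff (Set.finite_Iic B)
  obtain ⟨e⟩ : Nonempty (ι ↪ ℕ) := nonempty_embedding_nat ι
  refine ⟨fun k => (hi.natEmbedding _ (e k) : ℕ), fun k k' h => ?_, fun k => ?_⟩
  · exact e.injective ((hi.natEmbedding _).injective (Subtype.ext h))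
  · have := (hi.natEmbedding _ (e k)).2
    exact ⟨this.1, not_le.1 this.2⟩

lemma crt_gen {ι : Type} [Finite ι] (s : ι → ℕ) (h0 : ∀ i, s i ≠ 0)
    (hc : Pairwise fun i j => Nat.Coprime (s i) (s j)) (a : ∀ i, ZMod (s i)) :
    ∃ x : ℤ, ∀ i, (x : ZMod (s i)) = a i := by
  classical
  obtain ⟨t, ht⟩ : ∃ t : Finset ι, ∀ o, o ∈ t :=
    ⟨(Set.finite_univ (α := ι)).toFinset, fun o => by simp⟩
  obtain ⟨x, hx⟩ := Nat.chineseRemainderOfFinset (fun i => (a i).val) s t (fun i _ => h0 i)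
    (fun i _ j _ hne => hc hne)
  refine ⟨x, fun i => ?_⟩
  haveI : NeZero (s i) := ⟨h0 i⟩
  have := (ZMod.natCast_eq_natCast_iff _ _ (s i)).2 (hx i (ht _))
  simpa using this

lemma ex_par : Nonempty Par := by
  obtain ⟨q0, i0, h0⟩ := ex_primes (Kx × Bool) 13
  let q : Cx → ℕ := fun c => c.elim 13 q0
  have hq : ∀ c, (q c).Prime := by
    rintro (_ | c)
    · exact by norm_num [q]
    · exact (h0 c).1
  have iq : Function.Injective q := by
    rintro (_ | c) (_ | c') h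
    · rfl
    · exact absurd h (h0 c').2.ne
    · exact absurd h (h0 c).2.ne'
    · exact congrArg some (i0 h)
  haveI : ∀ c, NeZero (q c) := fun c => ⟨(hq c).ne_zero⟩
  obtain ⟨B, hB⟩ := (Set.finite_range q).bddAbove
  obtain ⟨r, ir, hr⟩ := ex_primes (Gx q) B
  have lt : ∀ c j, q c < r j := fun c j => (hB ⟨c, rfl⟩).trans_lt (hr j).2
  refine ⟨⟨q, r, hq, fun j => (hr j).1, rfl, lt, fun α ξ => ?_⟩⟩
  let s : Cx ⊕ Gx q → ℕ := Sum.elim (fun c => q c ^ 3) r
  obtain ⟨x, hx⟩ := crt_gen s (by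
      rintro (c | j)
      · exact pow_ne_zero _ (hq c).ne_zero
      · exact (hr j).1.ne_zero) (by
      rintro (c | j) (c' | j') h
      · exact Nat.Coprime.pow _ _ ((Nat.coprime_primes (hq c) (hq c')).2 fun e => h (by rw [iq e]))
      · exact Nat.Coprime.pow_left _ ((Nat.coprime_primes (hq c) (hr j').1).2 (lt c j').ne)
      · exact Nat.Coprime.pow_right _ ((Nat.coprime_primes (hr j).1 (hq c')).2 (lt c' j).ne')
      · exact (Nat.coprime_primes (hr j).1 (hr j').1).2 fun e => h (by rw [ir e]))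
    (fun i => match i with
      | .inl c => ((α c : ℤ) : ZMod (q c ^ 3))
      | .inr j => ξ j)
  refine ⟨x, fun c => ?_, fun j => hx (.inr j)⟩
  have := (ZMod.intCast_eq_intCast_iff_dvd_sub _ _ (q c ^ 3)).1 (hx (.inl c)).symm
  exact_mod_cast this

lemma sys_G (P : Par) : ∃ L, Sys (G P) L := by
  classical
  obtain ⟨c0, hb⟩ := ex_bd P
  have h1 : (Metric.closedBall (0 : ℤ × ℤ) (100 * c0)).Finite :=
    (isCompact_closedBall _ _).finite_of_discrete
  have hW : (Metric.closedBall (0 : ℤ × ℤ) (100 * c0) ×ˢ (Set.univ : Set (K P))).Finite :=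
    h1.prod Set.finite_univ
  obtain ⟨a, ha, -⟩ := (tile_of_inj (θ := sec P) fun a ha a' ha' y y' e => basic ha ha' e).ex 0
  refine ⟨(hW.toFinset.powerset.filter fun F => IsTiling (A0 P) F).toList, ⟨A0 P, fun F hF => ?_⟩,
    fun A hA => not_per (solv_of hb fun F h1 h2 => hA F ?_)⟩
  · exact (Finset.mem_filter.1 (Finset.mem_toList.1 hF)).2
  · refine Finset.mem_toList.2 (Finset.mem_filter.2 ⟨Finset.mem_powerset.2 fun f hf => ?_, h2⟩)
    exact hW.mem_toFinset.2 ⟨by simpa using h1 f hf, trivial⟩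

abbrev G3 := (ℤ × ℤ) × ℤ

theorem sys3 : ∃ F, Sys G3 [F] := by
  obtain ⟨P⟩ := ex_par
  obtain ⟨L, hL⟩ := sys_G P
  let π : G3 →+ G P := AddMonoidHom.mk' (fun g => (g.1, (fun c => (g.2 : ZMod (P.q c ^ 2))),
    fun j => (g.2 : Zr P j))) (by intro a b; ext <;> simp)
  have hπ : Function.Surjective π := by
    rintro ⟨x, z, v⟩
    obtain ⟨m, h1, h2⟩ := P.crt (fun c => ((z c).val : ℤ)) v
    refine ⟨(x, m), Prod.ext rfl (Prod.ext (funext fun c => ?_) (funext h2))⟩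
    have : ((P.q c ^ 2 : ℕ) : ℤ) ∣ m - ((z c).val : ℤ) :=
      Dvd.dvd.trans (by push_cast; exact pow_dvd_pow _ (by norm_num)) (h1 c)
    have := (ZMod.intCast_eq_intCast_iff_dvd_sub _ _ _).2 this
    simpa [π] using this.symm
  obtain ⟨S, hS⟩ : π.ker.FG := by
    have := (IsNoetherian.noetherian (R := ℤ) (AddSubgroup.toIntSubmodule π.ker))
    exact (Submodule.fg_iff_addSubgroup_fg _).1 this
  obtain ⟨L', hL'⟩ := sys_lift π hπ S hS L hL
  exact sys_one L' hL'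

theorem sys_dim3 (d : ℕ) (hd : 3 ≤ d) : ∃ F, Sys (Fin d → ℤ) [F] := by
  obtain ⟨F, hF⟩ := sys3
  have e : (G3 × (Fin (d - 3) → ℤ)) ≃ₗ[ℤ] (Fin d → ℤ) :=
    LinearEquiv.ofFinrankEq _ _ (by simp; omega)
  exact sys_ext e.toAddEquiv F hF

end Vale.Agent.P043.T3
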