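import Vale.Agent.P043.Enc2
import Vale.Agent.P043.Merge

namespace Vale.Agent.P043

variable {r : Kx → ℕ} [hp : ∀ k, Fact (r k).Prime] {A : Set (G0 r)}

lemma st_line (hA : Solv A) (n : Fin 169) (c : Z13) (j i : ℤ) :
    st A (j, i) (Sum.inl (n, c)) ↔ st A (0, j * (n : ℕ) + i) (Sum.inl (n, c)) := by
  have step : ∀ j i : ℤ, st A (j + 1, i - (n : ℕ)) (Sum.inl (n, c)) ↔ st A (j, i) (Sum.inl (n, c)) :=
    fun j i => st_per hA (j, i) (Sum.inl (n, c))
  induction j using Int.induction_on generalizing i with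
  | zero => simp
  | succ j ih =>
    have := step j (i + (n : ℕ))
    rw [add_sub_cancel_right] at this
    refine this.trans ((ih _).trans ?_)
    rw [show (j : ℤ) * (n : ℕ) + (i + (n : ℕ)) = ((j : ℤ) + 1) * (n : ℕ) + i by ring]
  | pred j ih =>
    have := step (-(j : ℤ) - 1) i
    rw [sub_add_cancel] at this
    refine this.symm.trans ((ih _).trans ?_)
    rw [show -(j : ℤ) * (n : ℕ) + (i - (n : ℕ)) = (-(j : ℤ) - 1) * (n : ℕ) + i by ring]

lemma not_per (hA : Solv A) (hr : ∀ k, 13 ≤ r k) : ¬ Per A := by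
  classical
  rintro ⟨H, hH, hper⟩
  let F : ℤ → ℤ → Z13 := fun n m =>
    if h : ∃ c : Z13, ∃ n' : Fin 169, ((n' : ℕ) : ℤ) = n ∧ st A (0, m) (Sum.inl (n', c)) then h.choose
    else 0
  have hF : ∀ j i : ℤ, ∃ j0 i0 : ℤ, (∀ n, 0 ≤ n → n < 169 → F n (j * n + i) = dig (j0 * n + i0)) ∧
      st A (j, i) (Sum.inr (j0 : Z13)) := by
    intro j i
    obtain ⟨⟨j0, i0⟩, h⟩ := allowed hA (j, i)
    refine ⟨j0, i0, fun n n0 n1 => ?_, by rw [h]; simp [b0]⟩
    obtain ⟨n', rfl⟩ : ∃ n' : Fin 169, ((n' : ℕ) : ℤ) = n := ⟨⟨n.toNat, by omega⟩, by simp; omega⟩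
    have hc : ∀ c, st A (0, j * (n' : ℕ) + i) (Sum.inl (n', c)) ↔ dig (j0 * (n' : ℕ) + i0) = c := by
      intro c; rw [← st_line hA, h]; simp [b0]
    have ex : ∃ c : Z13, ∃ n'' : Fin 169, ((n'' : ℕ) : ℤ) = (n' : ℕ) ∧
        st A (0, j * (n' : ℕ) + i) (Sum.inl (n'', c)) := ⟨_, n', rfl, (hc _).2 rfl⟩
    simp only [F, dif_pos ex]
    obtain ⟨n'', e, h2⟩ := ex.choose_spec
    have : n'' = n' := Fin.ext (by omega)
    subst this
    exact ((hc _).1 h2).symm
  have tr : ∀ {j i j0 i0 a b : ℤ}, (∀ n, 0 ≤ n → n < 169 → F n (j * n + i) = dig (j0 * n + i0)) →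
      Rule (fun n => dig (j0 * n + i0)) a b → Rule (fun n => F n (j * n + i)) a b := by
    intro j i j0 i0 a b h hr
    refine ⟨hr.1, fun n n0 n1 => ?_⟩
    have := hr.2 n n0 n1
    simp only [h n n0 n1]
    exact this
  have hS : Sol F := by
    intro j i
    obtain ⟨j0, i0, h, -⟩ := hF j i
    obtain ⟨a, b, hab⟩ := rule_dig' j0 i0
    exact ⟨a, b, tr h hab⟩
  choose J I h1 h2 using hF
  have dist : ∀ j : ℤ, ∀ m : ℕ, (J j 0 : Z13) = J (j + m) 0 → (m : Z13) = 0 := by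
    intro j m e
    refine clock_sum hA hr _ (j, 0) m (h2 j 0) ?_
    rw [e]; simpa using h2 (j + m) 0
  have d01 : (J 0 0 : Z13) ≠ J 1 0 := fun e => absurd (dist 0 1 (by simpa using e)) (by decide)
  have d02 : (J 0 0 : Z13) ≠ J 2 0 := fun e => absurd (dist 0 2 (by simpa using e)) (by decide)
  have d12 : (J 1 0 : Z13) ≠ J 2 0 := fun e => absurd (dist 1 1 (by simpa using e)) (by decide)
  have rl : ∀ j, (J j 0 : Z13) ≠ 0 → Rule (fun n => F n (j * n + 0)) (J j 0) (I j 0) :=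
    fun j h => tr (h1 j 0) (rule_dig fun q => h q.1)
  have hM : ∀ n m : ℤ, 0 ≤ n → n < 169 → F n (m + (H.index : ℕ)) = F n m := by
    intro n m _ _
    have hm : (((0, (H.index : ℤ)), 0) : G0 r) ∈ H := by
      have := H.nsmul_index_mem ((0, 1), 0)
      simpa using this
    have : ∀ k, st A (0, m + (H.index : ℕ)) k ↔ st A (0, m) k := by
      intro k
      constructor
      · intro h a ha a' ha' e e'
        have := h _ (hper _ hm a ha) _ (hper _ hm a' ha') (by simp [e]) (by simp [e'])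
        simpa using this
      · intro h a ha a' ha' e e'
        have := h _ (hper _ (neg_mem hm) a ha) _ (hper _ (neg_mem hm) a' ha') (by simp [e])
          (by simp [e'])
        simpa using this
    simp only [F, this]
  have pos : 0 < H.index := Nat.pos_of_ne_zero hH.index_ne_zero
  by_cases z0 : (J 0 0 : Z13) = 0
  · exact sudoku hS (rl 1 (z0 ▸ d01.symm)) (rl 2 (z0 ▸ d02.symm)) d12 _ pos hM
  by_cases z1 : (J 1 0 : Z13) = 0
  · exact sudoku hS (rl 0 z0) (rl 2 (z1 ▸ d12.symm)) d02 _ pos hM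
  · exact sudoku hS (rl 0 z0) (rl 1 z1) d01 _ pos hM

lemma sys_G0 (hr : ∀ k, 13 ≤ r k) : ∃ L, Sys (G0 r) L := by
  classical
  have hW : (Wd ×ˢ (Set.univ : Set (Om r))).Finite :=
    (((Set.finite_range vv).insert _).insert _).prod Set.finite_univ
  refine ⟨(hW.toFinset.powerset.filter fun F => IsTiling (A0 r) F).toList, ⟨A0 r, fun F hF => ?_⟩,
    fun A hA => not_per (solv_of fun F h1 h2 => hA F ?_) hr⟩
  · exact (Finset.mem_filter.1 (Finset.mem_toList.1 hF)).2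
  · refine Finset.mem_toList.2 (Finset.mem_filter.2 ⟨Finset.mem_powerset.2 fun f hf => ?_, h2⟩)
    exact hW.mem_toFinset.2 ⟨h1 f hf, trivial⟩

lemma exists_primes : ∃ r : Kx → ℕ, Function.Injective r ∧ ∀ k, (r k).Prime ∧ 13 < r k := by
  have hi : ({q : ℕ | q.Prime} \ Set.Iic 13).Infinite :=
    Nat.infinite_setOf_prime.diff (Set.finite_Iic 13)
  obtain ⟨e⟩ : Nonempty (Kx ↪ ℕ) := nonempty_embedding_nat Kx
  refine ⟨fun k => (hi.natEmbedding _ (e k) : ℕ), fun k k' h => ?_, fun k => ?_⟩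
  · exact e.injective ((hi.natEmbedding _).injective (Subtype.ext h))
  · have := (hi.natEmbedding _ (e k)).2
    exact ⟨this.1, not_le.1 this.2⟩

lemma crt (hi : Function.Injective r) (hr : ∀ k, 13 < r k) (z : Zq) (u : ∀ k, ZMod (r k)) :
    ∃ x : ℤ, (x : Zq) = z ∧ ∀ k, (x : ZMod (r k)) = u k := by
  classical
  let s : Option Kx → ℕ := fun o => o.elim 169 r
  let a : Option Kx → ℕ := fun o => match o with
    | none => z.val
    | some k => (u k).val
  have c169 : ∀ k, Nat.Coprime 169 (r k) := by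
    intro k
    have : Nat.Coprime 13 (r k) :=
      (Nat.coprime_primes (by norm_num) (hp k).out).2 (hr k).ne
    exact Nat.Coprime.pow_left 2 this
  obtain ⟨t, ht⟩ : ∃ t : Finset (Option Kx), ∀ o, o ∈ t :=
    ⟨(Set.finite_univ (α := Option Kx)).toFinset, fun o => by simp⟩
  obtain ⟨x, hx⟩ := Nat.chineseRemainderOfFinset a s t (by
    rintro (_ | k) -
    · simp [s]
    · exact (hp k).out.ne_zero) (by
    rintro (_ | k) - (_ | k') - hne
    · exact absurd rfl hne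
    · exact c169 k'
    · exact (c169 k).symm
    · exact (Nat.coprime_primes (hp k).out (hp k').out).2 fun q => hne (congrArg some (hi q)))
  refine ⟨x, ?_, fun k => ?_⟩
  · have := (ZMod.natCast_eq_natCast_iff _ _ 169).2 (hx none (ht _))
    simpa [a] using this
  · have := (ZMod.natCast_eq_natCast_iff _ _ (r k)).2 (hx (some k) (ht _))
    simpa [a] using this

abbrev G5 := ((ℤ × ℤ) × (ℤ × ℤ)) × ℤ

theorem sys5 : ∃ F, Sys G5 [F] := by
  obtain ⟨r, hi, hr⟩ := exists_primes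
  haveI : ∀ k, Fact (r k).Prime := fun k => ⟨(hr k).1⟩
  obtain ⟨L, hL⟩ := sys_G0 (r := r) fun k => (hr k).2.le
  let π : G5 →+ G0 r := AddMonoidHom.mk' (fun g => (g.1.1, (((g.1.2.1 : Zq), (g.1.2.2 : Zq),
    (g.2 : Z13)), fun k => ((g.1.2.1 : ZMod (r k)), (g.1.2.2 : ZMod (r k)))))) (by
      intro a b; ext <;> simp)
  have hπ : Function.Surjective π := by
    rintro ⟨x, ⟨z, w, y⟩, u⟩
    obtain ⟨x1, h1, h1'⟩ := crt hi (fun k => (hr k).2) z fun k => (u k).1
    obtain ⟨x2, h2, h2'⟩ := crt hi (fun k => (hr k).2) w fun k => (u k).2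
    obtain ⟨x3, h3⟩ := ZMod.intCast_surjective y
    refine ⟨((x, x1, x2), x3), ?_⟩
    ext <;> simp [π, h1, h2, h3, h1', h2']
  obtain ⟨S, hS⟩ : π.ker.FG := by
    have := (IsNoetherian.noetherian (R := ℤ) (AddSubgroup.toIntSubmodule π.ker))
    exact (Submodule.fg_iff_addSubgroup_fg _).1 this
  obtain ⟨L', hL'⟩ := sys_lift π hπ S hS L hL
  exact sys_one L' hL'

theorem sys_dim (d : ℕ) (hd : 5 ≤ d) : ∃ F, Sys (Fin d → ℤ) [F] := by
  obtain ⟨F, hF⟩ := sys5
  have e : (G5 × (Fin (d - 5) → ℤ)) ≃ₗ[ℤ] (Fin d → ℤ) :=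
    LinearEquiv.ofFinrankEq _ _ (by simp; omega)
  exact sys_ext e.toAddEquiv F hF

end Vale.Agent.P043
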